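import Vale.Agent.P030.H352.DiscR
import Vale.Agent.P030.H639.N8b

/-!
# P030, route N: the zero patterns at the cusp circles (N3, glue for AR/NTop)

`CT c B pat` = the constant relations between a cell with constants `B` and the disc at the cusp `c`;
`CT.h1 .. CT.h4` = the four fields `hC1 .. hC4` of `TopN.Pat`.
-/

open PowerSeries Matrix Finset Filter Topology
open scoped ComplexConjugate

namespace Vale.Agent.P030.H352

open Vale.Agent.P030.T Vale.Agent.P030.H462 Vale.Agent.P030.AR Vale.Agent.P030.H265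
open Vale.Agent.P030.H580 Vale.Agent.P030.H787
open Vale.Agent.P030.H639 (E Rel Zr trans_zero)

noncomputable section

theorem glc_eq (c : Fin 4) : glc c = gl c := by fin_cases c <;> rfl

/-- eight vectors as a matrix -/
def mx (V : Fin 8 → Fin 8 → ℂ) : Matrix (Fin 8) (Fin 8) ℂ := V

theorem glc_E (c : Fin 4) (T : ℂ) {t : ℂ} (ht : ‖t‖ < 1) (h0 : t ≠ 0) :
    mx (glc c T t) = E c T * mx (glc c 0 t) := by
  ext i j
  rw [Matrix.mul_apply]
  change glc c T t i j = ∑ k, E c T i k * glc c 0 t k j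
  rw [glc_eq, H639.gl_E c T ht h0 i, Finset.sum_apply]
  rfl

theorem adm_E {c : Fin 4} {T : ℂ} {LA : Matrix (Fin 8) (Fin 8) ℂ} (hL : Ar * E c T = LA * Ar)
    {t : ℂ} (ht : ‖t‖ < 1) (h0 : t ≠ 0) :
    adm Ar Qr (glc c T t) = LA * adm Ar Qr (glc c 0 t) := by
  change Ar * mx (glc c T t) * Qr = LA * (Ar * mx (glc c 0 t) * Qr)
  rw [glc_E c T ht h0, ← Matrix.mul_assoc Ar, hL]
  simp only [Matrix.mul_assoc]

theorem Pz_eq (X : Fin 8 → ℂ → Fin 8 → ℂ) (z : ℂ) :
    Pz X z = adm Ar Qr (fun i => X i (yz z)) := by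
  ext i j
  have h1 : ∀ l, (Ar * mx (fun i => X i (yz z))) i l = rowX X (yz z) i l := by
    intro l
    rw [Matrix.mul_apply, Fin.sum_univ_eight]
    fin_cases i <;> simp [Ar, rowX, mx]
  have h2 : adm Ar Qr (fun i => X i (yz z)) i j = ∑ l, rowX X (yz z) i l * Qr l j := by
    change (Ar * mx (fun i => X i (yz z)) * Qr) i j = _
    rw [Matrix.mul_apply]
    exact Finset.sum_congr rfl fun l _ => by rw [h1]
  rw [h2, Fin.sum_univ_eight]
  fin_cases j <;> simp [Pz, colY, Qr]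
  ring

theorem isOpen_RY (c : Fin 4) : IsOpen (RY c) := by
  have hre : Continuous fun y : ℂ => y.re := Complex.continuous_re
  have him : Continuous fun y : ℂ => y.im := Complex.continuous_im
  have hi : IsOpen {y : ℂ | y.im < 0} := isOpen_lt him continuous_const
  have hn : ∀ a : ℝ, IsOpen {y : ℂ | y.re ≠ a} := fun a => isOpen_ne_fun hre continuous_const
  fin_cases c
  · exact (isOpen_lt hre continuous_const).inter (hi.union (hn (-1)))
  · exact (isOpen_lt continuous_norm continuous_const).inter (hi.union (hn 0))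
  · exact (isOpen_lt continuous_const hre).inter (hi.union (hn 1))
  · exact (isOpen_lt continuous_const continuous_norm).inter
      (hi.union (isOpen_lt continuous_const hre.abs))

theorem RY_sub_DY {c : Fin 4} {y : ℂ} (hy : y ∈ RY c) : y ∈ H181.DY c := by
  fin_cases c
  · exact hy.1
  · exact hy.1
  · exact hy.1
  · exact hy.1

theorem RY_sub_OmY {c : Fin 4} {y : ℂ} (hy : y ∈ RY c) : y ∈ OmY := by
  fin_cases c
  · obtain ⟨h1, h2 | h2⟩ := hy
    · exact Or.inl h2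
    · exact Or.inr ⟨h2, ne_of_lt h1, by linarith⟩
  · obtain ⟨h1, h2 | h2⟩ := hy
    · exact Or.inl h2
    · have h3 := (Complex.abs_re_le_norm y).trans_lt h1
      rw [abs_lt] at h3
      exact Or.inr ⟨ne_of_gt h3.1, h2, ne_of_lt h3.2⟩
  · obtain ⟨h1, h2 | h2⟩ := hy
    · exact Or.inl h2
    · exact Or.inr ⟨by linarith, ne_of_gt h1, h2⟩
  · obtain ⟨h1, h2 | h2⟩ := hy
    · exact Or.inl h2
    · refine Or.inr ⟨?_, ?_, ?_⟩ <;> (intro h3; rw [h3] at h2; norm_num at h2)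

/-- the closed upper half of the cusp circle -/
theorem circle_mem_RY {c : Fin 4} {r : ℝ} (hr0 : 0 < r) (hr : c ≠ 3 → r < 1 / 2)
    (hr3 : c = 3 → 1 < r) {z : ℂ} (hz : ‖z - cen c‖ = r) (him : 0 ≤ z.im) : yz z ∈ RY c := by
  have hup : 0 < z.im → (yz z).im < 0 := fun h => by rw [yz_im]; linarith
  have hreal : z.im = 0 → ∀ a : ℝ, ‖z - a‖ = r → z.re ≠ a := by
    intro h a ha h1
    have : z = (a : ℂ) := Complex.ext (by simpa using h1) (by simpa using h)
    rw [this, sub_self, norm_zero] at ha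
    linarith
  fin_cases c
  · have h1 : ‖z - 1‖ = r := hz
    have h2 := (Complex.abs_re_le_norm (z - 1))
    rw [h1, abs_le] at h2
    simp only [Complex.sub_re, Complex.one_re] at h2
    have h3 := hr (by decide)
    refine ⟨by rw [yz_re]; linarith [h2.1], ?_⟩
    rcases him.lt_or_eq with h | h
    · exact Or.inl (hup h)
    · right
      have h4 := hreal h.symm 1 (by simpa using h1)
      rw [yz_re]
      intro h5
      exact h4 (by linarith)
  · have h1 : ‖z - 1 / 2‖ = r := hz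
    have h3 := hr (by decide)
    refine ⟨by rw [yz_norm]; linarith, ?_⟩
    rcases him.lt_or_eq with h | h
    · exact Or.inl (hup h)
    · right
      have h4 := hreal h.symm (1 / 2) (by push_cast; exact h1)
      rw [yz_re]
      intro h5
      exact h4 (by linarith)
  · have h1 : ‖z - 0‖ = r := hz
    have h2 := (Complex.abs_re_le_norm (z - 0))
    rw [h1, abs_le, sub_zero] at h2
    have h3 := hr (by decide)
    refine ⟨by rw [yz_re]; linarith [h2.2], ?_⟩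
    rcases him.lt_or_eq with h | h
    · exact Or.inl (hup h)
    · right
      have h4 := hreal h.symm 0 (by simpa using h1)
      rw [yz_re]
      intro h5
      exact h4 (by linarith)
  · have h1 : ‖z - 1 / 2‖ = r := hz
    have h3 := hr3 rfl
    have h4 : 1 < ‖yz z‖ := by rw [yz_norm]; linarith
    refine ⟨h4, ?_⟩
    rcases him.lt_or_eq with h | h
    · exact Or.inl (hup h)
    · right
      have h5 : yz z = (((yz z).re : ℝ) : ℂ) :=
        Complex.ext (by simp) (by rw [yz_im, ← h]; simp)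
      rw [h5, Complex.norm_real, Real.norm_eq_abs] at h4
      exact h4

theorem tY_ne {c : Fin 4} {y : ℂ} (hy : y ∈ RY c) : tY c y ≠ 0 := by
  have key : ∀ a : ℝ, (y.im < 0 ∨ y.re ≠ a) → y - a ≠ 0 := by
    intro a h h0
    have h1 : y = (a : ℂ) := sub_eq_zero.1 h0
    rcases h with h | h
    · rw [h1, Complex.ofReal_im] at h; exact lt_irrefl _ h
    · rw [h1, Complex.ofReal_re] at h; exact h rfl
  fin_cases c
  · obtain ⟨h1, h2⟩ := hy
    refine div_ne_zero ?_ ?_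
    · have := key (-1) h2
      simpa using this
    · intro h3
      have h4 : y = 1 := sub_eq_zero.1 h3
      rw [h4] at h1
      norm_num at h1
  · obtain ⟨h1, h2⟩ := hy
    have := key 0 h2
    change y ≠ 0
    simpa using this
  · obtain ⟨h1, h2⟩ := hy
    refine div_ne_zero ?_ ?_
    · have := key 1 h2
      simpa using this
    · intro h3
      have h4 : y = -1 := by linear_combination h3
      rw [h4] at h1
      norm_num at h1
  · obtain ⟨h1, h2⟩ := hy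
    refine div_ne_zero one_ne_zero ?_
    rintro rfl
    norm_num at h1

/-- constant relations between a cell with constants `B` and the disc at the cusp `c` -/
structure CT (c : Fin 4) (B : Matrix (Fin 8) (Fin 8) ℂ) (pat : Fin 8 → Fin 8 → Prop) where
  LA : ℂ → Matrix (Fin 8) (Fin 8) ℂ
  lam : ∀ T, Ar * E c T = LA T * Ar
  Mu : ℂ → Matrix (Fin 8) (Fin 8) ℂ
  Md : ℂ → Matrix (Fin 8) (Fin 8) ℂ
  cst : Cst B
  up : ∀ T, Rel B (LA T) (BR c) (Mu T)
  dn : ∀ T, Rel (BR c) (LA (-T)) B (Md T)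
  zu : ∀ T b b', b ≠ b' → ¬ pat b b' → Zr (Mu T) (BR c) b b'
  zd : ∀ T b b', b ≠ b' → ¬ pat b b' → Zr (Md T) B b b'

variable {X : Fin 8 → ℂ → Fin 8 → ℂ} {c : Fin 4} {B : Matrix (Fin 8) (Fin 8) ℂ}
  {pat : Fin 8 → Fin 8 → Prop}

theorem CT.Pz_rel (H : CT c B pat) (hX : YD X) {z : ℂ} (hz : yz z ∈ RY c) :
    Pz X z = H.LA (TY c (yz z)) * adm Ar Qr (glc c 0 (tz c z)) := by
  have hU : z ∈ Ud c := RY_sub_DY hz
  rw [← adm_E (H.lam _) (norm_tz_lt hU) (tY_ne hz), Pz_eq]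
  congr 1
  funext i
  exact hX.cusp c i _ hz

theorem isUnit_Ar : ∃ Ai : Matrix (Fin 8) (Fin 8) ℂ, Ar * Ai = 1 := by
  refine ⟨!![1, 0, 0, 0, 0, 0, 0, 0;
     0, 1, 0, 0, 0, 0, 0, 0;
     0, 0, 1, 0, 0, 0, 0, 0;
     0, 0, 0, 1, 0, 0, 0, 0;
     0, 0, 0, -1, 0, 1, 0, 0;
     0, 0, 0, 0, 1, 0, 0, 0;
     0, 0, 0, 0, 0, 0, pc, 0;
     0, 0, 0, 0, 0, 0, 0, pc], ?_⟩
  have hp := pc_ne
  ext i j
  fin_cases i <;> fin_cases j <;>
    simp [Ar, Matrix.mul_apply, Fin.sum_univ_eight, Matrix.one_apply, hp]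

theorem CT.LA_inv (H : CT c B pat) (T : ℂ) : H.LA (-T) * H.LA T = 1 := by
  obtain ⟨Ai, hAi⟩ := isUnit_Ar
  have h1 : H.LA (-T) * H.LA T * Ar = Ar := by
    rw [Matrix.mul_assoc, ← H.lam T, ← Matrix.mul_assoc, ← H.lam (-T), Matrix.mul_assoc,
      ← H639.E_add, neg_add_cancel, H639.E_zero, Matrix.mul_one]
  calc H.LA (-T) * H.LA T = H.LA (-T) * H.LA T * Ar * Ai := by
        rw [Matrix.mul_assoc _ Ar Ai, hAi, Matrix.mul_one]
    _ = 1 := by rw [h1, hAi]

theorem CT.at_up (H : CT c B pat) (hX : YD X) {z : ℂ} (hz : yz z ∈ RY c)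
    (hk : kF (Pz X z) (B 6 6) (B 6 7) ≠ 0) {b b' : Fin 8} (hbb : b ≠ b') (hp : ¬ pat b b') :
    TopN.tr (frm (Pz X z) B) (Dz c z) b b' = 0 :=
  trans_zero (adap_adm bch_r (bup_glc c 0 _)) (cst_BR c) (H.up _) (H.Pz_rel hX hz) hk
    (kF_ne bch_r (fit_BR c) (norm_tz_lt (RY_sub_DY hz)) fun _ => tY_ne hz) (H.zu _ b b' hbb hp)

theorem CT.at_dn (H : CT c B pat) (hX : YD X) {z : ℂ} (hz : yz z ∈ RY c)
    (hk : kF (Pz X z) (B 6 6) (B 6 7) ≠ 0) {b b' : Fin 8} (hbb : b ≠ b') (hp : ¬ pat b b') :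
    TopN.tr (Dz c z) (frm (Pz X z) B) b b' = 0 := by
  have h1 : adm Ar Qr (glc c 0 (tz c z)) = H.LA (-TY c (yz z)) * Pz X z := by
    rw [H.Pz_rel hX hz, ← Matrix.mul_assoc, H.LA_inv, Matrix.one_mul]
  exact trans_zero (Pz_adap hX (RY_sub_OmY hz)) H.cst (H.dn _) h1
    (kF_ne bch_r (fit_BR c) (norm_tz_lt (RY_sub_DY hz)) fun _ => tY_ne hz) hk (H.zd _ b b' hbb hp)

/-- the pattern with the diagonal -/
def pd (pat : Fin 8 → Fin 8 → Prop) (b b' : Fin 8) : Prop := b = b' ∨ pat b b'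

theorem cen_conj {c : Fin 4} {z : ℂ} : ‖conj z - cen c‖ = ‖z - cen c‖ := by
  have h2 : conj (2 : ℂ) = 2 := map_ofNat _ 2
  have h : conj (cen c) = cen c := by fin_cases c <;> simp [cen, h2]
  rw [← Complex.norm_conj (z - cen c), map_sub, h]

section fields

variable {ρ : Fin 4 → ℝ} (hρ : ∀ c, 0 < ρ c) (s01 : ρ 0 + ρ 1 < 1 / 2) (s12 : ρ 1 + ρ 2 < 1 / 2)
  (s3 : 1 < ρ 3)

include hρ s01 s12 s3

theorem ev_RY {c : Fin 4} {z : ℂ} (hz : ‖z - cen c‖ = ρ c) (him : 0 ≤ z.im) :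
    ∀ᶠ z' in 𝓝 z, yz z' ∈ RY c := by
  have h1 : yz z ∈ RY c := by
    refine circle_mem_RY (hρ c) ?_ ?_ hz him
    · intro hc
      have r0 := hρ 0
      have r1 := hρ 1
      have r2 := hρ 2
      have : c = 0 ∨ c = 1 ∨ c = 2 := by omega
      rcases this with rfl | rfl | rfl <;> linarith
    · rintro rfl; exact s3
  exact (cont_yz.continuousAt).eventually_mem ((isOpen_RY c).mem_nhds h1)

/-- `hC1` -/
theorem CT.h1 (H : CT c B pat) (hX : YD X) {z : ℂ} (hz : ‖z - cen c‖ = ρ c) (him : 0 ≤ z.im)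
    {b b' : Fin 8} (hp : ¬ pd pat b b') :
    ∀ᶠ z' in 𝓝 z, kF (Pz X z') (B 6 6) (B 6 7) ≠ 0 →
      TopN.tr (frm (Pz X z') B) (Dz c z') b b' = 0 := by
  filter_upwards [ev_RY hρ s01 s12 s3 hz him] with z' h1 h2
  exact H.at_up hX h1 h2 (fun h => hp (Or.inl h)) fun h => hp (Or.inr h)

/-- `hC2` -/
theorem CT.h2 (H : CT c B pat) (hX : YD X) {z : ℂ} (hz : ‖z - cen c‖ = ρ c) (him : 0 ≤ z.im)
    {b b' : Fin 8} (hp : ¬ pd pat b b') :
    ∀ᶠ z' in 𝓝 z, kF (Pz X z') (B 6 6) (B 6 7) ≠ 0 →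
      TopN.tr (Dz c z') (frm (Pz X z') B) b b' = 0 := by
  filter_upwards [ev_RY hρ s01 s12 s3 hz him] with z' h1 h2
  exact H.at_dn hX h1 h2 (fun h => hp (Or.inl h)) fun h => hp (Or.inr h)

/-- `hC3` -/
theorem CT.h3 (H : CT c B pat) (hX : YD X) {z : ℂ} (hz : ‖z - cen c‖ = ρ c) (him : z.im < 0)
    {b b' : Fin 8} (hp : ¬ pd pat b b') :
    ∀ᶠ z' in 𝓝 z, kF (Pz X (conj z')) (B 6 6) (B 6 7) ≠ 0 →
      TopN.tr ((frm (Pz X (conj z')) B).map conj) (Dz c z') b b' = 0 := by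
  have h1 := H.h1 hρ s01 s12 s3 hX (z := conj z)
    (by rw [cen_conj]; exact hz) (by rw [Complex.conj_im]; linarith) hp
  have h2 : Filter.Tendsto conj (𝓝 z) (𝓝 (conj z)) := Complex.continuous_conj.tendsto z
  filter_upwards [h2.eventually h1] with z' h3 h4
  rw [tr_mirror, h3 h4, map_zero]

/-- `hC4` -/
theorem CT.h4 (H : CT c B pat) (hX : YD X) {z : ℂ} (hz : ‖z - cen c‖ = ρ c) (him : z.im < 0)
    {b b' : Fin 8} (hp : ¬ pd pat b b') :
    ∀ᶠ z' in 𝓝 z, conj z' ∈ OmP → kF (Pz X (conj z')) (B 6 6) (B 6 7) ≠ 0 →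
      TopN.tr (Dz c z') ((frm (Pz X (conj z')) B).map conj) b b' = 0 := by
  have h1 := H.h2 hρ s01 s12 s3 hX (z := conj z)
    (by rw [cen_conj]; exact hz) (by rw [Complex.conj_im]; linarith) hp
  have h2 : Filter.Tendsto conj (𝓝 z) (𝓝 (conj z)) := Complex.continuous_conj.tendsto z
  filter_upwards [h2.eventually h1] with z' h3 h5 h4
  rw [tr_mirror' ?_, h3 h4, map_zero]
  rw [H639.det_frm (Pz_adap hX h5) H.cst]
  exact isUnit_one

end fields

end

end Vale.Agent.P030.H352
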