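import Vale.Agent.P030.H742.MaxP

/-!
# P030, route H, step A: the bound for a finite family of members

A member `a` is a compact set `K a`, an open subset `U a`, a function `s a = t a ^ m a * g a`
(`t a` the local parameter if `K a` contains a cusp, `t a = 1` otherwise) and a potential
`h a * log |t a| + reg a`.
-/

open Filter Topology Set Finset

namespace Vale.Agent.P030.H352

open Vale.Agent.P030.H742

theorem locRe_log_norm {t : ℂ → ℂ} {x : ℂ} (ht : AnalyticAt ℂ t x) (h : t x ≠ 0) :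
    LocRe (fun z => Real.log ‖t z‖) x := by
  refine ⟨fun z => Complex.log (t z / t x) + (Real.log ‖t x‖ : ℂ), ?_, ?_⟩
  · refine AnalyticAt.add (AnalyticAt.clog ?_ ?_) analyticAt_const
    · exact ht.div analyticAt_const h
    · rw [div_self h]; exact Complex.one_mem_slitPlane
  · filter_upwards [ht.continuousAt.eventually_ne h] with z hz
    rw [Complex.add_re, Complex.log_re, Complex.ofReal_re, norm_div,
      Real.log_div (norm_ne_zero_iff.2 hz) (norm_ne_zero_iff.2 h)]
    ring

theorem LocRe.neg' {ψ : ℂ → ℝ} {x : ℂ} (h : LocRe ψ x) : LocRe (fun z => -ψ z) x := by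
  simpa using h.mul_left (-1)

/-- the local maximum property of `|g| |t|^κ exp(-τ reg)` -/
theorem locMax_member {g t : ℂ → ℂ} {reg : ℂ → ℝ} {x : ℂ} {κ τ : ℝ} (hκ : 0 ≤ κ)
    (hg : AnalyticAt ℂ g x) (ht : AnalyticAt ℂ t x) (hreg : LocRe reg x)
    (h : IsLocalMax (fun z => ‖g z‖ * ‖t z‖ ^ κ * Real.exp (-(τ * reg z))) x) :
    ∀ᶠ y in 𝓝 x, ‖g y‖ * ‖t y‖ ^ κ * Real.exp (-(τ * reg y)) =
      ‖g x‖ * ‖t x‖ ^ κ * Real.exp (-(τ * reg x)) := by
  by_cases htx : t x = 0
  · rcases hκ.eq_or_lt with h0 | h0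
    · subst h0
      simp only [Real.rpow_zero, mul_one] at h ⊢
      exact locMax hg (hreg.mul_left τ) h
    · have hx : ‖g x‖ * ‖t x‖ ^ κ * Real.exp (-(τ * reg x)) = 0 := by
        rw [htx, norm_zero, Real.zero_rpow h0.ne']; simp
      filter_upwards [h] with y hy
      rw [hx] at hy ⊢
      exact le_antisymm hy (by positivity)
  · have key : ∀ᶠ z in 𝓝 x, ‖g z‖ * ‖t z‖ ^ κ * Real.exp (-(τ * reg z)) =
        ‖g z‖ * Real.exp (-(τ * reg z + -(κ * Real.log ‖t z‖))) := by
      filter_upwards [ht.continuousAt.eventually_ne htx] with z hz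
      rw [Real.rpow_def_of_pos (norm_pos_iff.2 hz), mul_assoc, ← Real.exp_add]
      congr 2
      ring
    have h2 : IsLocalMax (fun z => ‖g z‖ * Real.exp (-(τ * reg z + -(κ * Real.log ‖t z‖)))) x := by
      filter_upwards [h, key] with z h1 h2
      rw [← h2, ← key.self_of_nhds]
      exact h1
    have h3 := locMax hg ((hreg.mul_left τ).add
      (LocRe.neg' ((locRe_log_norm ht htx).mul_left κ))) h2
    filter_upwards [h3, key] with z h4 h5
    rw [h5, h4, key.self_of_nhds]

/-- **the family bound** -/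
theorem family_bound {A : Type*} [Fintype A] (K U : A → Set ℂ) (hK : ∀ a, IsCompact (K a))
    (hU : ∀ a, IsOpen (U a)) (hUK : ∀ a, U a ⊆ K a) (s g t : A → ℂ → ℂ) (m : A → ℕ)
    (h : A → ℝ) (reg : A → ℂ → ℝ) {τ B C δ : ℝ} (hB : 0 ≤ B)
    (hs : ∀ a, ∀ y ∈ K a, s a y = t a y ^ m a * g a y)
    (hg : ∀ a, ContinuousOn (g a) (K a)) (hg' : ∀ a, ∀ y ∈ U a, AnalyticAt ℂ (g a) y)
    (ht : ∀ a, ContinuousOn (t a) (K a)) (ht' : ∀ a, ∀ y ∈ U a, AnalyticAt ℂ (t a) y)
    (hreg : ∀ a, ContinuousOn (reg a) (K a)) (hreg' : ∀ a, ∀ y ∈ U a, LocRe (reg a) y)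
    (hm : ∀ a, τ * h a ≤ m a) (hτ : 0 ≤ τ)
    (hedge : ∀ a, ∀ y ∈ K a, y ∉ U a → t a y ≠ 0 ∧
      (‖s a y‖ * Real.exp (-(τ * (h a * Real.log ‖t a y‖ + reg a y))) ≤ B ∨
        ∃ c : A → ℂ, ∑ b, ‖c b‖ ≤ C ∧ s a y = ∑ b, c b * s b y ∧
          ∀ b, c b ≠ 0 → y ∈ K b ∧ t b y ≠ 0 ∧
            h b * Real.log ‖t b y‖ + reg b y + δ ≤ h a * Real.log ‖t a y‖ + reg a y))
    (hC : C * Real.exp (-(τ * δ)) < 1) :
    ∀ a, ∀ y ∈ K a,
      ‖g a y‖ * ‖t a y‖ ^ ((m a : ℝ) - τ * h a) * Real.exp (-(τ * reg a y)) ≤ B := by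
  classical
  have hκ : ∀ a, 0 ≤ (m a : ℝ) - τ * h a := fun a => by linarith [hm a]
  -- away from the cusp
  have hform : ∀ a, ∀ y ∈ K a, t a y ≠ 0 →
      ‖g a y‖ * ‖t a y‖ ^ ((m a : ℝ) - τ * h a) * Real.exp (-(τ * reg a y)) =
      ‖s a y‖ * Real.exp (-(τ * (h a * Real.log ‖t a y‖ + reg a y))) := by
    intro a y hy hty
    have hpos := norm_pos_iff.2 hty
    rw [hs a y hy, norm_mul, norm_pow, Real.rpow_sub hpos, Real.rpow_natCast]
    have h1 : ‖t a y‖ ^ (τ * h a) = Real.exp (τ * h a * Real.log ‖t a y‖) := by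
      rw [Real.rpow_def_of_pos hpos]; congr 1; ring
    rw [h1]
    have h2 : Real.exp (-(τ * (h a * Real.log ‖t a y‖ + reg a y))) =
        (Real.exp (τ * h a * Real.log ‖t a y‖))⁻¹ * Real.exp (-(τ * reg a y)) := by
      rw [← Real.exp_neg, ← Real.exp_add]; congr 1; ring
    rw [h2, div_eq_mul_inv]
    ring
  refine maxP K U hK hU hUK
    (fun a y => ‖g a y‖ * ‖t a y‖ ^ ((m a : ℝ) - τ * h a) * Real.exp (-(τ * reg a y))) ?_ ?_ B ?_
  · intro a
    refine ((hg a).norm.mul ((ht a).norm.rpow_const fun y _ => Or.inr (hκ a))).mul ?_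
    exact Real.continuous_exp.comp_continuousOn ((continuousOn_const.mul (hreg a)).neg)
  · intro a x hx hl
    exact locMax_member (hκ a) (hg' a x hx) (ht' a x hx) (hreg' a x hx) hl
  · intro a x hx hxU
    obtain ⟨htx, hor⟩ := hedge a x hx hxU
    rcases hor with h1 | ⟨c, hc, hrel, hdom⟩
    · left
      rw [hform a x hx htx]; exact h1
    · -- the relation
      by_cases hzero : ‖g a x‖ * ‖t a x‖ ^ ((m a : ℝ) - τ * h a) * Real.exp (-(τ * reg a x)) ≤ B
      · exact Or.inl hzero
      right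
      push Not at hzero
      by_contra hno
      push Not at hno
      -- all other members are at most the value of `a`
      set v := ‖g a x‖ * ‖t a x‖ ^ ((m a : ℝ) - τ * h a) * Real.exp (-(τ * reg a x)) with hv
      have hvpos : 0 < v := lt_of_le_of_lt hB hzero
      have hva := hform a x hx htx
      rw [← hv] at hva
      have hb : ∀ b, ‖c b * s b x‖ *
          Real.exp (-(τ * (h a * Real.log ‖t a x‖ + reg a x))) ≤
          ‖c b‖ * (Real.exp (-(τ * δ)) * v) := by
        intro b
        by_cases hcb : c b = 0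
        · simp [hcb]
        obtain ⟨hxb, htb, hψ⟩ := hdom b hcb
        have h1 := hno b hxb
        rw [hform b x hxb htb] at h1
        rw [norm_mul, mul_assoc]
        refine mul_le_mul_of_nonneg_left ?_ (norm_nonneg _)
        have h2 : Real.exp (-(τ * (h a * Real.log ‖t a x‖ + reg a x))) ≤
            Real.exp (-(τ * δ)) *
            Real.exp (-(τ * (h b * Real.log ‖t b x‖ + reg b x))) := by
          rw [← Real.exp_add]
          apply Real.exp_le_exp.2
          nlinarith [mul_le_mul_of_nonneg_left hψ hτ]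
        calc ‖s b x‖ * Real.exp (-(τ * (h a * Real.log ‖t a x‖ + reg a x)))
            ≤ ‖s b x‖ * (Real.exp (-(τ * δ)) *
              Real.exp (-(τ * (h b * Real.log ‖t b x‖ + reg b x)))) :=
              mul_le_mul_of_nonneg_left h2 (norm_nonneg _)
          _ = Real.exp (-(τ * δ)) * (‖s b x‖ *
              Real.exp (-(τ * (h b * Real.log ‖t b x‖ + reg b x)))) := by ring
          _ ≤ _ := mul_le_mul_of_nonneg_left h1 (Real.exp_nonneg _)
      have h3 : v ≤ C * Real.exp (-(τ * δ)) * v := by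
        calc v = ‖∑ b, c b * s b x‖ *
              Real.exp (-(τ * (h a * Real.log ‖t a x‖ + reg a x))) := by rw [hva, hrel]
          _ ≤ (∑ b, ‖c b * s b x‖) *
              Real.exp (-(τ * (h a * Real.log ‖t a x‖ + reg a x))) :=
              mul_le_mul_of_nonneg_right (norm_sum_le _ _) (Real.exp_nonneg _)
          _ = ∑ b, ‖c b * s b x‖ *
              Real.exp (-(τ * (h a * Real.log ‖t a x‖ + reg a x))) := Finset.sum_mul ..
          _ ≤ ∑ b, ‖c b‖ * (Real.exp (-(τ * δ)) * v) := Finset.sum_le_sum fun b _ => hb b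
          _ = (∑ b, ‖c b‖) * (Real.exp (-(τ * δ)) * v) := (Finset.sum_mul ..).symm
          _ ≤ C * (Real.exp (-(τ * δ)) * v) :=
              mul_le_mul_of_nonneg_right hc (by positivity)
          _ = _ := by ring
      nlinarith

/-- removing a zero: a function on the unit disc given by its Taylor coefficients -/
theorem exists_div_pow {S : ℂ → ℂ} {c : ℕ → ℂ} {m : ℕ}
    (hS : ∀ z ∈ Metric.ball (0 : ℂ) 1, HasSum (fun k => c k * z ^ k) (S z))
    (hc : ∀ k < m, c k = 0) :
    ∃ G : ℂ → ℂ, DifferentiableOn ℂ G (Metric.ball 0 1) ∧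
      (∀ z ∈ Metric.ball (0 : ℂ) 1, S z = z ^ m * G z) ∧ G 0 = c m := by
  -- the shifted series
  have hsum : ∀ z ∈ Metric.ball (0 : ℂ) 1, Summable fun k => c (k + m) * z ^ k := by
    intro z hz
    by_cases hz0 : z = 0
    · subst hz0
      refine summable_of_ne_finset_zero (s := {0}) fun k hk => ?_
      have : k ≠ 0 := by simpa using hk
      simp [this]
    · have h1 := (summable_nat_add_iff m).2 (hS z hz).summable
      have h2 := h1.mul_right ((z ^ m)⁻¹)
      refine h2.congr fun k => ?_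
      rw [pow_add]
      field_simp
  refine ⟨fun z => ∑' k, c (k + m) * z ^ k, ?_, ?_, ?_⟩
  · -- differentiability of a convergent power series
    have hp : ∀ z ∈ Metric.ball (0 : ℂ) 1,
        HasSum (fun k => (FormalMultilinearSeries.ofScalars ℂ (fun k => c (k + m))) k
          fun _ => z) (∑' k, c (k + m) * z ^ k) := by
      intro z hz
      have := (hsum z hz).hasSum
      simpa [FormalMultilinearSeries.ofScalars, mul_comm, smul_eq_mul] using this
    set p := FormalMultilinearSeries.ofScalars ℂ (fun k => c (k + m)) with hpdef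
    have hr : (1 : ENNReal) ≤ p.radius := by
      refine ENNReal.le_of_forall_nnreal_lt fun r hr => ?_
      have hr1 : (r : ℝ) < 1 := by exact_mod_cast hr
      have hb : (r : ℂ) ∈ Metric.ball (0 : ℂ) 1 := by simp [hr1]
      refine p.le_radius_of_tendsto (l := 0) ?_
      have h0 := (hsum _ hb).tendsto_atTop_zero.norm
      rw [norm_zero] at h0
      refine h0.congr fun k => ?_
      rw [hpdef, FormalMultilinearSeries.ofScalars_norm, norm_mul, norm_pow]
      simp
    have hfp : HasFPowerSeriesOnBall (fun z => ∑' k, c (k + m) * z ^ k) p 0 1 :=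
      { r_le := hr
        r_pos := one_pos
        hasSum := by
          intro y hy
          have hy' : y ∈ Metric.ball (0 : ℂ) 1 := by
            rw [← Metric.eball_ofReal, ENNReal.ofReal_one]; exact hy
          rw [zero_add]
          exact hp y hy' }
    have := hfp.differentiableOn
    rwa [← Metric.eball_ofReal, ENNReal.ofReal_one]
  · intro z hz
    have h1 := (hS z hz).tsum_eq
    rw [← h1, ← Summable.sum_add_tsum_nat_add m (hS z hz).summable]
    rw [Finset.sum_eq_zero fun k hk => by rw [hc k (Finset.mem_range.1 hk), zero_mul], zero_add,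
      ← tsum_mul_left]
    refine tsum_congr fun k => ?_
    rw [pow_add]; ring
  · change ∑' k, c (k + m) * (0 : ℂ) ^ k = c m
    rw [tsum_eq_single 0 fun k hk => by simp [hk]]
    simp

end Vale.Agent.P030.H352
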