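import Vale.Agent.P030.H352.HarmFam

/-!
# P030, route H, step A in general form

Members: ordinary ones (`cu a = 3`, parameter `1`), and disc members at the cusps `c0, c1, c2`, whose
vector is a constant combination of the groups of the cusp. On the outer circles `|y| = R κ` the
members are rows of the frame at `c3` and their potential is at least `lam`.
-/

open PowerSeries Finset Filter Topology

namespace Vale.Agent.P030.H352

open Vale.Agent.P030.T Vale.Agent.P030.H462 Vale.Agent.P030.AR Vale.P030.H205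
open Vale.Agent.P030.H742

variable {A : Type} [Fintype A]

/-- the data of a family of members (in the `y`-plane) -/
structure Fam (A : Type) where
  /-- closed domain -/
  K : A → Set ℂ
  /-- interior -/
  U : A → Set ℂ
  /-- the vector -/
  e : A → ℂ → Fin 8 → ℂ
  /-- the cusp of a disc member, `3` for an ordinary member -/
  cu : A → Fin 4
  /-- the combination of the groups of a disc member -/
  cf : A → Gp → ℂ
  /-- the height of a disc member -/
  hh : A → ℕ
  /-- regular part of the potential -/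
  reg : A → ℂ → ℝ

/-- local parameter of a member -/
noncomputable def Fam.tp (F : Fam A) (a : A) (y : ℂ) : ℂ := if F.cu a = 3 then 1 else tl (F.cu a) y

/-- the potential of a member -/
noncomputable def Fam.psi (F : Fam A) (a : A) (y : ℂ) : ℝ :=
  F.hh a * Real.log ‖F.tp a y‖ + F.reg a y

/-- the edge rule for the vector `w` with potential `p` at `y` -/
def Fam.Rel (F : Fam A) (δ C : ℝ) (w : Fin 8 → ℂ) (p : ℝ) (y : ℂ) : Prop :=
  ∃ c : A → ℂ, ∑ b, ‖c b‖ ≤ C ∧ w = ∑ b, c b • F.e b y ∧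
    ∀ b, c b ≠ 0 → y ∈ F.K b ∧ F.tp b y ≠ 0 ∧ F.psi b y + δ ≤ p

/-- the conditions on a family; `G` = the frame at `c3`, `R` = the outer radii, `ht` = the heights -/
structure Fam.Good (F : Fam A) (ht : Gp → ℕ) (G : Matrix (Fin 8) (Fin 8) ℂ⟦X⟧) (R : Fin 8 → ℝ)
    (lam δ C : ℝ) : Prop where
  hK : ∀ a, IsCompact (F.K a)
  hU : ∀ a, IsOpen (F.U a)
  hUK : ∀ a, F.U a ⊆ F.K a
  cont : ∀ a, F.cu a = 3 → ∀ j, ContinuousOn (fun y => F.e a y j) (F.K a)
  ana : ∀ a, F.cu a = 3 → ∀ y ∈ F.U a, ∀ j, AnalyticAt ℂ (fun y => F.e a y j) y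
  disc : ∀ a, F.cu a ≠ 3 → ∀ y ∈ F.K a, yt (F.cu a) (tl (F.cu a) y) = y ∧
    ‖tl (F.cu a) y‖ < 1 ∧ F.e a y = ∑ g, F.cf a g • tupC g (tl (F.cu a) y)
  grp : ∀ a, F.cu a ≠ 3 → ∀ g, F.cf a g ≠ 0 → g.cusp = F.cu a ∧ F.hh a ≤ ht g
  regc : ∀ a, ContinuousOn (F.reg a) (F.K a)
  rega : ∀ a, ∀ y ∈ F.U a, LocRe (F.reg a) y
  edge : ∀ a, ∀ y ∈ F.K a, y ∉ F.U a → F.tp a y ≠ 0 ∧
    (F.Rel δ C (F.e a y) (F.psi a y) y ∨
      ∃ κ, ‖y‖ = R κ ∧ F.e a y = outv G κ y ∧ lam ≤ F.psi a y)

/-- **STEP A, general form** -/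
theorem Fam.bound (F : Fam A) {ht : Gp → ℕ} {G : Matrix (Fin 8) (Fin 8) ℂ⟦X⟧} {R : Fin 8 → ℝ}
    {lam δ C : ℝ} (hF : F.Good ht G R lam δ C)
    (hPG : ∀ g j, PG (Rat.castHom ℂ) (tup0 g j) ∧ PG (Rat.castHom ℂ) (tup1 g j))
    {D : ℕ} {v : Fin D × Fin 8 → ℂ} {B0 τ : ℝ} (hB0 : 0 ≤ B0) (hτ : 0 ≤ τ)
    (hC : C * Real.exp (-(τ * δ)) < 1)
    (hrow : ∀ κ y, ‖y‖ = R κ → ‖sec D v (outv G κ y) y‖ ≤ B0)
    (hkill : ∀ g : Gp, g.cusp ≠ 3 → ∀ k : ℕ, (k : ℝ) < τ * ht g →
      Vale.Agent.P030.T.val D (Gc / 2) v (g, k) = 0) :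
    ∀ a, F.cu a ≠ 3 → ∀ y0 ∈ F.K a, tl (F.cu a) y0 = 0 → ∀ k : ℕ, (k : ℝ) = τ * F.hh a →
      ‖∑ g, F.cf a g * Vale.Agent.P030.T.val D (Gc / 2) v (g, k)‖ ≤
        B0 * Real.exp (-(τ * lam)) * Real.exp (τ * F.reg a y0) := by
  classical
  -- the quotient functions of the disc members
  have hquot : ∀ a : A, ∃ Gq : ℂ → ℂ, F.cu a ≠ 3 → DifferentiableOn ℂ Gq (Metric.ball 0 1) ∧
      (∀ t ∈ Metric.ball (0 : ℂ) 1, sec D v (∑ g, F.cf a g • tupC g t) (yt (F.cu a) t) =
        t ^ ⌈τ * F.hh a⌉₊ * Gq t) ∧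
      Gq 0 = ∑ g, F.cf a g * Vale.Agent.P030.T.val D (Gc / 2) v (g, ⌈τ * F.hh a⌉₊) := by
    intro a
    by_cases ha : F.cu a = 3
    · exact ⟨0, fun h => absurd ha h⟩
    have hA : ∀ z ∈ Metric.ball (0 : ℂ) 1,
        HasSum (fun k => (∑ g, F.cf a g * Vale.Agent.P030.T.val D (Gc / 2) v (g, k)) * z ^ k)
          (sec D v (∑ g, F.cf a g • tupC g z) (yt (F.cu a) z)) := by
      intro z hz
      simp only [Finset.sum_mul]
      rw [sec_sum]
      refine hasSum_sum fun g _ => ?_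
      by_cases hg : F.cf a g = 0
      · simp only [hg, zero_mul]; exact hasSum_zero
      have hgc := (hF.grp a ha g hg).1
      have := (hasSum_val (g := g) (by rw [hgc]; exact ha) (hPG g) D v
        (t := z) (by simpa using hz)).mul_left (F.cf a g)
      rw [hgc] at this
      simpa [mul_assoc] using this
    have hB : ∀ k < ⌈τ * F.hh a⌉₊,
        ∑ g, F.cf a g * Vale.Agent.P030.T.val D (Gc / 2) v (g, k) = 0 := by
      intro k hk
      refine Finset.sum_eq_zero fun g _ => ?_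
      by_cases hg : F.cf a g = 0
      · rw [hg, zero_mul]
      obtain ⟨h1, h2⟩ := hF.grp a ha g hg
      rw [hkill g (by rw [h1]; exact ha) k ?_, mul_zero]
      refine (Nat.lt_ceil.1 hk).trans_le ?_
      exact mul_le_mul_of_nonneg_left (by exact_mod_cast h2) hτ
    obtain ⟨Gq, h1, h2, h3⟩ := exists_div_pow hA hB
    exact ⟨Gq, fun _ => ⟨h1, h2, h3⟩⟩
  choose Gq hGq using hquot
  have key := family_bound F.K F.U hF.hK hF.hU hF.hUK (fun a y => sec D v (F.e a y) y)
    (fun a y => if F.cu a = 3 then sec D v (F.e a y) y else Gq a (tl (F.cu a) y))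
    F.tp (fun a => ⌈τ * F.hh a⌉₊) (fun a => F.hh a) F.reg
    (τ := τ) (B := B0 * Real.exp (-(τ * lam))) (C := C) (δ := δ) (by positivity)
    ?_ ?_ ?_ ?_ ?_ hF.regc hF.rega ?_ hτ ?_ hC
  · intro a ha y0 hy0 ht0 k hk
    have h1 := key a y0 hy0
    have hceil : ⌈τ * (F.hh a : ℝ)⌉₊ = k := by rw [← hk]; exact Nat.ceil_natCast k
    simp only [if_neg ha, Fam.tp, ht0, norm_zero, hceil] at h1
    rw [hk, sub_self, Real.rpow_zero, mul_one] at h1
    have h2 := (hGq a ha).2.2
    rw [hceil] at h2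
    rw [h2] at h1
    have hpos := Real.exp_pos (τ * F.reg a y0)
    have h3 : Real.exp (-(τ * F.reg a y0)) * Real.exp (τ * F.reg a y0) = 1 := by
      rw [← Real.exp_add]; simp
    calc ‖∑ g, F.cf a g * Vale.Agent.P030.T.val D (Gc / 2) v (g, k)‖
        = ‖∑ g, F.cf a g * Vale.Agent.P030.T.val D (Gc / 2) v (g, k)‖ *
          Real.exp (-(τ * F.reg a y0)) * Real.exp (τ * F.reg a y0) := by
          rw [mul_assoc, h3, mul_one]
      _ ≤ _ := mul_le_mul_of_nonneg_right h1 hpos.le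
  · -- factorisation
    intro a y hy
    by_cases ha : F.cu a = 3
    · simp [ha, Fam.tp]
    · obtain ⟨h1, h2, h3⟩ := hF.disc a ha y hy
      simp only [if_neg ha, Fam.tp]
      have h4 := (hGq a ha).2.1 (tl (F.cu a) y) (by simpa using h2)
      rw [h1] at h4
      rw [h3, h4]
  · -- continuity of g
    intro a
    by_cases ha : F.cu a = 3
    · simp only [if_pos ha]
      exact sec_cont v (hF.cont a ha)
    · simp only [if_neg ha]
      refine (hGq a ha).1.continuousOn.comp (fun y hy => ?_) fun y hy => ?_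
      · exact (tl_ana ha (hF.disc a ha y hy).1).continuousAt.continuousWithinAt
      · simpa using (hF.disc a ha y hy).2.1
  · -- analyticity of g
    intro a y hy
    by_cases ha : F.cu a = 3
    · simp only [if_pos ha]
      exact sec_ana v (hF.ana a ha y hy)
    · simp only [if_neg ha]
      obtain ⟨h1, h2, -⟩ := hF.disc a ha y (hF.hUK a hy)
      have h5 : AnalyticAt ℂ (Gq a) (tl (F.cu a) y) := by
        have hb : Metric.ball (0 : ℂ) 1 ∈ 𝓝 (tl (F.cu a) y) :=
          Metric.isOpen_ball.mem_nhds (by simpa using h2)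
        exact (hGq a ha).1.analyticAt hb
      exact h5.fun_comp (tl_ana ha h1)
  · intro a
    by_cases ha : F.cu a = 3
    · have : F.tp a = fun _ => 1 := by funext y; simp [Fam.tp, ha]
      rw [this]; exact continuousOn_const
    · have : F.tp a = tl (F.cu a) := by funext y; simp [Fam.tp, ha]
      rw [this]
      exact fun y hy => (tl_ana ha (hF.disc a ha y hy).1).continuousAt.continuousWithinAt
  · intro a y hy
    by_cases ha : F.cu a = 3
    · have : F.tp a = fun _ => 1 := by funext y; simp [Fam.tp, ha]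
      rw [this]; exact analyticAt_const
    · have : F.tp a = tl (F.cu a) := by funext y; simp [Fam.tp, ha]
      rw [this]
      exact tl_ana ha (hF.disc a ha y (hF.hUK a hy)).1
  · intro a
    exact Nat.le_ceil _
  · -- edges
    intro a y hy hyU
    obtain ⟨h1, h2⟩ := hF.edge a y hy hyU
    refine ⟨h1, ?_⟩
    rcases h2 with ⟨c, hc1, hc2, hc3⟩ | ⟨κ, hyR, hek, hlam⟩
    · right
      refine ⟨c, hc1, ?_, fun b hb => ?_⟩
      · rw [hc2, sec_sum]
      · exact hc3 b hb
    · left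
      rw [hek]
      refine mul_le_mul (hrow κ y hyR) (Real.exp_le_exp.2 ?_) (Real.exp_nonneg _) hB0
      have := mul_le_mul_of_nonneg_left hlam hτ
      unfold Fam.psi at this
      linarith

end Vale.Agent.P030.H352
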