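import Vale.Agent.P030.H352.DiscPat
import Vale.Agent.P030.AR.NInst

/-!
# P030, route N: the disc package of AR/NInst
-/

open Matrix Set Filter Topology
open scoped ComplexConjugate

namespace Vale.Agent.P030.H352

open Vale.Agent.P030.AR Vale.Agent.P030.H265 Vale.Agent.P030.H580

theorem mem_VZ_iff {c : Fin 4} {z : ℂ} : z ∈ VZ c ↔ z ∈ Ud c := by
  fin_cases c
  · change 1 / 2 < z.re ↔ (yz z).re < 0
    rw [yz_re]
    constructor <;> intro h <;> linarith
  · exact Iff.rfl
  · change z.re < 1 / 2 ↔ 0 < (yz z).re
    rw [yz_re]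
    constructor <;> intro h <;> linarith
  · exact Iff.rfl

/-- **the four disc frames** -/
noncomputable def discPk : DiscPk where
  S := Dz
  uni := fun c z _ => Dz_unitri c z
  hol := fun c b b' => (Dz_diff c b b').mono fun _ hz => mem_VZ_iff.1 hz
  lim := Dz_lim
  real := fun c z _ => by
    have h := Dz_conj c (conj z)
    rw [Complex.conj_conj] at h
    exact h.symm

end Vale.Agent.P030.H352
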