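import Vale.Agent.P030.AR.NGen
import Vale.Agent.P030.H352.Pk

/-!
# P030, route N: `stAR_G` with the cusp patterns only near the cusp circles (helper352)

`GPat.up`, `GPat.dn` of AR/NGen ask for the vanishing entries on the whole of `VZ c ∩ U (kc c)`;
at the cusp `3` this set contains strips of the lower half plane, on which the cell is continued
across another interval and the entries do not vanish.  `GPatR` asks for them on the regions `RY c`.
-/

open Matrix Set Filter Topology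
open Vale.Agent.P030.H580 Vale.Agent.P030.H152
open Vale.Agent.P030.H265 (YD WallData colY OmP Sq yz Pz Pm' RqC Uc mem_Uc isOpen_Uc frm frm_diff
  frm_unitri Pz_adap Pm'_adap Pz_strip Adap Cst kF)
open Vale.Agent.P030.H639 (Rel Zr trans_zero cj kF_cj cst_cj)
open Vale.Agent.P030.H866 (Tot Sc DetB Loc stAR_of_det)
open Vale.Agent.P030.H905 (Pot WtP E0P nodes_boundP)
open Vale.Agent.P030.AR
open scoped ComplexConjugate

namespace Vale.Agent.P030.H352

open Vale.Agent.P030.T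
open Vale.Agent.P030.H580 (RY)

/-- the zero patterns, as vanishing entries; at the cusps on the regions `RY c` -/
structure GPatR {N : ℕ} (F : Frs N) (d : DiscPk) where
  /-- two upper cells -/
  pI : Fin N → Fin N → Fin 8 → Fin 8 → Prop
  hI : ∀ k k' z, z ∈ F.U k → z ∈ F.U k' → ∀ b c, ¬ pI k k' b c →
    (F.S k z b ᵥ* (F.S k' z)⁻¹) c = 0
  /-- upper cell and its mirror image on the interval `q` -/
  pR : Fin N → Fin 4 → Fin 8 → Fin 8 → Prop
  hR : ∀ k q z, z ∈ Sq q → z ∈ F.U k → conj z ∈ F.U k → ∀ b c, ¬ pR k q b c →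
    (F.S k z b ᵥ* ((F.S k (conj z)).map conj)⁻¹) c = 0
  /-- cusp circles : `kc c` = the cell around the disc -/
  kc : Fin 4 → Fin N
  pC : Fin 4 → Fin 8 → Fin 8 → Prop
  up : ∀ c z, yz z ∈ RY c → z ∈ F.U (kc c) → ∀ b b', ¬ pC c b b' →
    (F.S (kc c) z b ᵥ* (d.S c z)⁻¹) b' = 0
  dn : ∀ c z, yz z ∈ RY c → z ∈ F.U (kc c) → ∀ b b', ¬ pC c b b' →
    (d.S c z b ᵥ* (F.S (kc c) z)⁻¹) b' = 0

theorem mem_VZ_of_RY {c : Fin 4} {z : ℂ} (h : yz z ∈ RY c) : z ∈ VZ c :=
  mem_VZ_iff.2 (RY_sub_DY h)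

namespace GPatR
variable {N n : ℕ} {F : Frs N} {d : DiscPk} (Q : GPatR F d)

/-- the patterns in the form of `TopN.cond` -/
noncomputable def pat (t : Geo N n) : (t.top F d).Pat where
  pR := fun z k b c => Q.pR k (FPat.qz z) b c
  pI := Q.pI
  pC := fun c k b b' => k = Q.kc c → Q.pC c b b'
  hR := by
    intro z hz hi k hk b c hn
    filter_upwards [FPat.eventually_Sq (t.tab.real_ne hz hi)] with z' hz' h1 h2
    exact Q.hR k _ z' hz' h1 h2 b c hn
  hI := by
    intro z hz hi k k' hk hk' b c hn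
    exact Eventually.of_forall fun z' h1 h2 => Q.hI k k' z' h1 h2 b c hn
  hC1 := by
    intro c z hz hi k _ b b' hn
    rw [Classical.not_imp] at hn
    obtain ⟨rfl, hn⟩ := hn
    filter_upwards [ev_RY t.ρ_pos t.s01 t.s12 t.s3 hz hi] with z' h0 h1 h2
    exact Q.up c z' h0 h1 b b' hn
  hC2 := by
    intro c z hz hi k _ b b' hn
    rw [Classical.not_imp] at hn
    obtain ⟨rfl, hn⟩ := hn
    filter_upwards [ev_RY t.ρ_pos t.s01 t.s12 t.s3 hz hi] with z' h0 h1 h2
    exact Q.dn c z' h0 h1 b b' hn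
  hC3 := by
    intro c z hz hi k _ b b' hn
    rw [Classical.not_imp] at hn
    obtain ⟨rfl, hn⟩ := hn
    have e1 : ∀ᶠ z' in 𝓝 (conj z), yz z' ∈ RY c :=
      ev_RY t.ρ_pos t.s01 t.s12 t.s3 (by rw [cen_conj]; exact hz)
        (by rw [Complex.conj_im]; linarith)
    have e2 : Filter.Tendsto conj (𝓝 z) (𝓝 (conj z)) := Complex.continuous_conj.tendsto z
    filter_upwards [e2.eventually e1] with z' h0 h1 h2
    have h2' : conj z' ∈ VZ c := mem_VZ_of_RY h0
    have h3 := Q.up c (conj z') h0 h1 b b' hn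
    have h4 := d.real c (conj z') h2'
    rw [Complex.conj_conj] at h4
    change TopN.tr ((F.S (Q.kc c) (conj z')).map conj) (d.S c z') b b' = 0
    rw [h4, TopN.tr_conj (d.uni c _ h2').isUnit]
    unfold TopN.tr
    rw [h3, map_zero]
  hC4 := by
    intro c z hz hi k _ b b' hn
    rw [Classical.not_imp] at hn
    obtain ⟨rfl, hn⟩ := hn
    have e1 : ∀ᶠ z' in 𝓝 (conj z), yz z' ∈ RY c :=
      ev_RY t.ρ_pos t.s01 t.s12 t.s3 (by rw [cen_conj]; exact hz)
        (by rw [Complex.conj_im]; linarith)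
    have e2 : Filter.Tendsto conj (𝓝 z) (𝓝 (conj z)) := Complex.continuous_conj.tendsto z
    filter_upwards [e2.eventually e1] with z' h0 h1 h2
    have h2' : conj z' ∈ VZ c := mem_VZ_of_RY h0
    have h3 := Q.dn c (conj z') h0 h1 b b' hn
    have h4 := d.real c (conj z') h2'
    rw [Complex.conj_conj] at h4
    change TopN.tr (d.S c z') ((F.S (Q.kc c) (conj z')).map conj) b b' = 0
    have h1' : conj z' ∈ F.U (Q.kc c) := h1
    rw [h4, TopN.tr_conj (F.uni _ _ h1').isUnit]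
    unfold TopN.tr
    rw [h3, map_zero]

end GPatR

/-- **route N, top theorem** (`AR.stAR_G` with `GPatR`) -/
theorem stAR_R {N n : ℕ} (P : Par) (c0 : ℕ) (hcard : ∑ g : Gp, P.ht g = 8 * P.D0)
    (hD0 : 0 < P.D0) (r : Gp → ℝ) (hr : ∀ g, 0 < r g) (hr1 : ∀ g, r g < 1) (T : Tot P r)
    (t : Geo N n) (F : Frs N) (d : DiscPk) (Q : GPatR F d)
    (hrad : ∀ g, Rad t.ρ g.cusp (r g)) {R : Matrix (Fin 8) (Fin 8) ℂ} (hR : R.det ≠ 0)
    (K : TotR R d T) (μ : Fin 8 → Pot) (γ : Fin 8 → ℝ)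
    (hsym : ∀ b z, WtP (fun _ => P.D0) μ γ b (conj z) = WtP (fun _ => P.D0) μ γ b z)
    (n1 : ∀ z ∈ Dom t.ρ, z.im = 0 → ∀ b c, Q.pR (can (fun j => (t.w j).fn) t.TU z) (FPat.qz z) b c →
      WtP (fun _ => P.D0) μ γ c z ≤ WtP (fun _ => P.D0) μ γ b z)
    (n2 : Edges (fun j => (t.w j).fn)
      (fun k k' z => ∀ b c, (Q.pI k k' b c ∨ Q.pI k' k b c) →
        WtP (fun _ => P.D0) μ γ c z ≤ WtP (fun _ => P.D0) μ γ b z)
      {z | 0 ≤ z.im ∧ z ∈ Dom t.ρ} t.TU)
    (n3 : ∀ c z, ‖z - cen c‖ = t.ρ c → 0 ≤ z.im →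
      can (fun j => (t.w j).fn) t.TU z = Q.kc c ∧ ∀ b b', Q.pC c b b' →
        WtP (fun _ => P.D0) μ γ b' z ≤ WtP (fun _ => P.D0) μ γ b z)
    (ω : Gp → ℝ)
    (n4 : ∀ g, ∀ s : ℂ, ‖s‖ = r g → ∀ b, K.Lv g b →
      WtP (fun _ => P.D0) μ γ b (Sc g.cusp s) ≤ ω g) :
    StAR P c0 (E0P (fun _ => P.D0) μ γ - Vale.Agent.P030.H866.Qm P r ω) := by
  set W := WtP (fun _ => P.D0) μ γ with hW
  have hC : (t.top F d).sharp.toWD.Cond W := by
    refine (t.top F d).cond (Q.pat t) hsym ?_ n2 ?_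
    · intro z hz hi b c hp
      exact n1 z hz hi b c hp
    · intro c z hz hi b b' hp
      obtain ⟨h1, h2⟩ := n3 c z hz hi
      exact h2 b b' (hp h1)
  have hWc : ∀ b, Continuous (W b) := fun b =>
    (continuous_const.mul (μ b).cont).add continuous_const
  refine stAR_of_det P c0 hcard hD0 r hr hr1 T R hR (t.top F d).sharp.toWD hWc
    (detB_of_pot _ P.D0 μ γ hC) ω ?_
  intro g
  obtain ⟨B, hB⟩ := K.ex g
  refine ⟨B, fun s hs i hi => ?_⟩
  have hic : i = .cu g.cusp := by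
    refine only_cu (t.top F d) (c := g.cusp) ?_ hi
    by_cases hc : g.cusp = 3
    · rw [if_pos hc, hc]
      have h := hrad g
      rw [hc] at h
      exact Sc_out (t.top F d) (hr g) h hs
    · rw [if_neg hc]
      exact Sc_in (t.top F d) hc (hr g) (hr1 g) (hrad g) hs
  subst hic
  obtain ⟨y, hy, hb⟩ := hB s hs
  exact ⟨y, hy, fun b => ⟨(hb b).1, (hb b).2.imp id fun h => n4 g s hs b h⟩⟩

end Vale.Agent.P030.H352
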