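import Vale.Agent.P030.H181.KNz
import Vale.Agent.P030.H265.FrameAlg
import Vale.Agent.P030.H580.Vgl
import Vale.Agent.P030.H639.N8a
import Vale.Agent.P030.H152.CellNorm

/-!
# P030, route N: the frames of the four cusp discs (N3, part D1)

Independent of the frame table.  `Bch A Q` : block diagonal change of the basis `A` (rows) and of the
coordinates `Q` (columns), blocks `e | a c | d g h | A0 A3`.  `adm A Q V = A * V * Q` the adapted
matrix of eight vectors `V`.  For the log-free flat vectors `glc c 0 t` of the cusp `c` and any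
constants `B` (`Cst B`) whose rows have no pole at the cusp and whose `K`-vector is the log-free
one, the frame `frm (adm A Q (glc c 0 t)) B` is unitriangular and holomorphic in `t`.
-/

open PowerSeries Matrix Finset

namespace Vale.Agent.P030.H352

open Vale.Agent.P030.T Vale.Agent.P030.H462 Vale.Agent.P030.AR Vale.Agent.P030.H265
open Vale.Agent.P030.H580 Vale.Agent.P030.H787

noncomputable section

/-- the blocks `e | a c | d g h | A0 A3` -/
def blk : Fin 8 → ℕ := ![0, 1, 1, 2, 2, 2, 3, 3]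

theorem blk_mono {i j : Fin 8} (h : i < j) : blk i ≤ blk j := by
  revert i j; decide

theorem blk_lt6 {i : Fin 8} : i < 6 ↔ blk i < 3 := by revert i; decide

/-- block diagonal base change -/
structure Bch (A Q : Matrix (Fin 8) (Fin 8) ℂ) : Prop where
  A0 : ∀ i j, blk i ≠ blk j → A i j = 0
  Q0 : ∀ i j, blk i ≠ blk j → Q i j = 0
  AQ : ∀ i j, blk i < 3 → (A * Q) i j = (1 : Matrix (Fin 8) (Fin 8) ℂ) i j
  Q66 : Q 6 6 = 1
  Q67 : Q 6 7 = 0
  Q76 : Q 7 6 = 0
  Q77 : Q 7 7 = 1

/-- block upper triangular with unit diagonal blocks (except the last one) -/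
structure BUp (V : Matrix (Fin 8) (Fin 8) ℂ) : Prop where
  low : ∀ i j, blk j < blk i → V i j = 0
  one : ∀ i j, blk i = blk j → blk i < 3 → V i j = (1 : Matrix (Fin 8) (Fin 8) ℂ) i j

/-- the adapted matrix -/
def adm (A Q V : Matrix (Fin 8) (Fin 8) ℂ) : Matrix (Fin 8) (Fin 8) ℂ := A * V * Q

theorem adm_apply (A Q V : Matrix (Fin 8) (Fin 8) ℂ) (i j : Fin 8) :
    adm A Q V i j = ∑ l, ∑ k, A i k * V k l * Q l j := by
  simp only [adm, Matrix.mul_apply, Finset.sum_mul]

theorem adap_adm {A Q V : Matrix (Fin 8) (Fin 8) ℂ} (h : Bch A Q) (hV : BUp V) :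
    Adap (adm A Q V) := by
  have h1 : ∀ i j, blk j < blk i → adm A Q V i j = 0 := by
    intro i j hij
    rw [adm_apply]
    refine Finset.sum_eq_zero fun l _ => Finset.sum_eq_zero fun k _ => ?_
    by_cases hik : blk i = blk k
    · by_cases hlj : blk l = blk j
      · rw [hV.low k l (by rw [← hik, hlj]; exact hij)]; ring
      · rw [h.Q0 l j hlj]; ring
    · rw [h.A0 i k hik]; ring
  have h2 : ∀ i j, blk i = blk j → blk i < 3 →
      adm A Q V i j = (1 : Matrix (Fin 8) (Fin 8) ℂ) i j := by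
    intro i j hij hi
    rw [← h.AQ i j hi, adm_apply, Matrix.mul_apply]
    refine Finset.sum_congr rfl fun l _ => ?_
    by_cases hlj : blk l = blk j
    · rw [Finset.sum_eq_single l]
      · rw [hV.one l l rfl (by rw [hlj, ← hij]; exact hi), Matrix.one_apply_eq, mul_one]
      · intro k _ hkl
        by_cases hik : blk i = blk k
        · rw [hV.one k l (by rw [← hik, hij, hlj]) (by rw [← hik]; exact hi),
            Matrix.one_apply_ne hkl]; ring
        · rw [h.A0 i k hik]; ring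
      · intro hl; exact absurd (mem_univ _) hl
    · rw [h.Q0 l j hlj, mul_zero]
      exact Finset.sum_eq_zero fun k _ => by ring
  have h3 : ∀ j : Fin 8, j < 6 → blk j < 3 := fun j hj => blk_lt6.1 hj
  refine ⟨fun i j hi hj => ?_, fun i hi => ?_, fun j hj => ?_, fun j hj => ?_⟩
  · rcases (blk_mono hj).lt_or_eq with h4 | h4
    · exact h1 i j h4
    · rw [h2 i j h4.symm (h3 i hi), Matrix.one_apply_ne hj.ne']
  · rw [h2 i i rfl (h3 i hi), Matrix.one_apply_eq]
  · exact h1 6 j (h3 j hj)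
  · exact h1 7 j (h3 j hj)

/-! ### the log-free flat vectors -/

/-- from the leading entries to `BUp` -/
theorem bup_of {V : Fin 8 → Fin 8 → ℂ} (h0 : V 0 0 = 1) (h1 : V 1 0 = 0) (h1' : V 1 1 = 1)
    (h1'' : V 1 2 = 0) (h2 : V 2 0 = 0) (h2' : V 2 1 = 0) (h2'' : V 2 2 = 1) (h3 : V 3 = dv)
    (h4 : V 4 = gv) (h5 : V 5 = hv) (h6 : ∀ j : Fin 8, blk j < 3 → V 6 j = 0)
    (h7 : ∀ j : Fin 8, blk j < 3 → V 7 j = 0) : BUp V := by
  constructor
  · intro i j hj
    fin_cases i
    · exact absurd hj (by simp [blk])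
    · fin_cases j <;> first | exact absurd hj (by decide) | exact h1
    · fin_cases j <;> first | exact absurd hj (by decide) | exact h2
    · fin_cases j <;> first | exact absurd hj (by decide) | simp [h3, dv]
    · fin_cases j <;> first | exact absurd hj (by decide) | simp [h4, gv]
    · fin_cases j <;> first | exact absurd hj (by decide) | simp [h5, hv]
    · exact h6 j hj
    · exact h7 j hj
  · intro i j hij hi
    fin_cases i
    · fin_cases j <;> first | exact absurd hij (by decide) | simpa using h0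
    · fin_cases j <;> first | exact absurd hij (by decide) | simpa using h1' | simpa using h1''
    · fin_cases j <;> first | exact absurd hij (by decide) | simpa using h2' | simpa using h2''
    · fin_cases j <;> first | exact absurd hij (by decide) | simp [h3, dv]
    · fin_cases j <;> first | exact absurd hij (by decide) | simp [h4, gv]
    · fin_cases j <;> first | exact absurd hij (by decide) | simp [h5, hv]
    · exact absurd hi (by decide)
    · exact absurd hi (by decide)

theorem bup_glc (c : Fin 4) (T t : ℂ) : BUp (glc c T t) := by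
  fin_cases c
  · refine bup_of (V := gl0 T t) ?_ ?_ ?_ ?_ ?_ ?_ ?_ rfl rfl rfl ?_ ?_ <;>
      first
        | simp [gl0, tupC, tup0, tup1, evt, zL0, dv, evq_zero, evq_one]; done
        | (intro j hj
           fin_cases j <;> first
             | exact absurd hj (by decide)
             | simp [gl0, tupC, tup0, tup1, evt, zM0, evq_zero])
  · refine bup_of (V := gl1 T t) ?_ ?_ ?_ ?_ ?_ ?_ ?_ rfl rfl rfl ?_ ?_ <;>
      first
        | simp [gl1, tupC, tup0, tup1, evt, wL0, wLv, dv, gv, hv, evq_zero, evq_one, evq_neg_one,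
            evq_neg]; done
        | (intro j hj
           fin_cases j <;> first
             | exact absurd hj (by decide)
             | simp [gl1, wMv, tupC, tup0, tup1, evt, wM0, evq_zero])
  · refine bup_of (V := gl2 T t) ?_ ?_ ?_ ?_ ?_ ?_ ?_ rfl rfl rfl ?_ ?_ <;>
      first
        | simp [gl2, tupC, tup0, tup1, evt, vO0, vE0, vM0, vEv, A1v, vMv, dv, gv, hv, evq_zero,
            evq_one, evq_neg_one, evq_neg]; done
        | (intro j hj
           fin_cases j <;> first
             | exact absurd hj (by decide)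
             | simp [gl2, A1v, A2v, vMv, tupC, tup0, tup1, evt, vM0, evq_zero])
  · refine bup_of (V := gl3 T t) ?_ ?_ ?_ ?_ ?_ ?_ ?_ rfl rfl rfl ?_ ?_ <;>
      first
        | simp [gl3, tupC, tup0, tup1, evt, xO0, xE0, xM0, k3v, xMv, x1v, xEv, dv, gv, hv,
            evq_zero, evq_one, evq_neg_one, evq_neg]; done
        | (intro j hj
           fin_cases j <;> first
             | exact absurd hj (by decide)
             | simp [gl3, k3v, xMv, tupC, tup0, tup1, evt, xM0, dv, gv, hv, evq_zero, evq_one,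
                 evq_neg_one, evq_neg])

/-! ### the `K`-vectors -/

/-- coefficients of the log-free `K`-vector of the cusp in `A0, A3` -/
def kD : Fin 4 → ℂ × ℂ := ![(1, 0), (2 * Complex.I, 1), (1, -Complex.I), (0, 1)]

/-- the log-free `K`-vector of the cusp -/
def kap : Fin 4 → ℂ → Fin 8 → ℂ
  | 0 => fun t => (pc / 2) • tupC .z8 t
  | 1 => fun t => pc • tupC .w8 t
  | 2 => fun t => (pc / 2) • tupC .v8 t
  | 3 => fun t => pc • k3v t

theorem kap_eq (c : Fin 4) (T t : ℂ) :
    (kD c).1 • glc c T t 6 + (kD c).2 • glc c T t 7 = kap c t := by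
  fin_cases c
  · change (1 : ℂ) • ((pc / 2) • tupC .z8 t) + (0 : ℂ) • _ = (pc / 2) • tupC .z8 t
    rw [one_smul, zero_smul, add_zero]
  · change (2 * Complex.I) • ((2 * l2) • tupC .w8 t - wMv T t) +
      (1 : ℂ) • (pc • tupC .w8 t - (2 * Complex.I) • ((2 * l2) • tupC .w8 t - wMv T t)) =
        pc • tupC .w8 t
    module
  · change (1 : ℂ) • (A2v t + Complex.I • ((2 * Complex.I) • A2v t - A1v T t)) +
      (-Complex.I) • ((2 * Complex.I) • A2v t - A1v T t) = (pc / 2) • tupC .v8 t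
    unfold A2v
    module
  · change (0 : ℂ) • _ + (1 : ℂ) • (pc • k3v t) = pc • k3v t
    rw [one_smul, zero_smul, zero_add]

theorem evq_mul_eq {f g : ℚ⟦X⟧} (hf : PR f) (hg : PR g) {t : ℂ} (ht : ‖t‖ < 1) :
    evq (f * g) t = evq f t * evq g t := ev_mul hf hg ht

theorem evq_one_sub_X {t : ℂ} (ht : ‖t‖ < 1) : evq (1 - X : ℚ⟦X⟧) t = 1 - t := by
  unfold evq; rw [ev_sub PG.one PG.varX ht, ev_one, ev_X]

theorem serK_ne {t : ℂ} (ht : ‖t‖ < 1) : evq serK t ≠ 0 := by
  rw [← H181.kC_eq ht]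
  exact H181.kC_ne (H181.ball_sub_cutK (mem_ball_zero_iff.2 ht))

theorem kap_ne (c : Fin 4) {t : ℂ} (ht : ‖t‖ < 1) (h0 : c = 3 → t ≠ 0) : kap c t 6 ≠ 0 := by
  have hK := serK_ne ht
  have hp := pc_ne
  have h1 : (1 : ℂ) - t ≠ 0 := by
    intro h
    have : t = 1 := (sub_eq_zero.1 h).symm
    rw [this, norm_one] at ht
    exact lt_irrefl _ ht
  have e1 : evq ((1 - X) * serK) t = (1 - t) * evq serK t := by
    rw [evq_mul_eq (PG.one.sub PG.varX) pg_serK ht, evq_one_sub_X ht]
  have e2 : evq (X * serK) t = t * evq serK t := by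
    rw [evq_mul_eq PG.varX pg_serK ht]; congr 1; exact ev_X t
  have hK3 := hK
  fin_cases c
  · simp [kap, tupC, tup0, tup1, evq_zero, e1, hp, h1, hK]
  · simp [kap, tupC, tup0, tup1, evq_zero, hp, hK]
  · simp [kap, tupC, tup0, tup1, evq_zero, evq_neg, e1, hp, h1, hK]
  · have h0' := h0 rfl
    simp [kap, k3v, tupC, tup0, tup1, gv, hv, evq_zero, evq_neg, e2, hp, h0', hK]

/-! ### the frames -/

/-- the constants `B` (basis `A`) fit to the cusp `c` -/
structure Fit (c : Fin 4) (A B : Matrix (Fin 8) (Fin 8) ℂ) : Prop where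
  cst : Cst B
  kv : ∃ μ : ℂ, μ ≠ 0 ∧ (B * A) 6 6 = μ * (kD c).1 ∧ (B * A) 6 7 = μ * (kD c).2
  pole : c = 1 → ∀ b : Fin 8, b < 6 → (B * A) b 6 = 2 * Complex.I * (B * A) b 7

/-- the frame of the disc at the cusp `c` -/
def Sd (A Q B : Matrix (Fin 8) (Fin 8) ℂ) (c : Fin 4) (t : ℂ) : Matrix (Fin 8) (Fin 8) ℂ :=
  frm (adm A Q (glc c 0 t)) B

theorem Sd_unitri {A Q B : Matrix (Fin 8) (Fin 8) ℂ} (h : Bch A Q) (hB : Cst B) (c : Fin 4)
    (t : ℂ) : H152.Unitri (Sd A Q B c t) :=
  frm_unitri (adap_adm h (bup_glc c 0 t)) hB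

theorem adm_row {A Q V : Matrix (Fin 8) (Fin 8) ℂ} (B : Matrix (Fin 8) (Fin 8) ℂ) (b c : Fin 8) :
    ∑ i, B b i * adm A Q V i c = ∑ l, (∑ k, (B * A) b k * V k l) * Q l c := by
  have h1 : ∑ i, B b i * adm A Q V i c = (B * adm A Q V) b c := rfl
  have h2 : B * adm A Q V = (B * A * V) * Q := by simp only [adm, Matrix.mul_assoc]
  rw [h1, h2, Matrix.mul_apply]
  rfl

theorem last_col {Q : Matrix (Fin 8) (Fin 8) ℂ} {A : Matrix (Fin 8) (Fin 8) ℂ} (h : Bch A Q)
    {j : Fin 8} (hj : j = 6 ∨ j = 7) (f : Fin 8 → ℂ) : ∑ l, f l * Q l j = f j := by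
  rw [Fin.sum_univ_eight]
  rcases hj with rfl | rfl
  · rw [h.Q0 0 6 (by decide), h.Q0 1 6 (by decide), h.Q0 2 6 (by decide), h.Q0 3 6 (by decide),
      h.Q0 4 6 (by decide), h.Q0 5 6 (by decide), h.Q66, h.Q76]
    ring
  · rw [h.Q0 0 7 (by decide), h.Q0 1 7 (by decide), h.Q0 2 7 (by decide), h.Q0 3 7 (by decide),
      h.Q0 4 7 (by decide), h.Q0 5 7 (by decide), h.Q67, h.Q77]
    ring

/-- the `K`-rows of the adapted matrix -/
theorem kadm {A Q B V : Matrix (Fin 8) (Fin 8) ℂ} (h : Bch A Q) (hB : Cst B) {j : Fin 8}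
    (hj : j = 6 ∨ j = 7) : B 6 6 * adm A Q V 6 j + B 6 7 * adm A Q V 7 j =
      (B * A) 6 6 * V 6 j + (B * A) 6 7 * V 7 j := by
  have h1 : ∀ i, adm A Q V i j = ∑ k, A i k * V k j := by
    intro i
    have : adm A Q V i j = ∑ l, (∑ k, A i k * V k l) * Q l j := by
      simp only [adm, Matrix.mul_apply]
    rw [this, last_col h hj]
  have h2 : ∀ k, (B * A) 6 k = B 6 6 * A 6 k + B 6 7 * A 7 k := by
    intro k
    rw [Matrix.mul_apply, Fin.sum_univ_eight, hB.2.2 0 (by decide), hB.2.2 1 (by decide),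
      hB.2.2 2 (by decide), hB.2.2 3 (by decide), hB.2.2 4 (by decide), hB.2.2 5 (by decide)]
    ring
  rw [h1, h1, h2, h2, Fin.sum_univ_eight, Fin.sum_univ_eight]
  rw [h.A0 6 0 (by decide), h.A0 6 1 (by decide), h.A0 6 2 (by decide), h.A0 6 3 (by decide),
    h.A0 6 4 (by decide), h.A0 6 5 (by decide), h.A0 7 0 (by decide), h.A0 7 1 (by decide),
    h.A0 7 2 (by decide), h.A0 7 3 (by decide), h.A0 7 4 (by decide), h.A0 7 5 (by decide)]
  ring

theorem kF_eq {A Q B : Matrix (Fin 8) (Fin 8) ℂ} (h : Bch A Q) (hB : Cst B) {c : Fin 4} {μ : ℂ}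
    (h1 : (B * A) 6 6 = μ * (kD c).1) (h2 : (B * A) 6 7 = μ * (kD c).2) (t : ℂ) :
    kF (adm A Q (glc c 0 t)) (B 6 6) (B 6 7) = μ * kap c t 6 := by
  refine (kadm (V := glc c 0 t) h hB (Or.inl rfl)).trans ?_
  rw [h1, h2, ← kap_eq c 0 t]
  simp only [Pi.add_apply, Pi.smul_apply, smul_eq_mul]
  ring

theorem kT_eq {A Q B : Matrix (Fin 8) (Fin 8) ℂ} (h : Bch A Q) (hB : Cst B) {c : Fin 4} {μ : ℂ}
    (h1 : (B * A) 6 6 = μ * (kD c).1) (h2 : (B * A) 6 7 = μ * (kD c).2) (t : ℂ) :
    kT (adm A Q (glc c 0 t)) (B 6 6) (B 6 7) = μ * kap c t 7 := by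
  refine (kadm (V := glc c 0 t) h hB (Or.inr rfl)).trans ?_
  rw [h1, h2, ← kap_eq c 0 t]
  simp only [Pi.add_apply, Pi.smul_apply, smul_eq_mul]
  ring

/-- the `K`-row of the disc frame -/
theorem Sd_six {A Q B : Matrix (Fin 8) (Fin 8) ℂ} (h : Bch A Q) {c : Fin 4} (hB : Fit c A B)
    (t : ℂ) : Sd A Q B c t 6 = Pi.single 6 1 + (kap c t 7 / kap c t 6) • Pi.single 7 1 := by
  obtain ⟨μ, hμ, h1, h2⟩ := hB.kv
  unfold Sd
  rw [frm_six, kF_eq h hB.cst h1 h2, kT_eq h hB.cst h1 h2, mul_div_mul_left _ _ hμ]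

theorem kF_ne {A Q B : Matrix (Fin 8) (Fin 8) ℂ} (h : Bch A Q) {c : Fin 4} (hB : Fit c A B)
    {t : ℂ} (ht : ‖t‖ < 1) (h0 : c = 3 → t ≠ 0) :
    kF (adm A Q (glc c 0 t)) (B 6 6) (B 6 7) ≠ 0 := by
  obtain ⟨μ, hμ, h1, h2⟩ := hB.kv
  rw [kF_eq h hB.cst h1 h2]
  exact mul_ne_zero hμ (kap_ne c ht h0)

/-- the rows `b < 6` of the disc frame -/
theorem Sd_lt {A Q B : Matrix (Fin 8) (Fin 8) ℂ} {c : Fin 4} {t : ℂ} {b : Fin 8} (hb : b < 6)
    (j : Fin 8) : Sd A Q B c t b j = ∑ l, (∑ k, (B * A) b k * glc c 0 t k l) * Q l j := by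
  unfold Sd
  rw [frm_lt hb]
  exact adm_row B b j

/-! ### holomorphy -/

section diff

variable {S : Set ℂ} {τ : ℂ → ℂ}

theorem diff_kap (c : Fin 4) (ht : DifferentiableOn ℂ τ S) (hS : ∀ u ∈ S, ‖τ u‖ < 1) (j : Fin 8) :
    DifferentiableOn ℂ (fun u => kap c (τ u) j) S := by
  fin_cases c
  · exact (dg_tup ht hS .z8 j).const_mul (pc / 2)
  · exact (dg_tup ht hS .w8 j).const_mul pc
  · exact (dg_tup ht hS .v8 j).const_mul (pc / 2)
  · exact (diff_k3v ht hS j).const_mul pc

/-- the first six flat vectors at `c1` have no pole -/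
theorem diff_gl1_lt (ht : DifferentiableOn ℂ τ S) (hS : ∀ u ∈ S, ‖τ u‖ < 1) {i : Fin 8}
    (hi : i < 6) (j : Fin 8) : DifferentiableOn ℂ (fun u => gl1 0 (τ u) i j) S := by
  have h := fun g => dg_tup ht hS g j
  have hL : DifferentiableOn ℂ (fun u => wLv 0 (τ u) j) S :=
    diff_wLv (T := fun _ => 0) (differentiableOn_const 0) ht hS j
  fin_cases i
  · exact ((h .w1).add ((h .wl).const_mul l2)).add ((h .wy).const_mul (pc ^ 2 / 16))
  · exact ((h .wl).add hL).add (dg_const ((l2 / 2) • (gv - hv)) j)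
  · exact (hL.add (dg_const ((Complex.I * pc) • dv) j)).add (dg_const (l2 • (gv - hv)) j)
  · exact dg_const dv j
  · exact dg_const gv j
  · exact dg_const hv j
  · exact absurd hi (by decide)
  · exact absurd hi (by decide)

theorem diff_comb (c : Fin 4) (ht : DifferentiableOn ℂ τ S) (hS : ∀ u ∈ S, ‖τ u‖ < 1)
    {β : Fin 8 → ℂ} (hβ : c = 1 → β 6 = 2 * Complex.I * β 7) (l : Fin 8) :
    DifferentiableOn ℂ (fun u => ∑ k, β k * glc c 0 (τ u) k l) S := by
  have hT : DifferentiableOn ℂ (fun _ : ℂ => (0 : ℂ)) S := differentiableOn_const 0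
  by_cases h1 : c = 1
  · subst h1
    have h2 : (fun u => ∑ k, β k * glc 1 0 (τ u) k l) = fun u =>
        (∑ k : Fin 8, if k < 6 then β k * gl1 0 (τ u) k l else 0) + β 7 * kap 1 (τ u) l := by
      funext u
      rw [← kap_eq 1 0 (τ u)]
      have e : glc 1 0 (τ u) = gl1 0 (τ u) := rfl
      rw [e, Fin.sum_univ_eight, Fin.sum_univ_eight]
      have e1 : kD 1 = (2 * Complex.I, 1) := rfl
      rw [e1]
      simp only [Pi.add_apply, Pi.smul_apply, smul_eq_mul, hβ rfl]
      rw [if_pos (by decide), if_pos (by decide), if_pos (by decide), if_pos (by decide),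
        if_pos (by decide), if_pos (by decide), if_neg (by decide), if_neg (by decide)]
      ring
    rw [h2]
    refine DifferentiableOn.add ?_ ((diff_kap 1 ht hS l).const_mul (β 7))
    refine DifferentiableOn.fun_sum fun k _ => ?_
    by_cases hk : k < 6
    · simp only [if_pos hk]
      exact (diff_gl1_lt ht hS hk l).const_mul (β k)
    · simp only [if_neg hk]
      exact differentiableOn_const 0
  · refine DifferentiableOn.fun_sum fun k _ => ?_
    refine DifferentiableOn.const_mul ?_ (β k)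
    fin_cases c
    · exact diff_gl0 hT ht hS k l
    · exact absurd rfl h1
    · exact diff_gl2 hT ht hS k l
    · exact diff_gl3 hT ht hS k l

/-- **the disc frame is holomorphic** -/
theorem Sd_diff {A Q B : Matrix (Fin 8) (Fin 8) ℂ} (h : Bch A Q) {c : Fin 4} (hB : Fit c A B)
    (ht : DifferentiableOn ℂ τ S) (hS : ∀ u ∈ S, ‖τ u‖ < 1) (h0 : c = 3 → ∀ u ∈ S, τ u ≠ 0)
    (b j : Fin 8) : DifferentiableOn ℂ (fun u => Sd A Q B c (τ u) b j) S := by
  by_cases hb : b < 6
  · simp only [Sd_lt hb]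
    refine DifferentiableOn.fun_sum fun l _ => DifferentiableOn.mul_const ?_ _
    exact diff_comb c ht hS (fun hc => hB.pole hc b hb) l
  · have : b = 6 ∨ b = 7 := by omega
    rcases this with rfl | rfl
    · simp only [Sd_six h hB, Pi.add_apply, Pi.smul_apply, smul_eq_mul]
      refine (differentiableOn_const _).add (DifferentiableOn.mul_const ?_ _)
      exact (diff_kap c ht hS 7).div (diff_kap c ht hS 6) fun u hu =>
        kap_ne c (hS u hu) fun hc => h0 hc u hu
    · unfold Sd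
      simp only [frm_seven]
      exact differentiableOn_const _

end diff

/-! ### the limit at infinity (cusp `c3`) -/

theorem k3v_eq {t : ℂ} (ht : ‖t‖ < 1) (j : Fin 8) : k3v t j = t * evt k3p t j := by
  have e1 : evq (X * serK) t = t * evq serK t := evq_X_mul pq_serK ht
  have e2 : evq (X * tw serK) t = t * evq (tw serK) t := evq_X_mul (pq_tw pq_serK) ht
  fin_cases j <;>
    simp [k3v, tupC, tup0, tup1, gv, hv, evt, k3p, evq_zero, evq_one, evq_neg, evq_neg_one, e1, e2]

theorem tendsto_Sd3 {A Q B : Matrix (Fin 8) (Fin 8) ℂ} (h : Bch A Q) (hB : Fit 3 A B) (b : Fin 8) :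
    ∃ c : Fin 8 → ℂ, Filter.Tendsto (fun t => Sd A Q B 3 t b) (nhdsWithin 0 {0}ᶜ) (nhds c) := by
  have hball : Metric.ball (0 : ℂ) 1 ∈ nhds (0 : ℂ) := Metric.ball_mem_nhds 0 one_pos
  have hid : DifferentiableOn ℂ (fun t : ℂ => t) (Metric.ball 0 1) := differentiableOn_id
  have hS : ∀ u ∈ Metric.ball (0 : ℂ) 1, ‖u‖ < 1 := fun u hu => mem_ball_zero_iff.1 hu
  by_cases hb : b < 6
  · refine ⟨fun j => ∑ l, (∑ k, (B * A) b k * glc 3 0 0 k l) * Q l j, ?_⟩
    refine tendsto_pi_nhds.2 fun j => ?_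
    simp only [Sd_lt hb]
    have hd : DifferentiableOn ℂ (fun t => ∑ l, (∑ k, (B * A) b k * glc 3 0 t k l) * Q l j)
        (Metric.ball 0 1) := by
      refine DifferentiableOn.fun_sum fun l _ => DifferentiableOn.mul_const ?_ _
      exact diff_comb 3 hid hS (fun hc => absurd hc (by decide)) l
    exact ((hd.differentiableAt hball).continuousAt.tendsto).mono_left nhdsWithin_le_nhds
  · have : b = 6 ∨ b = 7 := by omega
    rcases this with rfl | rfl
    · refine ⟨Pi.single 6 1 + (evt k3p 0 7 / evt k3p 0 6) • Pi.single 7 1, ?_⟩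
      have hk : ∀ j, PR (k3p j) := by
        intro j
        fin_cases j <;>
          first | exact PG.zero | exact pg_serK.neg | exact (pr_tw pg_serK).neg
      have h1 : Filter.Tendsto (fun t => Pi.single 6 1 + (evt k3p t 7 / evt k3p t 6) •
          (Pi.single 7 1 : Fin 8 → ℂ)) (nhds 0)
          (nhds (Pi.single 6 1 + (evt k3p 0 7 / evt k3p 0 6) • Pi.single 7 1)) := by
        refine tendsto_const_nhds.add (Filter.Tendsto.smul_const ?_ _)
        refine Filter.Tendsto.div ?_ ?_ ?_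
        · exact ((diff_evt hk 7).differentiableAt hball).continuousAt.tendsto
        · exact ((diff_evt hk 6).differentiableAt hball).continuousAt.tendsto
        · have e : evt k3p 0 6 = -evq serK 0 := by
            simp [evt, k3p, evq_neg]
          rw [e]
          exact neg_ne_zero.2 (serK_ne (by simp))
      refine (h1.mono_left nhdsWithin_le_nhds).congr' ?_
      have h2 : ∀ᶠ t in nhdsWithin (0 : ℂ) {0}ᶜ, ‖t‖ < 1 ∧ t ≠ 0 := by
        refine Filter.Eventually.and ?_ self_mem_nhdsWithin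
        exact mem_nhdsWithin_of_mem_nhds (Filter.mem_of_superset hball hS)
      filter_upwards [h2] with t ht
      rw [Sd_six h hB]
      congr 2
      have e : ∀ j, kap 3 t j = pc * (t * evt k3p t j) := fun j => by
        rw [← k3v_eq ht.1]; rfl
      rw [e, e, mul_div_mul_left _ _ pc_ne, mul_div_mul_left _ _ ht.2]
    · refine ⟨Pi.single 7 1, ?_⟩
      unfold Sd
      simp only [frm_seven]
      exact tendsto_const_nhds

end

end Vale.Agent.P030.H352
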