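import Vale.Agent.P030.H352.Disc
import Vale.Agent.P030.H265.Flat
import Vale.Agent.P030.H181.GFrames
import Vale.Agent.P030.AR.NTop

/-!
# P030, route N: the frames of the four cusp discs in the coordinates of H265/Flat (N3)

Rows `e, a, c, d, h, d+g, A0/π, A3/π`, coordinates `x0, x1, x2, x3-x4, x5, x4, x6, x7`.
`BR c` = constants of REAL rows: `conj (Sr c (conj t)) = Sr c t`.
-/

open PowerSeries Matrix Finset
open scoped ComplexConjugate

namespace Vale.Agent.P030.H352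

open Vale.Agent.P030.T Vale.Agent.P030.H462 Vale.Agent.P030.AR Vale.Agent.P030.H265
open Vale.Agent.P030.H580 Vale.Agent.P030.H787

noncomputable section

/-- rows `e a c d h d+g A0/π A3/π` from `e a c d g h A0 A3` -/
def Ar : Matrix (Fin 8) (Fin 8) ℂ :=
  !![1, 0, 0, 0, 0, 0, 0, 0;
     0, 1, 0, 0, 0, 0, 0, 0;
     0, 0, 1, 0, 0, 0, 0, 0;
     0, 0, 0, 1, 0, 0, 0, 0;
     0, 0, 0, 0, 0, 1, 0, 0;
     0, 0, 0, 1, 1, 0, 0, 0;
     0, 0, 0, 0, 0, 0, 1 / pc, 0;
     0, 0, 0, 0, 0, 0, 0, 1 / pc]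

/-- coordinates `x0 x1 x2 x3-x4 x5 x4 x6 x7` from `x0 .. x7` -/
def Qr : Matrix (Fin 8) (Fin 8) ℂ :=
  !![1, 0, 0, 0, 0, 0, 0, 0;
     0, 1, 0, 0, 0, 0, 0, 0;
     0, 0, 1, 0, 0, 0, 0, 0;
     0, 0, 0, 1, 0, 0, 0, 0;
     0, 0, 0, -1, 0, 1, 0, 0;
     0, 0, 0, 0, 1, 0, 0, 0;
     0, 0, 0, 0, 0, 0, 1, 0;
     0, 0, 0, 0, 0, 0, 0, 1]

theorem bch_r : Bch Ar Qr where
  A0 := by
    intro i j h
    fin_cases i <;> fin_cases j <;> first | exact absurd rfl h | rfl
  Q0 := by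
    intro i j h
    fin_cases i <;> fin_cases j <;> first | exact absurd rfl h | rfl
  AQ := by
    intro i j h
    fin_cases i <;> fin_cases j <;> first
      | exact absurd h (by decide)
      | simp [Ar, Qr, Matrix.mul_apply, Fin.sum_univ_eight]
  Q66 := rfl
  Q67 := rfl
  Q76 := rfl
  Q77 := rfl

/-- the constants of the disc frames -/
def BR : Fin 4 → Matrix (Fin 8) (Fin 8) ℂ
  | 0 => !![1, 0, 0, 0, 0, 0, 0, 0;
      0, 1, 0, 0, 0, 0, 0, 0;
      0, 0, 1, l2 / 2, l2 / 2, -(l2 / 2), 0, 0;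
      0, 0, 0, 1, 0, 0, 0, 0;
      0, 0, 0, 0, 1, 0, 0, -(1 / 4);
      0, 0, 0, 0, 0, 1, 0, 3 / 4;
      0, 0, 0, 0, 0, 0, 1, 0;
      0, 0, 0, 0, 0, 0, 0, 0]
  | 1 => !![1, 0, 0, 0, 0, 0, 0, 0;
      0, 1, -1, Complex.I * pc - l2 / 2, -(l2 / 2), l2 / 2, 0, 0;
      0, 0, 1, l2 / 2 - Complex.I * pc, l2 / 2, -(l2 / 2), 0, 0;
      0, 0, 0, 1, 0, 0, 0, 0;
      0, 0, 0, 0, 1, -1, 0, 0;
      0, 0, 0, 0, 0, 1, 3 * Complex.I / 2, 3 / 4;
      0, 0, 0, 0, 0, 0, 2 * Complex.I, 1;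
      0, 0, 0, 0, 0, 0, 0, 0]
  | 2 => !![1, 0, 0, 0, 0, 0, 0, 0;
      0, 1, -1, Complex.I * pc - l2 / 2, -(l2 / 2), l2 / 2, 0, 0;
      0, 0, 1, l2 / 2, l2 / 2, -(l2 / 2) - Complex.I * pc, -(pc / 4), Complex.I * pc / 4;
      0, 0, 0, 1, 0, 0, 0, 0;
      0, 0, 0, 0, 1, -1, 0, 0;
      0, 0, 0, 0, 0, 1, 3 * Complex.I / 2, 3 / 4;
      0, 0, 0, 0, 0, 0, 1, -Complex.I;
      0, 0, 0, 0, 0, 0, 0, 0]
  | 3 => !![1, 0, 0, 0, 0, 0, 0, 0;
      0, 1, 0, 0, 0, 0, 0, 0;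
      0, 0, 1, l2 / 2, l2 / 2, -(l2 / 2), -(pc / 4), 0;
      0, 0, 0, 1, 1, -1, 0, 1;
      0, 0, 0, 0, 1, 0, 0, -(1 / 4);
      0, 0, 0, 0, 0, 1, 0, 0;
      0, 0, 0, 0, 0, 0, 0, 1;
      0, 0, 0, 0, 0, 0, 0, 0]

theorem cst_BR (c : Fin 4) : Cst (BR c) := by
  refine ⟨?_, ?_, ?_⟩
  · intro i j hi hj
    fin_cases c <;> fin_cases i <;> fin_cases j <;>
      first | exact absurd hi (by decide) | exact absurd hj (by decide) | rfl
  · intro i hi
    fin_cases c <;> fin_cases i <;> first | exact absurd hi (by decide) | rfl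
  · intro j hj
    fin_cases c <;> fin_cases j <;> first | exact absurd hj (by decide) | rfl

theorem fit_BR (c : Fin 4) : Fit c Ar (BR c) where
  cst := cst_BR c
  kv := by
    refine ⟨1 / pc, one_div_ne_zero pc_ne, ?_, ?_⟩ <;>
      fin_cases c <;> simp [BR, Ar, kD, Matrix.mul_apply, Fin.sum_univ_eight] <;> ring
  pole := by
    intro hc b hb
    subst hc
    fin_cases b <;> first
      | exact absurd hb (by decide)
      | (simp [BR, Ar, Matrix.mul_apply, Fin.sum_univ_eight]; done)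
      | (simp [BR, Ar, Matrix.mul_apply, Fin.sum_univ_eight]; ring)

/-- **the frame of the disc at the cusp `c`** -/
def Sr (c : Fin 4) (t : ℂ) : Matrix (Fin 8) (Fin 8) ℂ := Sd Ar Qr (BR c) c t

theorem Sr_unitri (c : Fin 4) (t : ℂ) : H152.Unitri (Sr c t) := Sd_unitri bch_r (cst_BR c) c t

/-! ### reality -/

/-- the reflection which fits to the cusp at `T = 0` -/
def qc : Fin 4 → Fin 4 := ![2, 1, 0, 2]

theorem conj_single (i l : Fin 8) :
    conj ((Pi.single i (1 : ℂ) : Fin 8 → ℂ) l) = (Pi.single i (1 : ℂ) : Fin 8 → ℂ) l := by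
  rw [Pi.single_apply]; split_ifs <;> simp

theorem conj_dv (l : Fin 8) : conj (dv l) = dv l := conj_single 3 l
theorem conj_gv (l : Fin 8) : conj (gv l) = gv l := conj_single 4 l
theorem conj_hv (l : Fin 8) : conj (hv l) = hv l := conj_single 5 l

theorem sum_one_mul (V : Fin 8 → Fin 8 → ℂ) (i l : Fin 8) :
    ∑ k, (1 : Matrix (Fin 8) (Fin 8) ℂ) i k * V k l = V i l := by
  simp [Matrix.one_apply]

theorem conj_glc0 (t : ℂ) (i l : Fin 8) :
    conj (glc 0 0 (conj t) i l) = ∑ k, Rf (qc 0) i k * glc 0 0 t k l := by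
  have e : glc 0 = gl0 := rfl
  have e1 : Rf (qc 0) = 1 := rfl
  rw [e1, sum_one_mul, e]
  fin_cases i <;>
    simp [gl0, conj_tupC, conj_evt, H787.conj_pc, H787.conj_l2, Complex.conj_ofNat, conj_dv, conj_gv, conj_hv]

theorem conj_glc3 (t : ℂ) (i l : Fin 8) :
    conj (glc 3 0 (conj t) i l) = ∑ k, Rf (qc 3) i k * glc 3 0 t k l := by
  have e : glc 3 = gl3 := rfl
  have e1 : Rf (qc 3) = 1 := rfl
  rw [e1, sum_one_mul, e]
  fin_cases i <;>
    simp [gl3, xEv, x1v, xMv, k3v, conj_tupC, conj_evt, H787.conj_pc, H787.conj_l2, Complex.conj_ofNat, conj_dv,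
      conj_gv, conj_hv]

theorem conj_wMv (t : ℂ) (l : Fin 8) : conj (wMv 0 (conj t) l) = wMv 0 t l := by
  simp [wMv, conj_evt, conj_evq, conj_single, Complex.conj_ofNat]

theorem conj_wLv (t : ℂ) (l : Fin 8) : conj (wLv 0 (conj t) l) = wLv 0 t l := by
  simp [wLv, conj_evt]

theorem conj_glc1 (t : ℂ) (i l : Fin 8) :
    conj (glc 1 0 (conj t) i l) = ∑ k, Rf (qc 1) i k * glc 1 0 t k l := by
  have e : glc 1 = gl1 := rfl
  have e1 : Rf (qc 1) = Rf 1 := rfl
  rw [e, e1, Fin.sum_univ_eight]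
  fin_cases i <;>
    simp [gl1, conj_wLv, conj_wMv, Rf, conj_tupC, H787.conj_pc, H787.conj_l2, Complex.conj_ofNat, conj_dv, conj_gv,
      conj_hv]
  all_goals ring

theorem conj_vEv (t : ℂ) (l : Fin 8) : conj (vEv 0 (conj t) l) = vEv 0 t l := by
  simp [vEv, conj_evt]

theorem conj_A1v (t : ℂ) (l : Fin 8) : conj (A1v 0 (conj t) l) = A1v 0 t l := by
  simp [A1v, vMv, conj_evt, conj_tupC, H787.conj_l2, Complex.conj_ofNat]

theorem conj_A2v (t : ℂ) (l : Fin 8) : conj (A2v (conj t) l) = A2v t l := by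
  simp [A2v, conj_tupC, H787.conj_pc, Complex.conj_ofNat]

theorem conj_glc2 (t : ℂ) (i l : Fin 8) :
    conj (glc 2 0 (conj t) i l) = ∑ k, Rf (qc 2) i k * glc 2 0 t k l := by
  have e : glc 2 = gl2 := rfl
  have e1 : Rf (qc 2) = Rf 0 := rfl
  have hI : Complex.I ^ 2 = -1 := Complex.I_sq
  have hI3 : Complex.I ^ 3 = -Complex.I := by rw [pow_succ, hI]; ring
  rw [e, e1, Fin.sum_univ_eight]
  fin_cases i <;>
    simp [gl2, conj_vEv, conj_A1v, conj_A2v, Rf, conj_tupC, conj_evt, H787.conj_pc, H787.conj_l2, Complex.conj_ofNat,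
      conj_xc, conj_dv, conj_gv, conj_hv]
  all_goals (ring_nf; try simp only [hI, hI3]; try ring1)

theorem conj_glc (c : Fin 4) (t : ℂ) (i l : Fin 8) :
    conj (glc c 0 (conj t) i l) = ∑ k, Rf (qc c) i k * glc c 0 t k l := by
  fin_cases c
  · exact conj_glc0 t i l
  · exact conj_glc1 t i l
  · exact conj_glc2 t i l
  · exact conj_glc3 t i l

theorem mul_Ar (B : Matrix (Fin 8) (Fin 8) ℂ) (b k : Fin 8) : (B * Ar) b k =
    (![B b 0, B b 1, B b 2, B b 3 + B b 5, B b 5, B b 4, B b 6 / pc, B b 7 / pc] :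
      Fin 8 → ℂ) k := by
  fin_cases k <;> simp [Ar, Matrix.mul_apply, Fin.sum_univ_eight, div_eq_mul_inv]

theorem real_BR0 {b : Fin 8} (hb : b < 6) (m : Fin 8) :
    ∑ k, conj ((BR 0 * Ar) b k) * Rf 2 k m = (BR 0 * Ar) b m := by
  have e1 : Rf 2 = 1 := rfl
  simp only [mul_Ar, Fin.sum_univ_eight, e1]
  fin_cases b <;> first
    | exact absurd hb (by decide)
    | (fin_cases m <;>
        simp [BR, Matrix.one_apply, H787.conj_pc, H787.conj_l2, Complex.conj_ofNat])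

theorem real_BR3 {b : Fin 8} (hb : b < 6) (m : Fin 8) :
    ∑ k, conj ((BR 3 * Ar) b k) * Rf 2 k m = (BR 3 * Ar) b m := by
  have e1 : Rf 2 = 1 := rfl
  simp only [mul_Ar, Fin.sum_univ_eight, e1]
  fin_cases b <;> first
    | exact absurd hb (by decide)
    | (fin_cases m <;>
        simp [BR, Matrix.one_apply, H787.conj_pc, H787.conj_l2, Complex.conj_ofNat])

theorem real_BR1 {b : Fin 8} (hb : b < 6) (m : Fin 8) :
    ∑ k, conj ((BR 1 * Ar) b k) * Rf 1 k m = (BR 1 * Ar) b m := by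
  have hp := pc_ne
  have hI : Complex.I ^ 2 = -1 := Complex.I_sq
  simp only [mul_Ar, Fin.sum_univ_eight]
  fin_cases b <;> first
    | exact absurd hb (by decide)
    | (fin_cases m <;>
        simp [BR, Rf, H787.conj_pc, H787.conj_l2, Complex.conj_ofNat] <;> field_simp <;>
        ring_nf <;> simp only [hI] <;> ring_nf)

theorem real_BR2 {b : Fin 8} (hb : b < 6) (m : Fin 8) :
    ∑ k, conj ((BR 2 * Ar) b k) * Rf 0 k m = (BR 2 * Ar) b m := by
  have hp := pc_ne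
  have hI : Complex.I ^ 2 = -1 := Complex.I_sq
  simp only [mul_Ar, Fin.sum_univ_eight]
  fin_cases b <;> first
    | exact absurd hb (by decide)
    | (fin_cases m <;>
        simp [BR, Rf, H787.conj_pc, H787.conj_l2, Complex.conj_ofNat] <;> field_simp <;>
        ring_nf <;> simp only [hI] <;> ring_nf)

theorem real_BR (c : Fin 4) {b : Fin 8} (hb : b < 6) (m : Fin 8) :
    ∑ k, conj ((BR c * Ar) b k) * Rf (qc c) k m = (BR c * Ar) b m := by
  fin_cases c
  · exact real_BR0 hb m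
  · exact real_BR1 hb m
  · exact real_BR2 hb m
  · exact real_BR3 hb m

theorem conj_kap (c : Fin 4) (t : ℂ) (j : Fin 8) : conj (kap c (conj t) j) = kap c t j := by
  fin_cases c <;>
    simp [kap, k3v, conj_tupC, H787.conj_pc, Complex.conj_ofNat, conj_gv, conj_hv]

theorem conj_Qr (i j : Fin 8) : conj (Qr i j) = Qr i j := by
  fin_cases i <;> fin_cases j <;> simp [Qr]

/-- **the disc frames are real** -/
theorem Sr_conj (c : Fin 4) (t : ℂ) (b j : Fin 8) : conj (Sr c (conj t) b j) = Sr c t b j := by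
  unfold Sr
  by_cases hb : b < 6
  · rw [Sd_lt hb, Sd_lt hb, map_sum]
    refine Finset.sum_congr rfl fun l _ => ?_
    rw [map_mul, conj_Qr, map_sum]
    congr 1
    have h1 : ∀ k, conj ((BR c * Ar) b k * glc c 0 (conj t) k l) =
        ∑ m, conj ((BR c * Ar) b k) * Rf (qc c) k m * glc c 0 t m l := by
      intro k
      rw [map_mul, conj_glc, Finset.mul_sum]
      exact Finset.sum_congr rfl fun m _ => by ring
    rw [Finset.sum_congr rfl fun k _ => h1 k, Finset.sum_comm]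
    refine Finset.sum_congr rfl fun m _ => ?_
    rw [← Finset.sum_mul, real_BR c hb m]
  · have : b = 6 ∨ b = 7 := by omega
    rcases this with rfl | rfl
    · rw [Sd_six bch_r (fit_BR c), Sd_six bch_r (fit_BR c)]
      simp only [Pi.add_apply, Pi.smul_apply, smul_eq_mul, map_add, map_mul, map_div₀, conj_kap,
        conj_single]
    · unfold Sd
      simp only [frm_seven]
      exact conj_single 7 j

/-! ### the `S`-plane -/

/-- the local parameter of the cusp `c` in the `S`-plane -/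
def tz (c : Fin 4) (z : ℂ) : ℂ := tY c (yz z)

/-- the disc of the cusp `c` -/
def Ud (c : Fin 4) : Set ℂ := {z | yz z ∈ H181.DY c}

/-- the frame of the disc in the `S`-plane -/
def Dz (c : Fin 4) (z : ℂ) : Matrix (Fin 8) (Fin 8) ℂ := Sr c (tz c z)

theorem tY_eq (c : Fin 4) : tY c = H181.tc c := by fin_cases c <;> rfl

theorem cont_yz : Continuous yz := by unfold yz; fun_prop

theorem isOpen_Ud (c : Fin 4) : IsOpen (Ud c) := (H181.isOpen_DY c).preimage cont_yz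

theorem norm_tz_lt {c : Fin 4} {z : ℂ} (hz : z ∈ Ud c) : ‖tz c z‖ < 1 := by
  unfold tz
  rw [tY_eq]
  exact (H181.tc_props c hz).1

theorem tz3_ne {z : ℂ} (hz : z ∈ Ud 3) : tz 3 z ≠ 0 := by
  have h : 1 < ‖yz z‖ := hz
  have h0 : yz z ≠ 0 := by
    intro h1
    rw [h1, norm_zero] at h
    linarith
  exact div_ne_zero one_ne_zero h0

theorem diff_tz (c : Fin 4) : DifferentiableOn ℂ (tz c) (Ud c) := by
  intro z hz
  have h1 : DifferentiableAt ℂ (tY c) (yz z) := by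
    rw [tY_eq]; exact (H181.tc_props c hz).2.differentiableAt
  have h2 : DifferentiableAt ℂ yz z := by unfold yz; fun_prop
  exact (h1.comp z h2).differentiableWithinAt

theorem Dz_unitri (c : Fin 4) (z : ℂ) : H152.Unitri (Dz c z) := Sr_unitri c _

theorem Dz_diff (c : Fin 4) (b j : Fin 8) : DifferentiableOn ℂ (fun z => Dz c z b j) (Ud c) :=
  Sd_diff bch_r (fit_BR c) (diff_tz c) (fun _ hz => norm_tz_lt hz)
    (fun hc z hz => by subst hc; exact tz3_ne hz) b j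

theorem Dz_lim (b : Fin 8) :
    ∃ v : Fin 8 → ℂ, Filter.Tendsto (fun z => Dz 3 z b) (Filter.cocompact ℂ) (nhds v) := by
  obtain ⟨v, hv⟩ := tendsto_Sd3 bch_r (fit_BR 3) b
  refine ⟨v, hv.comp ?_⟩
  have h1 : Filter.Tendsto yz (Filter.cocompact ℂ) (Bornology.cobounded ℂ) := by
    rw [← tendsto_norm_atTop_iff_cobounded]
    have h2 : Filter.Tendsto (fun z : ℂ => 2 * ‖z‖ - 1) (Filter.cocompact ℂ) Filter.atTop :=
      Filter.tendsto_atTop_add_const_right _ _
        (Filter.Tendsto.const_mul_atTop two_pos (tendsto_norm_cocompact_atTop))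
    refine Filter.tendsto_atTop_mono (fun z => ?_) h2
    have h3 := norm_sub_norm_le (2 * z) 1
    have h4 : ‖(2 : ℂ) * z - 1‖ = ‖yz z‖ := by
      rw [← norm_neg]; unfold yz; congr 1; ring
    rw [h4, norm_mul] at h3
    simpa using h3
  have h5 : Filter.Tendsto (fun z => tz 3 z) (Filter.cocompact ℂ) (nhdsWithin 0 {0}ᶜ) := by
    have h6 : (fun z => tz 3 z) = fun z => (yz z)⁻¹ := by
      funext z; change 1 / yz z = _; rw [one_div]
    rw [h6]
    refine tendsto_nhdsWithin_iff.2 ⟨?_, ?_⟩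
    · exact Filter.tendsto_inv₀_cobounded.comp h1
    · have h7 : ∀ᶠ z in Filter.cocompact ℂ, 1 < ‖yz z‖ :=
        (tendsto_norm_cobounded_atTop.comp h1).eventually_gt_atTop 1
      filter_upwards [h7] with z hz
      refine inv_ne_zero ?_
      intro h0
      rw [h0, norm_zero] at hz
      linarith
  exact h5

theorem yz_norm (z : ℂ) : ‖yz z‖ = 2 * ‖z - 1 / 2‖ := by
  have h : yz z = -(2 * (z - 1 / 2)) := by unfold yz; ring
  rw [h, norm_neg, norm_mul]
  norm_num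

/-- the closed discs -/
theorem mem_Ud {c : Fin 4} (hc : c ≠ 3) {r : ℝ} (hr : r < 1 / 2) {z : ℂ}
    (hz : ‖z - AR.cen c‖ ≤ r) : z ∈ Ud c := by
  fin_cases c
  · have h1 : ‖z - 1‖ ≤ r := hz
    have h2 := (Complex.abs_re_le_norm (z - 1)).trans h1
    rw [abs_le] at h2
    simp only [Complex.sub_re, Complex.one_re] at h2
    change (yz z).re < 0
    rw [yz_re]
    linarith [h2.1]
  · have h1 : ‖z - 1 / 2‖ ≤ r := hz
    change ‖yz z‖ < 1
    rw [yz_norm]
    linarith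
  · have h1 : ‖z - 0‖ ≤ r := hz
    have h2 := (Complex.abs_re_le_norm (z - 0)).trans h1
    rw [abs_le, sub_zero] at h2
    change 0 < (yz z).re
    rw [yz_re]
    linarith [h2.2]
  · exact absurd rfl hc

theorem mem_Ud3 {z : ℂ} (hz : 1 / 4 < ‖z - 1 / 2‖ ^ 2) : z ∈ Ud 3 := by
  change 1 < ‖yz z‖
  rw [yz_norm]
  nlinarith [norm_nonneg (z - 1 / 2)]

theorem conj_mem_Ud {c : Fin 4} {z : ℂ} : conj z ∈ Ud c ↔ z ∈ Ud c := by
  simp only [Ud, Set.mem_ofPred_eq, yz_conj]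
  exact H181.conj_mem_DY c

theorem tz_conj (c : Fin 4) (z : ℂ) : tz c (conj z) = conj (tz c z) := by
  unfold tz
  rw [yz_conj, tY_eq, H181.conj_tc]

/-- **the disc frames are real** -/
theorem Dz_conj (c : Fin 4) (z : ℂ) : (Dz c (conj z)).map conj = Dz c z := by
  ext b j
  rw [Matrix.map_apply]
  unfold Dz
  rw [tz_conj]
  exact Sr_conj c (tz c z) b j

/-- the mirror half of the transitions -/
theorem tr_mirror {c : Fin 4} {S : Matrix (Fin 8) (Fin 8) ℂ} {z : ℂ} (b b' : Fin 8) :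
    TopN.tr (S.map conj) (Dz c z) b b' = conj (TopN.tr S (Dz c (conj z)) b b') := by
  rw [← TopN.tr_conj (Dz_unitri c _).isUnit, Dz_conj]

theorem tr_mirror' {c : Fin 4} {S : Matrix (Fin 8) (Fin 8) ℂ} (hS : IsUnit S.det) {z : ℂ}
    (b b' : Fin 8) :
    TopN.tr (Dz c z) (S.map conj) b b' = conj (TopN.tr (Dz c (conj z)) S b b') := by
  rw [← TopN.tr_conj hS, Dz_conj]

end

end Vale.Agent.P030.H352
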