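import Mathlib

/-!
# Absolute determinants of matrices with different index types; Lagrange facts
-/

open Matrix Finset

namespace Vale.Agent.P030.H352

set_option linter.unusedSectionVars false

section adet

variable {R C T : Type*} [Fintype R] [DecidableEq R] [Fintype C] [DecidableEq C]
  [Fintype T] [DecidableEq T]

theorem norm_det_submatrix_id (A : Matrix R R ℂ) (σ : Equiv.Perm R) :
    ‖(A.submatrix id σ).det‖ = ‖A.det‖ := by
  rw [Matrix.det_permute', norm_mul]
  rcases Int.units_eq_one_or (Equiv.Perm.sign σ) with h | h <;> simp [h]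

theorem norm_det_submatrix (A : Matrix R R ℂ) (e₁ e₂ : T ≃ R) :
    ‖(A.submatrix e₁ e₂).det‖ = ‖A.det‖ := by
  have h : A.submatrix e₁ e₂ = (A.submatrix id (e₁.symm.trans e₂)).submatrix e₁ e₁ := by
    ext i j; simp
  rw [h, Matrix.det_submatrix_equiv_self, norm_det_submatrix_id]

/-- absolute value of the determinant of a matrix whose rows and columns are indexed by
different types of the same cardinality (`0` if the cardinalities differ) -/
noncomputable def adet (M : Matrix R C ℂ) : ℝ :=
  if h : Fintype.card R = Fintype.card C then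
    ‖(M.submatrix id (Fintype.equivOfCardEq h)).det‖ else 0

theorem adet_eq (M : Matrix R C ℂ) (e₁ : T ≃ R) (e₂ : T ≃ C) :
    adet M = ‖(M.submatrix e₁ e₂).det‖ := by
  have h : Fintype.card R = Fintype.card C := Fintype.card_congr (e₁.symm.trans e₂)
  rw [adet, dif_pos h]
  have h2 : M.submatrix e₁ e₂ = (M.submatrix id (Fintype.equivOfCardEq h)).submatrix e₁
      (e₂.trans (Fintype.equivOfCardEq h).symm) := by
    ext i j; simp
  rw [h2, norm_det_submatrix]

theorem adet_self (M : Matrix R R ℂ) : adet M = ‖M.det‖ := by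
  rw [adet_eq M (Equiv.refl R) (Equiv.refl R)]; rfl

theorem adet_nonneg (M : Matrix R C ℂ) : 0 ≤ adet M := by
  rw [adet]; split_ifs <;> positivity

theorem adet_submatrix {R' C' : Type*} [Fintype R'] [DecidableEq R'] [Fintype C'] [DecidableEq C']
    (M : Matrix R C ℂ) (e₁ : R' ≃ R) (e₂ : C' ≃ C) : adet (M.submatrix e₁ e₂) = adet M := by
  by_cases h : Fintype.card R = Fintype.card C
  · rw [adet_eq (M.submatrix e₁ e₂) e₁.symm (T := R)
      ((Fintype.equivOfCardEq h).trans e₂.symm),
      adet_eq M (Equiv.refl R) (Fintype.equivOfCardEq h)]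
    congr 2
    ext i j; simp
  · rw [adet, adet, dif_neg h, dif_neg]
    rwa [Fintype.card_congr e₁, Fintype.card_congr e₂]

theorem adet_mul (M : Matrix R C ℂ) (A : Matrix C C ℂ) : adet (M * A) = adet M * ‖A.det‖ := by
  by_cases h : Fintype.card R = Fintype.card C
  · have e := Fintype.equivOfCardEq h
    rw [adet_eq (M * A) (Equiv.refl R) e, adet_eq M (Equiv.refl R) e,
      ← norm_det_submatrix A e e, ← norm_mul, ← Matrix.det_mul]
    congr 2
    ext i j
    simp only [submatrix_apply, Matrix.mul_apply]
    exact (e.sum_comp _).symm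
  · simp [adet, h]

/-- block triangular -/
theorem adet_fromBlocks_zero₁₂ {R₁ R₂ C₁ C₂ : Type*} [Fintype R₁] [DecidableEq R₁] [Fintype R₂]
    [DecidableEq R₂] [Fintype C₁] [DecidableEq C₁] [Fintype C₂] [DecidableEq C₂]
    (h : Fintype.card R₁ = Fintype.card C₁)
    (A : Matrix R₁ C₁ ℂ) (B : Matrix R₂ C₁ ℂ) (D : Matrix R₂ C₂ ℂ) :
    adet (Matrix.fromBlocks A 0 B D) = adet A * adet D := by
  by_cases h2 : Fintype.card R₂ = Fintype.card C₂
  · have e₁ := Fintype.equivOfCardEq h
    have e₂ := Fintype.equivOfCardEq h2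
    rw [adet_eq (Matrix.fromBlocks A 0 B D) (Equiv.refl (R₁ ⊕ R₂)) (e₁.sumCongr e₂),
      adet_eq A (Equiv.refl R₁) e₁, adet_eq D (Equiv.refl R₂) e₂, ← norm_mul,
      ← Matrix.det_fromBlocks_zero₁₂ _ (B.submatrix (Equiv.refl R₂) e₁) _]
    congr 2
    ext i j
    rcases i with i | i <;> rcases j with j | j <;> simp
  · have : ¬ Fintype.card (R₁ ⊕ R₂) = Fintype.card (C₁ ⊕ C₂) := by
      simp only [Fintype.card_sum]; omega
    rw [adet, dif_neg this]
    simp [adet, h2]

/-- two proportional columns -/
theorem adet_eq_zero_of_mulVec (M : Matrix R C ℂ) (v : C → ℂ) (hv : v ≠ 0)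
    (h : M.mulVec v = 0) : adet M = 0 := by
  by_cases h2 : Fintype.card R = Fintype.card C
  · have e := Fintype.equivOfCardEq h2
    rw [adet_eq M (Equiv.refl R) e, norm_eq_zero]
    apply Matrix.exists_mulVec_eq_zero_iff.mp
    refine ⟨v ∘ e, fun h0 => hv ?_, ?_⟩
    · ext c
      have := congrFun h0 (e.symm c)
      simpa using this
    · ext r
      have := congrFun h r
      simp only [Matrix.mulVec, dotProduct, Equiv.coe_refl, submatrix_apply, id,
        Function.comp] at this ⊢
      rw [← this]
      exact e.sum_comp (fun c => M r c * v c)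
  · simp [adet, h2]

end adet

section lagrange

variable {n : ℕ}

/-- partial fractions for monomials -/
theorem sum_nodalWeight_monomial_inv {a : Fin n → ℂ} (ha : Function.Injective a) {z : ℂ}
    (hz : ∀ i, z ≠ a i) {k : ℕ} (hk : k < n) :
    ∑ i, Lagrange.nodalWeight univ a i * a i ^ k * (z - a i)⁻¹ = z ^ k / ∏ i, (z - a i) := by
  have h1 := Lagrange.eval_interpolate_not_at_node (s := univ) (v := a) (x := z)
    (fun i => a i ^ k) (fun i _ => hz i)
  have h2 : (Polynomial.X ^ k : Polynomial ℂ) = Lagrange.interpolate univ a (fun i => a i ^ k) := by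
    apply Lagrange.eq_interpolate_of_eval_eq _ (ha.injOn)
    · rw [Polynomial.degree_X_pow]; simpa using hk
    · intro i _; simp
  rw [← h2, Lagrange.eval_nodal] at h1
  have h3 : ∏ i, (z - a i) ≠ 0 := Finset.prod_ne_zero_iff.mpr fun i _ => sub_ne_zero.mpr (hz i)
  rw [eq_div_iff h3]
  simp only [Polynomial.eval_pow, Polynomial.eval_X] at h1
  rw [h1, mul_comm]
  congr 1
  refine Finset.sum_congr rfl fun i _ => ?_
  ring

/-- the moments of the nodal weights -/
theorem sum_nodalWeight_monomial {a : Fin n → ℂ} (ha : Function.Injective a) {k : ℕ}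
    (hk : k < n) : ∑ i, Lagrange.nodalWeight univ a i * a i ^ k = if k = n - 1 then 1 else 0 := by
  have h := Lagrange.coeff_eq_sum (s := univ) (v := a) ha.injOn
    (P := (Polynomial.X ^ k : Polynomial ℂ)) (by rw [Polynomial.degree_X_pow]; simpa using hk)
  simp only [Finset.card_univ, Fintype.card_fin, Polynomial.coeff_X_pow, Polynomial.eval_pow,
    Polynomial.eval_X] at h
  have h2 : (if k = n - 1 then (1:ℂ) else 0) = if n - 1 = k then 1 else 0 := by
    simp [eq_comm]
  rw [h2, h]
  refine Finset.sum_congr rfl fun i _ => ?_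
  rw [Lagrange.nodalWeight, Finset.prod_inv_distrib]
  field_simp

theorem det_antitriangular (d : ℕ) (H : Matrix (Fin d) (Fin d) ℂ)
    (h : ∀ k l : Fin d, (k : ℕ) + l < d - 1 → H k l = 0)
    (h1 : ∀ k l : Fin d, (k : ℕ) + l = d - 1 → H k l = 1) : ‖H.det‖ = 1 := by
  have h2 : ‖(H.submatrix id (Fin.revPerm)).det‖ = ‖H.det‖ := norm_det_submatrix_id H Fin.revPerm
  rw [← h2]
  have h3 : (H.submatrix id (Fin.revPerm)).det = 1 := by
    rw [Matrix.det_of_isLowerTriangular]
    · apply Finset.prod_eq_one
      intro i _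
      simp only [submatrix_apply, id, Fin.revPerm_apply]
      apply h1
      simp only [Fin.val_rev]
      omega
    · intro i j hij
      simp only [submatrix_apply, id, Fin.revPerm_apply]
      apply h
      simp only [Fin.val_rev]
      have : (i : ℕ) < j := by simpa using hij
      omega
  rw [h3]; simp

/-- `∏ |ν_i| · |V(a)|² = 1` -/
theorem prod_nodalWeight {a : Fin n → ℂ} (ha : Function.Injective a) :
    ‖∏ i, Lagrange.nodalWeight univ a i‖ * ‖(vandermonde a).det‖ ^ 2 = 1 := by
  have h := det_antitriangular n ((vandermonde a)ᵀ * (Matrix.diagonal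
    fun i => Lagrange.nodalWeight univ a i) * vandermonde a) ?_ ?_
  · rw [det_mul, det_mul, det_transpose, det_diagonal, norm_mul, norm_mul] at h
    rw [← h]; ring
  · intro k l hkl
    have := sum_nodalWeight_monomial ha (k := k + l) (by omega)
    rw [if_neg (by omega)] at this
    rw [Matrix.mul_apply]
    simp only [Matrix.mul_diagonal, transpose_apply, vandermonde_apply]
    rw [← this]
    refine Finset.sum_congr rfl fun i _ => ?_
    ring
  · intro k l hkl
    have := sum_nodalWeight_monomial ha (k := k + l) (by omega)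
    rw [if_pos (by omega)] at this
    rw [Matrix.mul_apply]
    simp only [Matrix.mul_diagonal, transpose_apply, vandermonde_apply]
    rw [← this]
    refine Finset.sum_congr rfl fun i _ => ?_
    ring

end lagrange

end Vale.Agent.P030.H352
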