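import Mathlib

/-!
# Andréief's identity with extra (constant) columns

`κ` indexes the integrated columns, `ρ` the other columns, rows are indexed by `κ ⊕ ρ`.
-/

open MeasureTheory Matrix

namespace Vale.Agent.P030.H352

variable {𝕜 : Type*} [RCLike 𝕜] {X : Type*} [MeasurableSpace X]
variable {κ ρ : Type*} [Fintype κ] [DecidableEq κ] [Fintype ρ] [DecidableEq ρ]

/-- the matrix with columns `v k` (`k ∈ κ`) and `c r` (`r ∈ ρ`) -/
def colM (v : κ → (κ ⊕ ρ) → 𝕜) (c : ρ → (κ ⊕ ρ) → 𝕜) : Matrix (κ ⊕ ρ) (κ ⊕ ρ) 𝕜 :=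
  Matrix.of fun i j => Sum.elim (fun k => v k i) (fun r => c r i) j

theorem det_colM (v : κ → (κ ⊕ ρ) → 𝕜) (c : ρ → (κ ⊕ ρ) → 𝕜) :
    (colM v c).det = ∑ σ : Equiv.Perm (κ ⊕ ρ),
      ((Equiv.Perm.sign σ : ℤ) : 𝕜) * ((∏ k, v k (σ (Sum.inl k))) * ∏ r, c r (σ (Sum.inr r))) := by
  rw [Matrix.det_apply']
  refine Finset.sum_congr rfl fun σ _ => ?_
  rw [Fintype.prod_sum_type]
  simp [colM]

variable (μ : Measure X) [SigmaFinite μ]

/-- one term of the expansion is integrable -/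
theorem integrable_term {w : κ → X → 𝕜} {φ : X → (κ ⊕ ρ) → 𝕜}
    (hint : ∀ k i, Integrable (fun x => w k x * φ x i) μ) (c : ρ → (κ ⊕ ρ) → 𝕜)
    (σ : Equiv.Perm (κ ⊕ ρ)) :
    Integrable (fun x : κ → X => (∏ k, w k (x k)) * (((Equiv.Perm.sign σ : ℤ) : 𝕜) *
      ((∏ k, φ (x k) (σ (Sum.inl k))) * ∏ r, c r (σ (Sum.inr r))))) (Measure.pi fun _ => μ) := by
  have h := Integrable.fintype_prod (μ := fun _ : κ => μ)
    (f := fun k x => w k x * φ x (σ (Sum.inl k))) (fun k => hint k _)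
  refine (h.const_mul (((Equiv.Perm.sign σ : ℤ) : 𝕜) * ∏ r, c r (σ (Sum.inr r)))).congr
    (Filter.Eventually.of_forall fun x => ?_)
  simp only [Finset.prod_mul_distrib]
  ring

theorem integrable_prod_det {w : κ → X → 𝕜} {φ : X → (κ ⊕ ρ) → 𝕜}
    (hint : ∀ k i, Integrable (fun x => w k x * φ x i) μ) (c : ρ → (κ ⊕ ρ) → 𝕜) :
    Integrable (fun x : κ → X => (∏ k, w k (x k)) * (colM (fun k => φ (x k)) c).det)
      (Measure.pi fun _ => μ) := by
  simp only [det_colM, Finset.mul_sum]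
  exact integrable_finsetSum _ fun σ _ => integrable_term μ hint c σ

/-- **(A1)** -/
theorem andreief₁ {w : κ → X → 𝕜} {φ : X → (κ ⊕ ρ) → 𝕜}
    (hint : ∀ k i, Integrable (fun x => w k x * φ x i) μ) (c : ρ → (κ ⊕ ρ) → 𝕜) :
    (colM (fun k i => ∫ x, w k x * φ x i ∂μ) c).det =
      ∫ x : κ → X, (∏ k, w k (x k)) * (colM (fun k => φ (x k)) c).det
        ∂(Measure.pi fun _ => μ) := by
  simp only [det_colM, Finset.mul_sum]
  rw [integral_finsetSum _ fun σ _ => integrable_term μ hint c σ]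
  refine Finset.sum_congr rfl fun σ _ => ?_
  have h := integral_fintype_prod_eq_prod (μ := fun _ : κ => μ)
    (f := fun k x => w k x * φ x (σ (Sum.inl k)))
  rw [← h, mul_comm (∫ x : κ → X, _ ∂_), ← mul_assoc, ← integral_const_mul]
  refine integral_congr_ae (Filter.Eventually.of_forall fun x => ?_)
  simp only [Finset.prod_mul_distrib]
  ring

/-- the permutation of the integrated columns -/
theorem det_colM_perm (v : κ → (κ ⊕ ρ) → 𝕜) (c : ρ → (κ ⊕ ρ) → 𝕜) (τ : Equiv.Perm κ) :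
    (colM (fun k => v (τ k)) c).det = ((Equiv.Perm.sign τ : ℤ) : 𝕜) * (colM v c).det := by
  have h : colM (fun k => v (τ k)) c =
      (colM v c).submatrix id (Equiv.Perm.sumCongr τ (Equiv.refl ρ)) := by
    ext i j
    rcases j with j | j <;> simp [colM]
  rw [h, Matrix.det_permute']
  simp

/-- **(A2)** Andréief's identity with extra columns -/
theorem andreief₂ {w : κ → X → 𝕜} {φ : X → (κ ⊕ ρ) → 𝕜}
    (hint : ∀ k i, Integrable (fun x => w k x * φ x i) μ) (c : ρ → (κ ⊕ ρ) → 𝕜) :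
    ∫ x : κ → X, (Matrix.of fun k l => w k (x l)).det * (colM (fun k => φ (x k)) c).det
        ∂(Measure.pi fun _ => μ) =
      ((Fintype.card κ).factorial : 𝕜) * (colM (fun k i => ∫ x, w k x * φ x i ∂μ) c).det := by
  have h1 : ∀ x : κ → X,
      (Matrix.of fun k l => w k (x l)).det * (colM (fun k => φ (x k)) c).det =
      ∑ τ : Equiv.Perm κ, ((Equiv.Perm.sign τ : ℤ) : 𝕜) *
        ((∏ k, w (τ k) (x k)) * (colM (fun k => φ (x k)) c).det) := by
    intro x
    rw [Matrix.det_apply', Finset.sum_mul]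
    exact Finset.sum_congr rfl fun τ _ => by simp [mul_assoc]
  simp only [h1]
  have hint' : ∀ τ : Equiv.Perm κ, ∀ k i, Integrable (fun x => w (τ k) x * φ x i) μ :=
    fun τ k i => hint _ _
  rw [integral_finsetSum _ fun τ _ => (integrable_prod_det μ (hint' τ) c).const_mul _]
  have h2 : ∀ τ : Equiv.Perm κ,
      ∫ x : κ → X, ((Equiv.Perm.sign τ : ℤ) : 𝕜) *
        ((∏ k, w (τ k) (x k)) * (colM (fun k => φ (x k)) c).det) ∂(Measure.pi fun _ => μ) =
      (colM (fun k i => ∫ x, w k x * φ x i ∂μ) c).det := by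
    intro τ
    rw [integral_const_mul, ← andreief₁ μ (hint' τ) c,
      det_colM_perm (fun k i => ∫ x, w k x * φ x i ∂μ) c τ, ← mul_assoc]
    have : ((Equiv.Perm.sign τ : ℤ) : 𝕜) * ((Equiv.Perm.sign τ : ℤ) : 𝕜) = 1 := by
      rcases Int.units_eq_one_or (Equiv.Perm.sign τ) with h | h <;> simp [h]
    rw [this, one_mul]
  rw [Finset.sum_congr rfl fun τ _ => h2 τ, Finset.sum_const, Finset.card_univ,
    Fintype.card_perm, nsmul_eq_mul]

/-- **(A3)** the bound -/
theorem andreief_bound [IsFiniteMeasure μ] {w : κ → X → 𝕜} {φ : X → (κ ⊕ ρ) → 𝕜}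
    (hint : ∀ k i, Integrable (fun x => w k x * φ x i) μ) (c : ρ → (κ ⊕ ρ) → 𝕜) {B : ℝ}
    (hB : ∀ᵐ x ∂(Measure.pi fun _ : κ => μ),
      ‖(Matrix.of fun k l => w k (x l)).det‖ * ‖(colM (fun k => φ (x k)) c).det‖ ≤ B) :
    ((Fintype.card κ).factorial : ℝ) * ‖(colM (fun k i => ∫ x, w k x * φ x i ∂μ) c).det‖ ≤
      B * μ.real Set.univ ^ Fintype.card κ := by
  have h := andreief₂ μ hint c
  have h2 : ((Fintype.card κ).factorial : ℝ) *
      ‖(colM (fun k i => ∫ x, w k x * φ x i ∂μ) c).det‖ =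
      ‖((Fintype.card κ).factorial : 𝕜) * (colM (fun k i => ∫ x, w k x * φ x i ∂μ) c).det‖ := by
    rw [norm_mul]; simp
  rw [h2, ← h]
  refine (norm_integral_le_of_norm_le_const (C := B) ?_).trans ?_
  · filter_upwards [hB] with x hx
    rwa [norm_mul]
  · have : (Measure.pi fun _ : κ => μ).real Set.univ = μ.real Set.univ ^ Fintype.card κ := by
      rw [Measure.real, Measure.pi_univ]
      simp [Measure.real]
    rw [this]

end Vale.Agent.P030.H352
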