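import Vale.Agent.P030.H352.Adet
import Vale.Agent.P030.H352.Andreief

/-!
# One elimination step: algebra
-/

open Matrix Finset MeasureTheory

namespace Vale.Agent.P030.H352

set_option linter.unusedSectionVars false

variable {R' ρ : Type} [Fintype R'] [DecidableEq R'] [Fintype ρ] [DecidableEq ρ]

/-- the nodal weights -/
noncomputable def nu {n : ℕ} (a : Fin n → ℂ) (i : Fin n) : ℂ := Lagrange.nodalWeight univ a i

/-- elimination of one block, algebraic part -/
theorem elim_core {d p : ℕ} (a : Fin (p + d) → ℂ) (ha : Function.Injective a)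
    (G : Fin (p + d) → R' → ℂ) (C : ρ → R' → ℂ) :
    adet (Matrix.fromBlocks (Matrix.of fun (l : Fin d) (i : Fin (p + d)) => a i ^ (l : ℕ)) 0
      (Matrix.of fun (r : R') (i : Fin (p + d)) => G i r)
      (Matrix.of fun (r : R') (j : ρ) => C j r)) =
    ‖(vandermonde a).det‖ * adet (Matrix.of fun (r : R') (j : Fin p ⊕ ρ) =>
      Sum.elim (fun k : Fin p => ∑ i, G i r * (nu a i * a i ^ (k : ℕ))) (fun j => C j r) j) := by
  set A₁ : Matrix (Fin d) (Fin (p + d)) ℂ := Matrix.of fun (l : Fin d) i => a i ^ (l : ℕ)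
  set A₂ : Matrix R' (Fin (p + d)) ℂ := Matrix.of fun r i => G i r
  set A₃ : Matrix R' ρ ℂ := Matrix.of fun r j => C j r
  set Tm : Matrix (Fin (p + d)) (Fin (p + d)) ℂ := Matrix.diagonal (nu a) * vandermonde a
  have hT : ‖Tm.det‖ * ‖(vandermonde a).det‖ = 1 := by
    rw [Matrix.det_mul, Matrix.det_diagonal, norm_mul]
    have := prod_nodalWeight ha
    rw [← this]
    simp only [nu]; ring
  have hTapp : ∀ i k, Tm i k = nu a i * a i ^ (k : ℕ) := by
    intro i k
    simp [Tm, Matrix.diagonal_mul, vandermonde_apply]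
  have h1 := adet_mul (Matrix.fromBlocks A₁ 0 A₂ A₃) (Matrix.fromBlocks Tm 0 0 (1 : Matrix ρ ρ ℂ))
  rw [Matrix.fromBlocks_multiply, Matrix.det_fromBlocks_zero₂₁, det_one, mul_one] at h1
  simp only [Matrix.mul_zero, Matrix.zero_mul, add_zero, Matrix.mul_one, zero_add] at h1
  -- reorder the columns
  have key : adet (Matrix.fromBlocks (A₁ * Tm) 0 (A₂ * Tm) A₃) =
      adet (Matrix.of fun (r : R') (j : Fin p ⊕ ρ) =>
      Sum.elim (fun k : Fin p => ∑ i, G i r * (nu a i * a i ^ (k : ℕ))) (fun j => C j r) j) := by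
    let e : Fin d ⊕ (Fin p ⊕ ρ) ≃ Fin (p + d) ⊕ ρ :=
      ((Equiv.sumAssoc (Fin d) (Fin p) ρ).symm.trans
        ((Equiv.sumComm (Fin d) (Fin p)).sumCongr (Equiv.refl ρ))).trans
        (finSumFinEquiv.sumCongr (Equiv.refl ρ))
    rw [← adet_submatrix _ (Equiv.refl (Fin d ⊕ R')) e]
    have h2 : (Matrix.fromBlocks (A₁ * Tm) 0 (A₂ * Tm) A₃).submatrix (Equiv.refl (Fin d ⊕ R')) e =
        Matrix.fromBlocks ((A₁ * Tm).submatrix id (Fin.natAdd p)) 0
          ((A₂ * Tm).submatrix id (Fin.natAdd p))
          (Matrix.of fun (r : R') (j : Fin p ⊕ ρ) =>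
      Sum.elim (fun k : Fin p => ∑ i, G i r * (nu a i * a i ^ (k : ℕ))) (fun j => C j r) j) := by
      ext i j
      rcases i with i | i <;> rcases j with j | j | j
      · simp [e]
      · simp only [Equiv.refl_apply, submatrix_apply, e, Equiv.trans_apply,
          Equiv.sumAssoc_symm_apply_inr_inl, Equiv.sumCongr_apply, Sum.map_inl,
          Equiv.sumComm_apply, Sum.swap_inr, finSumFinEquiv_apply_left, fromBlocks_apply₁₁,
          fromBlocks_apply₁₂, Matrix.zero_apply]
        rw [Matrix.mul_apply]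
        have h3 := sum_nodalWeight_monomial ha (k := j + i) (by omega)
        rw [if_neg (by omega)] at h3
        rw [← h3]
        refine Finset.sum_congr rfl fun q _ => ?_
        rw [hTapp]
        simp only [A₁, Matrix.of_apply, nu, Fin.val_castAdd]
        ring
      · simp [e]
      · simp [e]
      · simp only [Equiv.refl_apply, submatrix_apply, e, Equiv.trans_apply,
          Equiv.sumAssoc_symm_apply_inr_inl, Equiv.sumCongr_apply, Sum.map_inl,
          Equiv.sumComm_apply, Sum.swap_inr, finSumFinEquiv_apply_left, fromBlocks_apply₂₁,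
          fromBlocks_apply₂₂, Matrix.of_apply, Sum.elim_inl]
        rw [Matrix.mul_apply]
        refine Finset.sum_congr rfl fun q _ => ?_
        rw [hTapp]
        simp [A₂]
      · simp [e, A₃]
    rw [h2, adet_fromBlocks_zero₁₂ rfl, adet_self,
      det_antitriangular, one_mul]
    · intro k l hkl
      have h3 := sum_nodalWeight_monomial ha (k := p + l + k) (by omega)
      rw [if_neg (by omega)] at h3
      simp only [submatrix_apply, id]
      rw [Matrix.mul_apply, ← h3]
      refine Finset.sum_congr rfl fun q _ => ?_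
      rw [hTapp]
      simp only [A₁, Matrix.of_apply, nu, Fin.val_natAdd]
      ring
    · intro k l hkl
      have h3 := sum_nodalWeight_monomial ha (k := p + l + k) (by omega)
      rw [if_pos (by omega)] at h3
      simp only [submatrix_apply, id]
      rw [Matrix.mul_apply, ← h3]
      refine Finset.sum_congr rfl fun q _ => ?_
      rw [hTapp]
      simp only [A₁, Matrix.of_apply, nu, Fin.val_natAdd]
      ring
  rw [← key, h1]
  rw [mul_comm, mul_assoc, hT, mul_one]

end Vale.Agent.P030.H352
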