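import Vale.Agent.P030.H352.HarmVal

/-!
# P030, route H, step A: from a family of members to the bound for one column
-/

open PowerSeries Finset Filter Topology

namespace Vale.Agent.P030.H352

open Vale.Agent.P030.T Vale.Agent.P030.H462 Vale.Agent.P030.AR Vale.P030.H205
open Vale.Agent.P030.H742

variable {A : Type} [Fintype A]

/-- the data of a family: members `a : A` (in the `y`-plane) and the eight outer members -/
structure HData (A : Type) where
  /-- closed domain -/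
  K : A → Set ℂ
  /-- interior -/
  U : A → Set ℂ
  /-- the vector -/
  e : A → ℂ → Fin 8 → ℂ
  /-- the group of a disc member -/
  gp : A → Option Gp
  /-- regular part of the potential -/
  reg : A → ℂ → ℝ
  /-- potentials of the outer members -/
  regO : Fin 8 → ℂ → ℝ

/-- local parameter of a member -/
noncomputable def tpar (o : Option Gp) (y : ℂ) : ℂ :=
  match o with
  | none => 1
  | some g => tl g.cusp y

/-- height of a member -/
noncomputable def hpar (ht : Gp → ℕ) (o : Option Gp) : ℝ :=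
  match o with
  | none => 0
  | some g => ht g

/-- the potential of a member -/
noncomputable def HData.psi (H : HData A) (ht : Gp → ℕ) (a : A) (y : ℂ) : ℝ :=
  hpar ht (H.gp a) * Real.log ‖tpar (H.gp a) y‖ + H.reg a y

/-- the vector of an outer member -/
noncomputable def outv (G : Matrix (Fin 8) (Fin 8) ℂ⟦X⟧) (κ : Fin 8) (y : ℂ) : Fin 8 → ℂ :=
  fun j => Vale.P030.H205.evl (G κ j) y⁻¹

/-- the edge rule for the vector `w` with potential `p` at `y` -/
def HData.Rel (H : HData A) (ht : Gp → ℕ) (G : Matrix (Fin 8) (Fin 8) ℂ⟦X⟧) (r3 δ C : ℝ)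
    (w : Fin 8 → ℂ) (p : ℝ) (y : ℂ) : Prop :=
  ∃ (c : A → ℂ) (d : Fin 8 → ℂ), ∑ b, ‖c b‖ + ∑ κ, ‖d κ‖ ≤ C ∧
    w = ∑ b, c b • H.e b y + ∑ κ, d κ • outv G κ y ∧
    (∀ b, c b ≠ 0 → y ∈ H.K b ∧ tpar (H.gp b) y ≠ 0 ∧ H.psi ht b y + δ ≤ p) ∧
    (∀ κ, d κ ≠ 0 → r3 ≤ ‖y‖ ∧ H.regO κ y + δ ≤ p)

/-- the conditions on a family -/
structure HData.Good (H : HData A) (ht : Gp → ℕ) (G : Matrix (Fin 8) (Fin 8) ℂ⟦X⟧)
    (r3 rM δ C : ℝ) : Prop where
  hK : ∀ a, IsCompact (H.K a)
  hU : ∀ a, IsOpen (H.U a)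
  hUK : ∀ a, H.U a ⊆ H.K a
  hrM : ∀ a, ∀ y ∈ H.K a, ‖y‖ ≤ rM
  cont : ∀ a, H.gp a = none → ∀ j, ContinuousOn (fun y => H.e a y j) (H.K a)
  ana : ∀ a, H.gp a = none → ∀ y ∈ H.U a, ∀ j, AnalyticAt ℂ (fun y => H.e a y j) y
  disc : ∀ a g, H.gp a = some g → g.cusp ≠ 3 ∧ ∀ y ∈ H.K a,
    yt g.cusp (tl g.cusp y) = y ∧ ‖tl g.cusp y‖ < 1 ∧ H.e a y = tupC g (tl g.cusp y)
  regc : ∀ a, ContinuousOn (H.reg a) (H.K a)
  rega : ∀ a, ∀ y ∈ H.U a, LocRe (H.reg a) y
  contO : ∀ κ j, ContinuousOn (fun y => outv G κ y j) {y | r3 ≤ ‖y‖}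
  anaO : ∀ κ j, ∀ y, r3 < ‖y‖ → AnalyticAt ℂ (fun y => outv G κ y j) y
  regOc : ∀ κ, ContinuousOn (H.regO κ) {y | r3 ≤ ‖y‖}
  regOa : ∀ κ, ∀ y, r3 < ‖y‖ → LocRe (H.regO κ) y
  edge : ∀ a, ∀ y ∈ H.K a, y ∉ H.U a → tpar (H.gp a) y ≠ 0 ∧
    H.Rel ht G r3 δ C (H.e a y) (H.psi ht a y) y
  edgeO : ∀ κ, ∀ y, ‖y‖ = r3 → H.Rel ht G r3 δ C (outv G κ y) (H.regO κ y) y

theorem rowp_cont (D i : ℕ) : Continuous (rowp D i) := by
  unfold rowp; fun_prop

theorem rowp_ana (D i : ℕ) (y : ℂ) : AnalyticAt ℂ (rowp D i) y := by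
  have : Differentiable ℂ (rowp D i) := by unfold rowp; fun_prop
  exact this.analyticAt y

theorem sec_cont {D : ℕ} (v : Fin D × Fin 8 → ℂ) {e : ℂ → Fin 8 → ℂ} {S : Set ℂ}
    (h : ∀ j, ContinuousOn (fun y => e y j) S) : ContinuousOn (fun y => sec D v (e y) y) S := by
  unfold sec
  exact continuousOn_finsetSum _ fun r _ => continuousOn_const.mul
    ((rowp_cont D r.1).continuousOn.mul (h r.2))

theorem sec_ana {D : ℕ} (v : Fin D × Fin 8 → ℂ) {e : ℂ → Fin 8 → ℂ} {y : ℂ}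
    (h : ∀ j, AnalyticAt ℂ (fun y => e y j) y) : AnalyticAt ℂ (fun y => sec D v (e y) y) y := by
  unfold sec
  exact Finset.analyticAt_fun_sum _ fun r _ => analyticAt_const.mul
    ((rowp_ana D r.1 y).mul (h r.2))

/-- the local parameter is analytic on the domain of a disc member -/
theorem tl_ana {c : Fin 4} (hc : c ≠ 3) {y : ℂ} (hy : yt c (tl c y) = y) :
    AnalyticAt ℂ (tl c) y := by
  fin_cases c
  · have h1 : y - 1 ≠ 0 := by
      intro h
      have hy1 : y = 1 := sub_eq_zero.1 h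
      simp only [yt, tl, hy1] at hy
      norm_num at hy
    change AnalyticAt ℂ (fun y => (y + 1) / (y - 1)) y
    exact (analyticAt_id.add analyticAt_const).div (analyticAt_id.sub analyticAt_const) h1
  · exact analyticAt_id
  · have h1 : y + 1 ≠ 0 := by
      intro h
      have hy1 : y = -1 := by linear_combination h
      simp only [yt, tl, hy1] at hy
      norm_num at hy
    change AnalyticAt ℂ (fun y => (y - 1) / (y + 1)) y
    exact (analyticAt_id.sub analyticAt_const).div (analyticAt_id.add analyticAt_const) h1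
  · exact absurd rfl hc

/-- **STEP A** : the bound for the columns of the groups with a disc member -/
theorem HData.bound (H : HData A) {ht : Gp → ℕ} {G : Matrix (Fin 8) (Fin 8) ℂ⟦X⟧}
    {r3 rM δ C : ℝ} (hH : H.Good ht G r3 rM δ C)
    (hPG : ∀ g j, PG (Rat.castHom ℂ) (tup0 g j) ∧ PG (Rat.castHom ℂ) (tup1 g j))
    {D : ℕ} {v : Fin D × Fin 8 → ℂ} {R : Fin 8 → ℝ} {B0 lam τ : ℝ} (hB0 : 0 ≤ B0) (hτ : 0 ≤ τ)
    (hC : C * Real.exp (-(τ * δ)) < 1) (hR : ∀ κ, rM ≤ R κ ∧ r3 < R κ)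
    (hrow : ∀ κ y, ‖y‖ = R κ → ‖sec D v (outv G κ y) y‖ ≤ B0)
    (hout : ∀ κ y, ‖y‖ = R κ → lam ≤ H.regO κ y)
    (hkill : ∀ g : Gp, g.cusp ≠ 3 → ∀ k : ℕ, (k : ℝ) < τ * ht g →
      Vale.Agent.P030.T.val D (Gc / 2) v (g, k) = 0) :
    ∀ a g, H.gp a = some g → ∀ y0 ∈ H.K a, tl g.cusp y0 = 0 → ∀ k : ℕ, (k : ℝ) = τ * ht g →
      ‖Vale.Agent.P030.T.val D (Gc / 2) v (g, k)‖ ≤
        B0 * Real.exp (-(τ * lam)) * Real.exp (τ * H.reg a y0) := by
  classical
  -- the quotient functions of the groups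
  have hquot : ∀ g : Gp, ∃ Gq : ℂ → ℂ, g.cusp ≠ 3 → DifferentiableOn ℂ Gq (Metric.ball 0 1) ∧
      (∀ t ∈ Metric.ball (0 : ℂ) 1, sec D v (tupC g t) (yt g.cusp t) =
        t ^ ⌈τ * ht g⌉₊ * Gq t) ∧
      Gq 0 = Vale.Agent.P030.T.val D (Gc / 2) v (g, ⌈τ * ht g⌉₊) := by
    intro g
    by_cases hg : g.cusp = 3
    · exact ⟨0, fun h => absurd hg h⟩
    obtain ⟨Gq, h1, h2, h3⟩ := exists_div_pow
      (S := fun t => sec D v (tupC g t) (yt g.cusp t))
      (c := fun k => Vale.Agent.P030.T.val D (Gc / 2) v (g, k)) (m := ⌈τ * ht g⌉₊)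
      (fun z hz => hasSum_val hg (hPG g) D v (by simpa using hz))
      (fun k hk => hkill g hg k (Nat.lt_ceil.1 hk))
    exact ⟨Gq, fun _ => ⟨h1, h2, h3⟩⟩
  choose Gq hGq using hquot
  -- the combined family
  let K' : A ⊕ Fin 8 → Set ℂ := Sum.elim H.K fun κ => {y | r3 ≤ ‖y‖ ∧ ‖y‖ ≤ R κ}
  let U' : A ⊕ Fin 8 → Set ℂ := Sum.elim H.U fun κ => {y | r3 < ‖y‖ ∧ ‖y‖ < R κ}
  let s' : A ⊕ Fin 8 → ℂ → ℂ := Sum.elim (fun a y => sec D v (H.e a y) y)
    fun κ y => sec D v (outv G κ y) y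
  let g' : A ⊕ Fin 8 → ℂ → ℂ := Sum.elim
    (fun a => match H.gp a with
      | none => fun y => sec D v (H.e a y) y
      | some g => fun y => Gq g (tl g.cusp y))
    fun κ y => sec D v (outv G κ y) y
  let t' : A ⊕ Fin 8 → ℂ → ℂ := Sum.elim (fun a => tpar (H.gp a)) fun _ _ => 1
  let m' : A ⊕ Fin 8 → ℕ := Sum.elim (fun a => ⌈τ * hpar ht (H.gp a)⌉₊) fun _ => 0
  let h' : A ⊕ Fin 8 → ℝ := Sum.elim (fun a => hpar ht (H.gp a)) fun _ => 0
  let reg' : A ⊕ Fin 8 → ℂ → ℝ := Sum.elim H.reg H.regO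
  have key := family_bound (A := A ⊕ Fin 8) K' U' ?_ ?_ ?_ s' g' t' m' h' reg'
    (τ := τ) (B := B0 * Real.exp (-(τ * lam))) (C := C) (δ := δ) (by positivity)
    ?_ ?_ ?_ ?_ ?_ ?_ ?_ ?_ hτ ?_ hC
  · -- conclusion
    intro a g hag y0 hy0 ht0 k hk
    have h1 := key (Sum.inl a) y0 hy0
    have hceil : ⌈τ * (ht g : ℝ)⌉₊ = k := by rw [← hk]; exact Nat.ceil_natCast k
    simp only [g', t', m', h', reg', Sum.elim_inl, hag, tpar, hpar, ht0, norm_zero, hceil] at h1
    rw [hk, sub_self, Real.rpow_zero, mul_one] at h1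
    have h2 := (hGq g ((hH.disc a g hag).1)).2.2
    rw [hceil] at h2
    rw [h2] at h1
    have hpos := Real.exp_pos (τ * H.reg a y0)
    have h3 : Real.exp (-(τ * H.reg a y0)) * Real.exp (τ * H.reg a y0) = 1 := by
      rw [← Real.exp_add]; simp
    calc ‖Vale.Agent.P030.T.val D (Gc / 2) v (g, k)‖
        = ‖Vale.Agent.P030.T.val D (Gc / 2) v (g, k)‖ * Real.exp (-(τ * H.reg a y0)) *
          Real.exp (τ * H.reg a y0) := by rw [mul_assoc, h3, mul_one]
      _ ≤ _ := mul_le_mul_of_nonneg_right h1 hpos.le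
  · -- compactness
    rintro (a | κ)
    · exact hH.hK a
    · have : K' (Sum.inr κ) = Metric.closedBall (0 : ℂ) (R κ) ∩ {y | r3 ≤ ‖y‖} := by
        ext y; simp [K', and_comm]
      rw [this]
      exact (isCompact_closedBall _ _).inter_right (isClosed_le continuous_const continuous_norm)
  · rintro (a | κ)
    · exact hH.hU a
    · exact (isOpen_lt continuous_const continuous_norm).inter
        (isOpen_lt continuous_norm continuous_const)
  · rintro (a | κ)
    · exact hH.hUK a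
    · intro y hy; exact ⟨hy.1.le, hy.2.le⟩
  · -- factorisation
    rintro (a | κ) y hy
    · rcases hag : H.gp a with _ | g
      · simp [s', t', m', g', hag, tpar, hpar]
      · obtain ⟨hc, hd⟩ := hH.disc a g hag
        obtain ⟨h1, h2, h3⟩ := hd y hy
        simp only [s', t', m', g', Sum.elim_inl, hag, tpar, hpar]
        have h4 := (hGq g hc).2.1 (tl g.cusp y) (by simpa using h2)
        rw [h1] at h4
        rw [h3, h4]
    · simp [s', t', m', g']
  · -- continuity of g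
    rintro (a | κ)
    · rcases hag : H.gp a with _ | g
      · simp only [g', Sum.elim_inl, hag]
        exact sec_cont v (hH.cont a hag)
      · obtain ⟨hc, hd⟩ := hH.disc a g hag
        simp only [g', Sum.elim_inl, hag, K']
        refine (hGq g hc).1.continuousOn.comp (fun y hy => ?_) fun y hy => ?_
        · exact (tl_ana hc (hd y hy).1).continuousAt.continuousWithinAt
        · simpa using (hd y hy).2.1
    · simp only [g', Sum.elim_inr, K']
      exact (sec_cont v (hH.contO κ)).mono fun y hy => hy.1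
  · -- analyticity of g
    rintro (a | κ) y hy
    · rcases hag : H.gp a with _ | g
      · simp only [g', Sum.elim_inl, hag]
        exact sec_ana v (hH.ana a hag y hy)
      · obtain ⟨hc, hd⟩ := hH.disc a g hag
        obtain ⟨h1, h2, h3⟩ := hd y (hH.hUK a hy)
        simp only [g', Sum.elim_inl, hag]
        have h5 : AnalyticAt ℂ (Gq g) (tl g.cusp y) := by
          have hb : Metric.ball (0 : ℂ) 1 ∈ 𝓝 (tl g.cusp y) :=
            Metric.isOpen_ball.mem_nhds (by simpa using h2)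
          exact (hGq g hc).1.analyticAt hb
        exact h5.fun_comp (tl_ana hc h1)
    · simp only [g', Sum.elim_inr]
      exact sec_ana v fun j => hH.anaO κ j y hy.1
  · -- continuity of t
    rintro (a | κ)
    · rcases hag : H.gp a with _ | g
      · simp only [t', Sum.elim_inl, hag]
        change ContinuousOn (fun _ : ℂ => (1 : ℂ)) _
        exact continuousOn_const
      · obtain ⟨hc, hd⟩ := hH.disc a g hag
        simp only [t', Sum.elim_inl, hag, K']
        exact fun y hy => (tl_ana hc (hd y hy).1).continuousAt.continuousWithinAt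
    · exact continuousOn_const
  · rintro (a | κ) y hy
    · rcases hag : H.gp a with _ | g
      · simp only [t', Sum.elim_inl, hag]
        change AnalyticAt ℂ (fun _ : ℂ => (1 : ℂ)) _
        exact analyticAt_const
      · obtain ⟨hc, hd⟩ := hH.disc a g hag
        simp only [t', Sum.elim_inl, hag]
        exact tl_ana hc (hd y (hH.hUK a hy)).1
    · exact analyticAt_const
  · rintro (a | κ)
    · exact hH.regc a
    · exact (hH.regOc κ).mono fun y hy => hy.1
  · rintro (a | κ) y hy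
    · exact hH.rega a y hy
    · exact hH.regOa κ y hy.1
  · rintro (a | κ)
    · exact Nat.le_ceil _
    · simp [h', m']
  · -- edges
    have conv : ∀ (w : Fin 8 → ℂ) (p : ℝ) (y : ℂ), (∀ κ, r3 ≤ ‖y‖ → ‖y‖ ≤ R κ) →
        H.Rel ht G r3 δ C w p y → ∃ c : A ⊕ Fin 8 → ℂ, ∑ b, ‖c b‖ ≤ C ∧
        sec D v w y = ∑ b, c b * s' b y ∧
          ∀ b, c b ≠ 0 → y ∈ K' b ∧ t' b y ≠ 0 ∧
            h' b * Real.log ‖t' b y‖ + reg' b y + δ ≤ p := by
      rintro w p y hyR ⟨c, d, h1, h2, h3, h4⟩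
      refine ⟨Sum.elim c d, ?_, ?_, ?_⟩
      · rw [Fintype.sum_sum_type]; exact h1
      · rw [h2, sec_add, sec_sum, sec_sum, Fintype.sum_sum_type]; rfl
      · rintro (b | κ) hb
        · exact h3 b hb
        · obtain ⟨h5, h6⟩ := h4 κ hb
          refine ⟨⟨h5, hyR κ h5⟩, one_ne_zero, ?_⟩
          simp only [h', t', reg', Sum.elim_inr, zero_mul, zero_add]
          exact h6
    rintro (a | κ) y hy hyU
    · obtain ⟨h1, h2⟩ := hH.edge a y hy hyU
      refine ⟨h1, Or.inr ?_⟩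
      exact conv _ _ y (fun κ _ => (hH.hrM a y hy).trans (hR κ).1) h2
    · refine ⟨one_ne_zero, ?_⟩
      obtain ⟨hy1, hy2⟩ := hy
      rcases hy2.lt_or_eq with hlt | heq
      · -- inner circle
        have hyr : ‖y‖ = r3 := by
          by_contra hne
          exact hyU ⟨lt_of_le_of_ne hy1 (Ne.symm hne), hlt⟩
        right
        have h2 := hH.edgeO κ y hyr
        obtain ⟨c, hc1, hc2, hc3⟩ := conv _ _ y (fun κ' _ => by rw [hyr]; exact (hR κ').2.le) h2
        refine ⟨c, hc1, hc2, fun b hb => ?_⟩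
        obtain ⟨h5, h6, h7⟩ := hc3 b hb
        refine ⟨h5, h6, ?_⟩
        simp only [h', t', reg', Sum.elim_inr, zero_mul, zero_add] at h7 ⊢
        exact h7
      · -- outer circle
        left
        simp only [s', h', t', reg', Sum.elim_inr, zero_mul, zero_add]
        refine mul_le_mul (hrow κ y heq) (Real.exp_le_exp.2 ?_) (Real.exp_nonneg _) hB0
        have := mul_le_mul_of_nonneg_left (hout κ y heq) hτ
        linarith

end Vale.Agent.P030.H352
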