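import Vale.Agent.P030.H205.FrameC3T
import Vale.Agent.P030.H352.HarmA

/-!
# P030, route H: the Taylor coefficients of a section along a group tuple (cusps c0, c1, c2)
-/

open PowerSeries Finset

namespace Vale.Agent.P030.H352

open Vale.Agent.P030.T Vale.Agent.P030.H462 Vale.Agent.P030.AR Vale.P030.H205

/-- the `y`-coordinate (`y = (u+1)/(u-1) = 1 - 2S`) at the value `t` of the local parameter -/
noncomputable def yt (c : Fin 4) (t : ℂ) : ℂ :=
  match c with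
  | 0 => (t + 1) / (t - 1)
  | 1 => t
  | 2 => (1 + t) / (1 - t)
  | 3 => t⁻¹

/-- the local parameter as a function of `y` -/
noncomputable def tl (c : Fin 4) (y : ℂ) : ℂ :=
  match c with
  | 0 => (y + 1) / (y - 1)
  | 1 => y
  | 2 => (y - 1) / (y + 1)
  | 3 => y⁻¹

/-- the value of the row vector `v` at `y` on the vector `e` -/
noncomputable def sec (D : ℕ) (v : Fin D × Fin 8 → ℂ) (e : Fin 8 → ℂ) (y : ℂ) : ℂ :=
  ∑ r, v r * (rowp D r.1 y * e r.2)

theorem sec_sum {ι : Type*} (s : Finset ι) (D : ℕ) (v : Fin D × Fin 8 → ℂ) (c : ι → ℂ)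
    (e : ι → Fin 8 → ℂ) (y : ℂ) :
    sec D v (∑ b ∈ s, c b • e b) y = ∑ b ∈ s, c b * sec D v (e b) y := by
  unfold sec
  simp only [Finset.sum_apply, Pi.smul_apply, smul_eq_mul, Finset.mul_sum]
  rw [Finset.sum_comm]
  refine Finset.sum_congr rfl fun b _ => Finset.sum_congr rfl fun r _ => ?_
  ring

theorem sec_add (D : ℕ) (v : Fin D × Fin 8 → ℂ) (e e' : Fin 8 → ℂ) (y : ℂ) :
    sec D v (e + e') y = sec D v e y + sec D v e' y := by
  unfold sec
  rw [← Finset.sum_add_distrib]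
  exact Finset.sum_congr rfl fun r _ => by simp only [Pi.add_apply]; ring

theorem one_sub_ne {t : ℂ} (ht : ‖t‖ < 1) : (1 : ℂ) - t ≠ 0 := by
  intro h
  have : t = 1 := (sub_eq_zero.1 h).symm
  rw [this, norm_one] at ht
  exact lt_irrefl _ ht

theorem pg_onePX : PG (Rat.castHom ℂ) (1 + X : ℚ⟦X⟧) := PG.one.add PG.varX
theorem pg_oneMX : PG (Rat.castHom ℂ) (1 - X : ℚ⟦X⟧) := PG.one.sub PG.varX
theorem pg_geo' : PG (Rat.castHom ℂ) geo :=
  PG.of_le 1 0 fun n => by simp [geo]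

theorem evq_geo {t : ℂ} (ht : ‖t‖ < 1) : evq geo t = (1 - t)⁻¹ := by
  unfold evq ev geo
  simp only [coeff_mk, map_one, one_mul]
  exact tsum_geometric_of_norm_lt_one ht

theorem pg_mon (D : ℕ) (c : Fin 4) (i : ℕ) : PG (Rat.castHom ℂ) (mon D c i) := by
  fin_cases c
  · exact (PG.varX.pow _).mul (pg_geo'.pow _)
  · exact (PG.const _).mul ((pg_onePX.pow _).mul (pg_oneMX.pow _))
  · exact (PG.const _).mul ((PG.varX.pow _).mul (pg_geo'.pow _))
  · exact (PG.const _).mul ((pg_onePX.pow _).mul (pg_oneMX.pow _))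

theorem evq_onePX {t : ℂ} (ht : ‖t‖ < 1) : evq (1 + X : ℚ⟦X⟧) t = 1 + t := by
  unfold evq; rw [ev_add PG.one PG.varX ht, ev_one, ev_X]
theorem evq_oneMX {t : ℂ} (ht : ‖t‖ < 1) : evq (1 - X : ℚ⟦X⟧) t = 1 - t := by
  unfold evq; rw [ev_sub PG.one PG.varX ht, ev_one, ev_X]

theorem evq_mon {D : ℕ} {c : Fin 4} (hc : c ≠ 3) {i : ℕ} (hi : i < D) {t : ℂ} (ht : ‖t‖ < 1) :
    evq (mon D c i) t = rowp D i (yt c t) := by
  have h1t := one_sub_ne ht
  have h1t' : t - 1 ≠ 0 := by rw [← neg_sub]; exact neg_ne_zero.2 h1t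
  obtain ⟨k, hk⟩ : ∃ k, D - 1 = i + k := ⟨D - 1 - i, by omega⟩
  have hk' : D - 1 - i = k := by omega
  have hg := evq_geo ht
  have hp := evq_onePX ht
  have hm := evq_oneMX ht
  unfold evq at hg hp hm ⊢
  fin_cases c
  · change ev _ (X ^ i * geo ^ (D - 1)) t = _
    rw [ev_mul (PG.varX.pow _) (pg_geo'.pow _) ht, ev_pow PG.varX _ ht, ev_pow pg_geo' _ ht, hg,
      ev_X]
    simp only [rowp, yt]
    have h2 : (t + 1) / (t - 1) + 1 = -2 * t * (1 - t)⁻¹ := by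
      rw [← neg_sub t 1, inv_neg]; field_simp; ring
    have h3 : (t + 1) / (t - 1) - 1 = -2 * (1 - t)⁻¹ := by
      rw [← neg_sub t 1, inv_neg]; field_simp; ring
    rw [h2, h3, hk', hk, mul_pow, mul_pow, mul_pow, pow_add, pow_add]
    have h4 : (-2 : ℂ) ^ i ≠ 0 := pow_ne_zero _ (by norm_num)
    have h5 : (-2 : ℂ) ^ k ≠ 0 := pow_ne_zero _ (by norm_num)
    field_simp
  · change ev _ (sc ((-1) ^ i / 2 ^ (D - 1)) ((1 + X) ^ i * (1 - X) ^ (D - 1 - i))) t = _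
    rw [sc, ev_mul (PG.const _) ((pg_onePX.pow _).mul (pg_oneMX.pow _)) ht,
      ev_mul (pg_onePX.pow _) (pg_oneMX.pow _) ht, ev_pow pg_onePX _ ht, ev_pow pg_oneMX _ ht,
      hp, hm, ev_C]
    simp only [rowp, yt]
    have h3 : (1 - t) = (-1) * (t - 1) := by ring
    rw [h3, hk', hk, mul_pow, pow_add, pow_add]
    have h4 : (-2 : ℂ) ^ i = (-1) ^ i * 2 ^ i := by rw [← mul_pow]; norm_num
    have h5 : (-2 : ℂ) ^ k = (-1) ^ k * 2 ^ k := by rw [← mul_pow]; norm_num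
    rw [h4, h5]
    have h6 : ((-1 : ℂ) ^ i) * (-1) ^ i = 1 := by rw [← mul_pow]; norm_num
    have h7 : ((-1 : ℂ) ^ k) * (-1) ^ k = 1 := by rw [← mul_pow]; norm_num
    have e1 : ((-1 : ℂ) ^ i) ≠ 0 := pow_ne_zero _ (by norm_num)
    have e2 : ((-1 : ℂ) ^ k) ≠ 0 := pow_ne_zero _ (by norm_num)
    simp only [map_div₀, map_pow, map_neg, map_one, map_mul, map_ofNat]
    field_simp
    linear_combination ((-1 : ℂ) ^ k * (-1) ^ k) * (1 + t) ^ i * h6 + (1 + t) ^ i * h7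
  · change ev _ (sc ((-1) ^ (D - 1)) (X ^ (D - 1 - i) * geo ^ (D - 1))) t = _
    rw [sc, ev_mul (PG.const _) ((PG.varX.pow _).mul (pg_geo'.pow _)) ht,
      ev_mul (PG.varX.pow _) (pg_geo'.pow _) ht, ev_pow PG.varX _ ht, ev_pow pg_geo' _ ht, hg,
      ev_X, ev_C]
    simp only [rowp, yt]
    have h2 : (1 + t) / (1 - t) + 1 = 2 * (1 - t)⁻¹ := by field_simp; ring
    have h3 : (1 + t) / (1 - t) - 1 = 2 * t * (1 - t)⁻¹ := by field_simp; ring
    rw [h2, h3, hk', hk, mul_pow, mul_pow, mul_pow, pow_add, pow_add]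
    have h4 : (-2 : ℂ) ^ i = (-1) ^ i * 2 ^ i := by rw [← mul_pow]; norm_num
    have h5 : (-2 : ℂ) ^ k = (-1) ^ k * 2 ^ k := by rw [← mul_pow]; norm_num
    have h6 : ((-1 : ℂ) ^ i) * (-1) ^ i = 1 := by rw [← mul_pow]; norm_num
    have h7 : ((-1 : ℂ) ^ k) * (-1) ^ k = 1 := by rw [← mul_pow]; norm_num
    have e1 : ((-1 : ℂ) ^ i) ≠ 0 := pow_ne_zero _ (by norm_num)
    have e2 : ((-1 : ℂ) ^ k) ≠ 0 := pow_ne_zero _ (by norm_num)
    have e3 : ((2 : ℂ) ^ i) ≠ 0 := pow_ne_zero _ (by norm_num)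
    have e4 : ((2 : ℂ) ^ k) ≠ 0 := pow_ne_zero _ (by norm_num)
    simp only [map_pow, map_neg, map_one, map_mul]
    rw [pow_add (-2 : ℂ), h4, h5]
    field_simp
    linear_combination t ^ k * ((-1 : ℂ) ^ k * (-1) ^ k) * h6 + t ^ k * h7
  · exact absurd rfl hc

/-- **(A1)** the columns of a group at `c0, c1, c2` are the Taylor coefficients of the section -/
theorem hasSum_val {g : Gp} (hg : g.cusp ≠ 3)
    (hPG : ∀ j, PG (Rat.castHom ℂ) (tup0 g j) ∧ PG (Rat.castHom ℂ) (tup1 g j)) (D : ℕ)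
    (v : Fin D × Fin 8 → ℂ) {t : ℂ} (ht : ‖t‖ < 1) :
    HasSum (fun k => Vale.Agent.P030.T.val D (Gc / 2) v (g, k) * t ^ k) (sec D v (tupC g t) (yt g.cusp t)) := by
  have hterm : ∀ r : Fin D × Fin 8, HasSum
      (fun k => v r * ((((En D (Gc / 2) r (g, k) : ℝ) : ℂ)) * t ^ k))
      (v r * (rowp D r.1 (yt g.cusp t) * tupC g t r.2)) := by
    intro r
    have h0 := (((pg_mon D g.cusp r.1).mul (hPG r.2).1).hasSum ht)
    have h1 := (((pg_mon D g.cusp r.1).mul (hPG r.2).2).hasSum ht).mul_left xc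
    rw [ev_mul (pg_mon D g.cusp r.1) (hPG r.2).1 ht] at h0
    rw [ev_mul (pg_mon D g.cusp r.1) (hPG r.2).2 ht] at h1
    have hm := evq_mon hg r.1.2 ht
    unfold evq at hm
    rw [hm] at h0 h1
    have h2 := (h0.add h1).mul_left (v r)
    have h3 : (fun k => v r * ((((En D (Gc / 2) r (g, k) : ℝ) : ℂ)) * t ^ k)) = fun i =>
        v r * ((Rat.castHom ℂ) ((coeff i) (mon D g.cusp r.1 * tup0 g r.2)) * t ^ i +
          xc * ((Rat.castHom ℂ) ((coeff i) (mon D g.cusp r.1 * tup1 g r.2)) * t ^ i)) := by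
      funext k
      unfold En ent0 ent1 xc
      simp only [eq_ratCast]
      push_cast
      ring
    have h4 : v r * (rowp D r.1 (yt g.cusp t) * tupC g t r.2) = v r *
        (rowp D r.1 (yt g.cusp t) * ev (Rat.castHom ℂ) (tup0 g r.2) t +
        xc * (rowp D r.1 (yt g.cusp t) * ev (Rat.castHom ℂ) (tup1 g r.2) t)) := by
      unfold tupC evq
      ring
    rw [h3, h4]
    exact h2
  have h := hasSum_sum fun r (_ : r ∈ (univ : Finset (Fin D × Fin 8))) => hterm r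
  have h5 : (fun k => Vale.Agent.P030.T.val D (Gc / 2) v (g, k) * t ^ k) =
      fun k => ∑ r, v r * ((((En D (Gc / 2) r (g, k) : ℝ) : ℂ)) * t ^ k) := by
    funext k
    unfold Vale.Agent.P030.T.val
    rw [Finset.sum_mul]
    exact Finset.sum_congr rfl fun r _ => by ring
  rw [h5]
  exact h

end Vale.Agent.P030.H352
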