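import Vale.Agent.P030.H352.Elim

/-!
# One elimination step: analysis
-/

open Matrix Finset MeasureTheory

namespace Vale.Agent.P030.H352

set_option linter.unusedSectionVars false

/-- the matrix of the point columns `v_i ⊗ (a_i ^ k)_k` -/
def ptM {m : ℕ} {ι : Type} (D : Fin m → ℕ) (a : ι → ℂ) (v : ι → Fin m → ℂ) :
    Matrix (Σ b, Fin (D b)) ι ℂ :=
  Matrix.of fun r i => v i r.1 * a i ^ (r.2 : ℕ)

/-- a Cauchy representation -/
structure RepData (m : ℕ) : Type 1 where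
  /-- wall space -/
  X : Type
  /-- its measurable structure -/
  [ms : MeasurableSpace X]
  /-- measure on the walls -/
  μ : Measure X
  /-- position -/
  ξ : X → ℂ
  /-- jump vector -/
  J : X → Fin m → ℂ
  /-- frame -/
  F : ℂ → Fin m → ℂ
  /-- value at infinity -/
  c : Fin m → ℂ

attribute [instance] RepData.ms

/-- the properties of a Cauchy representation on the finite set `A` -/
structure IsRep {m : ℕ} (N : ℂ → (Fin (m + 1) → ℂ) → ℝ) (N' : ℂ → (Fin m → ℂ) → ℝ) (w : ℂ → ℝ)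
    (C M δ : ℝ) (A : Finset ℂ) (R : RepData m) : Prop where
  fin : IsFiniteMeasure R.μ
  mass : R.μ.real Set.univ ≤ M
  measξ : AEStronglyMeasurable R.ξ R.μ
  bddξ : ∃ B, ∀ᵐ x ∂(R.μ), ‖R.ξ x‖ ≤ B
  measJ : ∀ b, AEStronglyMeasurable (fun x => R.J x b) R.μ
  bddJ : ∃ B, ∀ᵐ x ∂(R.μ), ∀ b, ‖R.J x b‖ ≤ B
  rep : ∀ z ∈ A, ∀ b, R.F z b = R.c b + ∫ x, R.J x b / (R.ξ x - z) ∂(R.μ)
  sep : ∀ᵐ x ∂(R.μ), ∀ z ∈ A, δ ≤ ‖R.ξ x - z‖
  jump : ∀ᵐ x ∂(R.μ), N' (R.ξ x) (R.J x) ≤ C * Real.exp (w (R.ξ x))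
  frame : ∀ z ∈ A, ∀ v : Fin (m + 1) → ℂ, N' z (Fin.tail v - v 0 • R.F z) ≤ C * N z v

/-- the separated energy inequality -/
def Energy (w : ℂ → ℝ) (d : ℕ) (E : ℝ) (K : ℕ) (δ : ℝ) : Prop :=
  ∀ p : ℕ, p + d ≤ K → ∀ a : Fin (p + d) → ℂ, ∀ x : Fin p → ℂ, (∀ i j, δ ≤ ‖x i - a j‖) →
    ‖(vandermonde a).det‖ * ‖(vandermonde x).det‖ ≤
      Real.exp (∑ i, w (a i) - ∑ j, w (x j) - E) * ∏ i, ∏ j, ‖x i - a j‖

variable {m : ℕ} {ρ : Type} [Fintype ρ] [DecidableEq ρ]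

theorem bdd_pow {X : Type} [MeasurableSpace X] {μ : Measure X} {f : X → ℂ}
    (h : ∃ B, ∀ᵐ x ∂μ, ‖f x‖ ≤ B) (k : ℕ) : ∃ B, ∀ᵐ x ∂μ, ‖f x ^ k‖ ≤ B := by
  obtain ⟨B, hB⟩ := h
  refine ⟨B ^ k, hB.mono fun x hx => ?_⟩
  rw [norm_pow]
  exact pow_le_pow_left₀ (norm_nonneg _) hx k

theorem bdd_mul {X : Type} [MeasurableSpace X] {μ : Measure X} {f g : X → ℂ}
    (h : ∃ B, ∀ᵐ x ∂μ, ‖f x‖ ≤ B) (h' : ∃ B, ∀ᵐ x ∂μ, ‖g x‖ ≤ B) :
    ∃ B, ∀ᵐ x ∂μ, ‖f x * g x‖ ≤ B := by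
  obtain ⟨B, hB⟩ := h
  obtain ⟨B', hB'⟩ := h'
  refine ⟨B * B', ?_⟩
  filter_upwards [hB, hB'] with x hx hx'
  rw [norm_mul]
  exact mul_le_mul hx hx' (norm_nonneg _) ((norm_nonneg _).trans hx)

theorem bdd_inv {X : Type} [MeasurableSpace X] {μ : Measure X} {f : X → ℂ} {δ : ℝ} (hδ : 0 < δ)
    (h : ∀ᵐ x ∂μ, δ ≤ ‖f x‖) : ∃ B, ∀ᵐ x ∂μ, ‖(f x)⁻¹‖ ≤ B := by
  refine ⟨δ⁻¹, h.mono fun x hx => ?_⟩
  rw [norm_inv]
  exact inv_anti₀ hδ hx

theorem integrable_of_bdd {X : Type} [MeasurableSpace X] {μ : Measure X} [IsFiniteMeasure μ]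
    {f : X → ℂ} (hf : AEStronglyMeasurable f μ) (h : ∃ B, ∀ᵐ x ∂μ, ‖f x‖ ≤ B) :
    Integrable f μ := by
  obtain ⟨B, hB⟩ := h
  exact Integrable.of_bound hf B hB

/-- the Cauchy representation turns the eliminated functionals into integrals -/
theorem sum_rep {N : ℂ → (Fin (m + 1) → ℂ) → ℝ} {N' : ℂ → (Fin m → ℂ) → ℝ} {w : ℂ → ℝ}
    {C M δ : ℝ} {A : Finset ℂ} {R : RepData m} (hR : IsRep N N' w C M δ A R) (hδ : 0 < δ)
    {n : ℕ} {a : Fin n → ℂ} (ha : Function.Injective a) (haA : ∀ i, a i ∈ A) {k l : ℕ}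
    (hkl : k + l < n - 1) (b : Fin m) :
    ∑ i, (R.F (a i) b * a i ^ l) * (nu a i * a i ^ k) =
      ∫ x, (R.ξ x ^ k / ∏ i, (R.ξ x - a i)) * (R.J x b * R.ξ x ^ l) ∂(R.μ) := by
  have := hR.fin
  have hsep : ∀ i, ∀ᵐ x ∂(R.μ), δ ≤ ‖R.ξ x - a i‖ := fun i =>
    hR.sep.mono fun x hx => hx _ (haA i)
  have hbJ : ∃ B, ∀ᵐ x ∂(R.μ), ‖R.J x b‖ ≤ B := by
    obtain ⟨B, hB⟩ := hR.bddJ
    exact ⟨B, hB.mono fun x hx => hx b⟩
  have hint : ∀ i, Integrable (fun x => R.J x b / (R.ξ x - a i)) R.μ := by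
    intro i
    simp only [div_eq_mul_inv]
    refine integrable_of_bdd ((hR.measJ b).mul ?_) (bdd_mul hbJ (bdd_inv hδ (hsep i)))
    exact ((hR.measξ.sub aestronglyMeasurable_const).aemeasurable.inv).aestronglyMeasurable
  have h0 := sum_nodalWeight_monomial ha (k := k + l) (by omega)
  rw [if_neg (by omega)] at h0
  have h1 : ∑ i, (R.F (a i) b * a i ^ l) * (nu a i * a i ^ k) =
      ∑ i, ∫ x, (nu a i * a i ^ (k + l)) * (R.J x b / (R.ξ x - a i)) ∂(R.μ) := by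
    calc ∑ i, (R.F (a i) b * a i ^ l) * (nu a i * a i ^ k)
        = ∑ i, (R.c b * (nu a i * a i ^ (k + l)) +
            ∫ x, (nu a i * a i ^ (k + l)) * (R.J x b / (R.ξ x - a i)) ∂(R.μ)) := by
          refine Finset.sum_congr rfl fun i _ => ?_
          rw [hR.rep _ (haA i) b, integral_const_mul]
          ring
      _ = _ := by
          rw [Finset.sum_add_distrib, ← Finset.mul_sum]
          simp only [nu]
          rw [h0]; simp
  rw [h1, ← integral_finsetSum _ fun i _ => (hint i).const_mul _]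
  refine integral_congr_ae ?_
  filter_upwards [hR.sep] with x hx
  have hne : ∀ i, R.ξ x ≠ a i := fun i h => by
    have := hx _ (haA i)
    rw [h, sub_self, norm_zero] at this
    linarith
  have h2 := sum_nodalWeight_monomial_inv ha hne (k := k + l) (by omega)
  calc ∑ i, (nu a i * a i ^ (k + l)) * (R.J x b / (R.ξ x - a i))
      = (∑ i, Lagrange.nodalWeight univ a i * a i ^ (k + l) * (R.ξ x - a i)⁻¹) * R.J x b := by
        rw [Finset.sum_mul]
        refine Finset.sum_congr rfl fun i _ => ?_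
        simp only [nu]; ring
    _ = _ := by rw [h2]; ring

/-- the estimate for one subset of columns -/
theorem one_subset {N : ℂ → (Fin (m + 1) → ℂ) → ℝ} {N' : ℂ → (Fin m → ℂ) → ℝ} {w : ℂ → ℝ}
    {C M δ E B' : ℝ} {K : ℕ} {A : Finset ℂ} {R : RepData m} (hR : IsRep N N' w C M δ A R)
    (hδ : 0 < δ) (hC : 0 ≤ C) (hM : 0 ≤ M) (hB' : 0 ≤ B')
    (hN' : ∀ z v, 0 ≤ N' z v)
    {D : Fin m → ℕ} {d : ℕ} (hD : ∀ b, D b ≤ d) (hE : Energy w d E K δ)
    {p : ℕ} (hp : p + d ≤ K)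
    (hcard : p + Fintype.card ρ = Fintype.card (Σ b, Fin (D b)))
    (IH : ∀ (a : Fin p ⊕ ρ → ℂ) (v : Fin p ⊕ ρ → Fin m → ℂ),
      adet (ptM D a v) ≤ B' * ∏ i, N' (a i) (v i))
    (a : Fin (p + d) → ℂ) (haA : ∀ i, a i ∈ A) (b : ρ → ℂ) (r : ρ → Fin m → ℂ) :
    adet (Matrix.fromBlocks (Matrix.of fun (l : Fin d) (i : Fin (p + d)) => a i ^ (l : ℕ)) 0
      (Matrix.of fun (s : Σ b, Fin (D b)) (i : Fin (p + d)) =>
        R.F (a i) s.1 * a i ^ (s.2 : ℕ))
      (Matrix.of fun (s : Σ b, Fin (D b)) (j : ρ) => r j s.1 * b j ^ (s.2 : ℕ))) ≤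
    B' * Real.exp (∑ i, w (a i) - E) * (C * M) ^ p * ∏ j, N' (b j) (r j) := by
  have hRHS : 0 ≤ B' * Real.exp (∑ i, w (a i) - E) * (C * M) ^ p * ∏ j, N' (b j) (r j) := by
    have : 0 ≤ ∏ j, N' (b j) (r j) := Finset.prod_nonneg fun j _ => hN' _ _
    positivity
  have hfin := hR.fin
  by_cases ha : Function.Injective a
  swap
  · -- two equal columns
    rw [Function.not_injective_iff] at ha
    obtain ⟨i, j, hij, hne⟩ := ha
    refine le_of_eq_of_le (adet_eq_zero_of_mulVec _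
      (Sum.elim (Pi.single i 1 - Pi.single j 1) 0) (fun h => ?_) ?_) hRHS
    · have := congrFun h (Sum.inl i)
      simp [hne] at this
    · rw [Matrix.fromBlocks_mulVec]
      ext s
      rcases s with s | s <;>
      simp [Matrix.mulVec_sub, Matrix.mulVec_single, hij]
  rw [elim_core a ha (fun i (s : Σ b, Fin (D b)) => R.F (a i) s.1 * a i ^ (s.2 : ℕ))
    (fun j (s : Σ b, Fin (D b)) => r j s.1 * b j ^ (s.2 : ℕ))]
  -- weights and point columns
  set wk : Fin p → R.X → ℂ := fun k x => R.ξ x ^ (k : ℕ) / ∏ i, (R.ξ x - a i) with hwk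
  obtain ⟨e⟩ : Nonempty ((Fin p ⊕ ρ) ≃ (Σ b, Fin (D b))) :=
    ⟨Fintype.equivOfCardEq (by rw [Fintype.card_sum, Fintype.card_fin, hcard])⟩
  set φ : R.X → (Fin p ⊕ ρ) → ℂ := fun x t => R.J x (e t).1 * R.ξ x ^ ((e t).2 : ℕ) with hφ
  set cc : ρ → (Fin p ⊕ ρ) → ℂ := fun j t => r j (e t).1 * b j ^ ((e t).2 : ℕ) with hcc
  have hbJ : ∀ b, ∃ B, ∀ᵐ x ∂(R.μ), ‖R.J x b‖ ≤ B := by
    intro b
    obtain ⟨B, hB⟩ := hR.bddJ
    exact ⟨B, hB.mono fun x hx => hx b⟩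
  have hω : ∃ B, ∀ᵐ x ∂(R.μ), ‖(∏ i, (R.ξ x - a i))⁻¹‖ ≤ B := by
    apply bdd_inv (δ := δ ^ (p + d)) (by positivity)
    filter_upwards [hR.sep] with x hx
    rw [norm_prod]
    calc δ ^ (p + d) = ∏ _i : Fin (p + d), δ := by simp
      _ ≤ _ := Finset.prod_le_prod (fun _ _ => hδ.le) fun i _ => hx _ (haA i)
  have hmω : AEStronglyMeasurable (fun x => (∏ i, (R.ξ x - a i))⁻¹) R.μ := by
    refine (AEMeasurable.inv ?_).aestronglyMeasurable
    refine Finset.aemeasurable_fun_prod _ fun i _ => ?_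
    exact (hR.measξ.sub aestronglyMeasurable_const).aemeasurable
  have hint : ∀ k i, Integrable (fun x => wk k x * φ x i) R.μ := by
    intro k i
    simp only [hwk, hφ, div_eq_mul_inv]
    refine integrable_of_bdd ?_ ?_
    · exact ((hR.measξ.pow _).mul hmω).mul ((hR.measJ _).mul (hR.measξ.pow _))
    · exact bdd_mul (bdd_mul (bdd_pow hR.bddξ _) hω) (bdd_mul (hbJ _) (bdd_pow hR.bddξ _))
  have hM' : adet (Matrix.of fun (s : Σ b, Fin (D b)) (j : Fin p ⊕ ρ) =>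
      Sum.elim (fun k : Fin p => ∑ i, (R.F (a i) s.1 * a i ^ (s.2 : ℕ)) *
        (nu a i * a i ^ (k : ℕ))) (fun j => r j s.1 * b j ^ (s.2 : ℕ)) j) =
      ‖(colM (fun k i => ∫ x, wk k x * φ x i ∂(R.μ)) cc).det‖ := by
    rw [adet_eq _ e (Equiv.refl _)]
    congr 2
    ext i j
    rcases j with j | j
    · simp only [submatrix_apply, Equiv.refl_apply, Matrix.of_apply, Sum.elim_inl, colM]
      rw [sum_rep hR hδ ha haA]
      have h1 : ((e i).2 : ℕ) < d := lt_of_lt_of_le (e i).2.2 (hD _)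
      omega
    · simp [colM, hcc]
  rw [hM']
  -- the bound under the integral
  have hV : 0 < ‖(vandermonde a).det‖ := by
    rw [norm_pos_iff]
    exact Matrix.det_vandermonde_ne_zero_iff.mpr ha
  set P : ℝ := ∏ j, N' (b j) (r j) with hP
  have hPnn : 0 ≤ P := Finset.prod_nonneg fun j _ => hN' _ _
  have hAE : ∀ᵐ x ∂(Measure.pi fun _ : Fin p => R.μ), ∀ k, (∀ z ∈ A, δ ≤ ‖R.ξ (x k) - z‖) ∧
      N' (R.ξ (x k)) (R.J (x k)) ≤ C * Real.exp (w (R.ξ (x k))) := by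
    rw [Filter.eventually_all]
    intro k
    have h := hR.sep.and hR.jump
    exact (Measure.tendsto_eval_ae_ae (μ := fun _ : Fin p => R.μ) (i := k)).eventually h
  have hbound : ∀ᵐ x ∂(Measure.pi fun _ : Fin p => R.μ),
      ‖(Matrix.of fun k l => wk k (x l)).det‖ * ‖(colM (fun k => φ (x k)) cc).det‖ ≤
      (B' * Real.exp (∑ i, w (a i) - E) * C ^ p * P) / ‖(vandermonde a).det‖ := by
    filter_upwards [hAE] with x hx
    have h1 : ‖(Matrix.of fun k l => wk k (x l)).det‖ * ∏ l, ∏ i, ‖R.ξ (x l) - a i‖ =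
        ‖(vandermonde fun l => R.ξ (x l)).det‖ := by
      have : (Matrix.of fun k l => wk k (x l)) =
          Matrix.of fun k l => (∏ i, (R.ξ (x l) - a i))⁻¹ *
            (vandermonde fun l => R.ξ (x l))ᵀ k l := by
        ext k l
        simp only [hwk, Matrix.of_apply, transpose_apply, vandermonde_apply]
        ring
      rw [this, Matrix.det_mul_row, det_transpose, norm_mul, norm_prod]
      simp only [norm_inv, norm_prod, Finset.prod_inv_distrib]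
      rw [mul_comm, ← mul_assoc, mul_inv_cancel₀, one_mul]
      refine Finset.prod_ne_zero_iff.mpr fun l _ => Finset.prod_ne_zero_iff.mpr fun i _ => ?_
      exact (lt_of_lt_of_le hδ ((hx l).1 _ (haA i))).ne'
    have h2 := hE p hp a (fun l => R.ξ (x l)) fun l i => (hx l).1 _ (haA i)
    have h3 : ‖(colM (fun k => φ (x k)) cc).det‖ ≤
        B' * (∏ k, (C * Real.exp (w (R.ξ (x k))))) * P := by
      have h4 := IH (Sum.elim (fun k => R.ξ (x k)) b) (Sum.elim (fun k => R.J (x k)) r)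
      have h5 : adet (ptM D (Sum.elim (fun k => R.ξ (x k)) b)
          (Sum.elim (fun k => R.J (x k)) r)) = ‖(colM (fun k => φ (x k)) cc).det‖ := by
        rw [adet_eq _ e (Equiv.refl _)]
        congr 2
        ext i j
        rcases j with j | j <;> simp [colM, ptM, hφ, hcc]
      rw [← h5]
      refine h4.trans ?_
      rw [Fintype.prod_sum_type, mul_assoc]
      refine mul_le_mul_of_nonneg_left ?_ hB'
      simp only [Sum.elim_inl, Sum.elim_inr]
      refine mul_le_mul_of_nonneg_right ?_ hPnn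
      exact Finset.prod_le_prod (fun k _ => hN' _ _) fun k _ => (hx k).2
    rw [le_div_iff₀ hV]
    have hPr : 0 < ∏ l, ∏ i, ‖R.ξ (x l) - a i‖ := by
      refine Finset.prod_pos fun l _ => Finset.prod_pos fun i _ => ?_
      exact lt_of_lt_of_le hδ ((hx l).1 _ (haA i))
    have h6 : ‖(Matrix.of fun k l => wk k (x l)).det‖ * ‖(vandermonde a).det‖ ≤
        Real.exp (∑ i, w (a i) - ∑ j, w (R.ξ (x j)) - E) := by
      refine le_of_mul_le_mul_right ?_ hPr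
      calc _ = ‖(vandermonde a).det‖ * (‖(Matrix.of fun k l => wk k (x l)).det‖ *
            ∏ l, ∏ i, ‖R.ξ (x l) - a i‖) := by ring
        _ ≤ _ := by rw [h1]; exact h2
    calc ‖(Matrix.of fun k l => wk k (x l)).det‖ * ‖(colM (fun k => φ (x k)) cc).det‖ *
          ‖(vandermonde a).det‖
        = (‖(Matrix.of fun k l => wk k (x l)).det‖ * ‖(vandermonde a).det‖) *
          ‖(colM (fun k => φ (x k)) cc).det‖ := by ring
      _ ≤ Real.exp (∑ i, w (a i) - ∑ j, w (R.ξ (x j)) - E) *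
          (B' * (∏ k, (C * Real.exp (w (R.ξ (x k))))) * P) :=
        mul_le_mul h6 h3 (norm_nonneg _) (Real.exp_nonneg _)
      _ = B' * Real.exp (∑ i, w (a i) - E) * C ^ p * P := by
        rw [Finset.prod_mul_distrib, Finset.prod_const, Finset.card_univ, Fintype.card_fin,
          ← Real.exp_sum]
        have : Real.exp (∑ i, w (a i) - E) = Real.exp (∑ i, w (a i) - ∑ j, w (R.ξ (x j)) - E) *
            Real.exp (∑ j, w (R.ξ (x j))) := by
          rw [← Real.exp_add]; congr 1; ring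
        rw [this]; ring
  have h := andreief_bound R.μ hint cc hbound
  rw [Fintype.card_fin] at h
  have hfac : (1 : ℝ) ≤ (p.factorial : ℝ) := by exact_mod_cast Nat.factorial_pos p
  have hdet : ‖(colM (fun k i => ∫ x, wk k x * φ x i ∂(R.μ)) cc).det‖ ≤
      (B' * Real.exp (∑ i, w (a i) - E) * C ^ p * P) / ‖(vandermonde a).det‖ * M ^ p := by
    calc _ ≤ (p.factorial : ℝ) * ‖(colM (fun k i => ∫ x, wk k x * φ x i ∂(R.μ)) cc).det‖ :=
          le_mul_of_one_le_left (norm_nonneg _) hfac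
      _ ≤ _ := h
      _ ≤ _ := by
          refine mul_le_mul_of_nonneg_left ?_ (by positivity)
          exact pow_le_pow_left₀ measureReal_nonneg hR.mass p
  calc ‖(vandermonde a).det‖ * ‖(colM (fun k i => ∫ x, wk k x * φ x i ∂(R.μ)) cc).det‖
      ≤ ‖(vandermonde a).det‖ * ((B' * Real.exp (∑ i, w (a i) - E) * C ^ p * P) /
        ‖(vandermonde a).det‖ * M ^ p) := mul_le_mul_of_nonneg_left hdet hV.le
    _ = _ := by
      rw [mul_pow]
      field_simp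

end Vale.Agent.P030.H352
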