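import Vale.Agent.P030.H352.Step

/-!
# Theorem N: the determinant bound for point columns in a flagged metric
-/

open Matrix Finset MeasureTheory

namespace Vale.Agent.P030.H352

set_option linter.unusedSectionVars false

variable {m : ℕ}

/-- split off the rows of block `0` -/
def rowEquiv (D : Fin (m + 1) → ℕ) :
    (Σ b, Fin (D b)) ≃ Fin (D 0) ⊕ (Σ b : Fin m, Fin (D b.succ)) where
  toFun := fun r => Fin.cases (motive := fun b => Fin (D b) →
    Fin (D 0) ⊕ (Σ b : Fin m, Fin (D b.succ))) (fun k => Sum.inl k)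
    (fun b k => Sum.inr ⟨b, k⟩) r.1 r.2
  invFun := Sum.elim (fun k => ⟨0, k⟩) (fun r => ⟨r.1.succ, r.2⟩)
  left_inv := by
    rintro ⟨b, k⟩
    induction b using Fin.cases <;> rfl
  right_inv := by
    rintro (k | ⟨b, k⟩) <;> rfl

theorem adet_eq_zero_of_vecMul {R C : Type*} [Fintype R] [DecidableEq R] [Fintype C]
    [DecidableEq C] (M : Matrix R C ℂ) (v : R → ℂ) (hv : v ≠ 0)
    (h : Matrix.vecMul v M = 0) : adet M = 0 := by
  by_cases h2 : Fintype.card R = Fintype.card C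
  · have e := Fintype.equivOfCardEq h2
    rw [adet_eq M (Equiv.refl R) e, norm_eq_zero]
    apply Matrix.exists_vecMul_eq_zero_iff.mp
    refine ⟨v, hv, ?_⟩
    ext c
    have := congrFun h (e c)
    simpa [Matrix.vecMul, dotProduct] using this
  · simp [adet, h2]

/-- the bound for one subset of columns, in the original indexing -/
theorem subset_bound {N : ℂ → (Fin (m + 1) → ℂ) → ℝ} {N' : ℂ → (Fin m → ℂ) → ℝ} {w : ℂ → ℝ}
    {C M δ E B' : ℝ} {K : ℕ} {A : Finset ℂ} {R : RepData m} (hR : IsRep N N' w C M δ A R)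
    (hδ : 0 < δ) (hC : 1 ≤ C) (hM : 1 ≤ M) (hB' : 0 ≤ B') (hN' : ∀ z v, 0 ≤ N' z v)
    {D : Fin (m + 1) → ℕ} (hD : ∀ b : Fin m, D b.succ ≤ D 0) (hE : Energy w (D 0) E K δ)
    (IH : ∀ (ι : Type) [Fintype ι] [DecidableEq ι],
      Fintype.card ι = Fintype.card (Σ b : Fin m, Fin (D b.succ)) → Fintype.card ι ≤ K →
      ∀ (a : ι → ℂ) (v : ι → Fin m → ℂ),
      adet (ptM (fun b => D b.succ) a v) ≤ B' * ∏ i, N' (a i) (v i))
    {ι : Type} [Fintype ι] [DecidableEq ι]
    (hcard : Fintype.card ι = Fintype.card (Σ b, Fin (D b))) (hK : Fintype.card ι ≤ K)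
    (a : ι → ℂ) (haA : ∀ i, a i ∈ A) (lam : ι → ℂ) (r : ι → Fin m → ℂ) (s : Finset ι) :
    adet (ptM D a (fun i => if i ∈ s then Fin.cons (lam i) (lam i • R.F (a i))
      else Fin.cons 0 (r i))) ≤
    (∏ i ∈ s, (‖lam i‖ * Real.exp (w (a i)))) * Real.exp (-E) * B' * (C * M) ^ s.card *
      ∏ i ∈ sᶜ, N' (a i) (r i) := by
  have hRHS : 0 ≤ (∏ i ∈ s, (‖lam i‖ * Real.exp (w (a i)))) * Real.exp (-E) * B' *
      (C * M) ^ s.card * ∏ i ∈ sᶜ, N' (a i) (r i) := by
    have h1 : 0 ≤ ∏ i ∈ sᶜ, N' (a i) (r i) := Finset.prod_nonneg fun j _ => hN' _ _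
    have h2 : 0 ≤ ∏ i ∈ s, (‖lam i‖ * Real.exp (w (a i))) :=
      Finset.prod_nonneg fun j _ => by positivity
    positivity
  have hcr : Fintype.card (Σ b, Fin (D b)) =
      D 0 + Fintype.card (Σ b : Fin m, Fin (D b.succ)) := by
    rw [Fintype.card_congr (rowEquiv D), Fintype.card_sum, Fintype.card_fin]
  have hss : s.card + (sᶜ).card = Fintype.card ι := Finset.card_add_card_compl s
  rcases lt_or_ge s.card (D 0) with hlt | hge
  · -- too few columns
    refine le_of_eq_of_le ?_ hRHS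
    obtain ⟨u, hu, hu0⟩ : ∃ u : Fin (D 0) → ℂ, u ≠ 0 ∧
        ∀ i : s, ∑ l, u l * a i ^ (l : ℕ) = 0 := by
      let f : (Fin (D 0) → ℂ) →ₗ[ℂ] (s → ℂ) :=
        { toFun := fun u i => ∑ l, u l * a i ^ (l : ℕ)
          map_add' := fun u u' => by
            ext i; simp [add_mul, Finset.sum_add_distrib]
          map_smul' := fun c u => by
            ext i; simp [Finset.mul_sum, mul_assoc] }
      have hker : LinearMap.ker f ≠ ⊥ := by
        apply LinearMap.ker_ne_bot_of_finrank_lt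
        simpa using hlt
      obtain ⟨u, hu, hne⟩ := Submodule.exists_mem_ne_zero_of_ne_bot hker
      exact ⟨u, hne, fun i => congrFun (LinearMap.mem_ker.mp hu) i⟩
    refine adet_eq_zero_of_vecMul _ (fun t => Sum.elim u 0 (rowEquiv D t)) (fun h => hu ?_) ?_
    · ext l
      have := congrFun h ((rowEquiv D).symm (Sum.inl l))
      simpa using this
    · ext i
      simp only [Matrix.vecMul, dotProduct, Pi.zero_apply]
      rw [← (rowEquiv D).symm.sum_comp, Fintype.sum_sum_type]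
      simp only [Equiv.apply_symm_apply, Sum.elim_inl, Sum.elim_inr, Pi.zero_apply, zero_mul,
        Finset.sum_const_zero, add_zero]
      by_cases hi : i ∈ s
      · have := hu0 ⟨i, hi⟩
        simp only [rowEquiv, Equiv.coe_fn_symm_mk, Sum.elim_inl, ptM, Matrix.of_apply, hi,
          if_true, Fin.cons_zero]
        calc ∑ x, u x * (lam i * a i ^ (x : ℕ)) = lam i * ∑ x, u x * a i ^ (x : ℕ) := by
              rw [Finset.mul_sum]; exact Finset.sum_congr rfl fun _ _ => by ring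
          _ = 0 := by rw [this]; simp
      · simp [rowEquiv, ptM, hi]
  · obtain ⟨p, hp⟩ : ∃ p, s.card = p + D 0 := ⟨s.card - D 0, by omega⟩
    obtain ⟨es⟩ : Nonempty (Fin (p + D 0) ≃ {i // i ∈ s}) :=
      ⟨(Fintype.equivOfCardEq (by simp [hp])).symm⟩
    let E2 : Fin (p + D 0) ⊕ {i // i ∉ s} ≃ ι :=
      (es.sumCongr (Equiv.refl _)).trans (Equiv.sumCompl (· ∈ s))
    have hcρ : Fintype.card {i // i ∉ s} = (sᶜ).card := by
      rw [Fintype.card_subtype]; congr 1; ext i; simp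
    have hmain := one_subset (ρ := {i // i ∉ s}) hR hδ (zero_le_one.trans hC)
      (zero_le_one.trans hM) hB' hN' (D := fun b : Fin m => D b.succ) hD hE (p := p) (by omega)
      (by rw [hcρ]; omega)
      (fun a v => IH (Fin p ⊕ {i // i ∉ s}) (by
        rw [Fintype.card_sum, Fintype.card_fin, hcρ]; omega) (by
        rw [Fintype.card_sum, Fintype.card_fin, hcρ]; omega) a v)
      (fun i => a (es i)) (fun i => haA _) (fun j => a j) (fun j => r j)
    rw [← adet_submatrix _ (rowEquiv D).symm E2]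
    let Mb : Matrix (Fin (D 0) ⊕ (Σ b : Fin m, Fin (D b.succ)))
        (Fin (p + D 0) ⊕ {i // i ∉ s}) ℂ :=
      Matrix.fromBlocks (Matrix.of fun (l : Fin (D 0)) (i : Fin (p + D 0)) =>
          a (es i) ^ (l : ℕ)) 0
        (Matrix.of fun (t : Σ b : Fin m, Fin (D b.succ)) (i : Fin (p + D 0)) =>
          R.F (a (es i)) t.1 * a (es i) ^ (t.2 : ℕ))
        (Matrix.of fun (t : Σ b : Fin m, Fin (D b.succ)) (j : {i // i ∉ s}) =>
          r j t.1 * a j ^ (t.2 : ℕ))
    let Db : Matrix (Fin (p + D 0) ⊕ {i // i ∉ s}) (Fin (p + D 0) ⊕ {i // i ∉ s}) ℂ :=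
      Matrix.fromBlocks (Matrix.diagonal fun i => lam (es i)) 0 0 1
    have hmat : (ptM D a (fun i => if i ∈ s then Fin.cons (lam i) (lam i • R.F (a i))
        else Fin.cons 0 (r i))).submatrix (rowEquiv D).symm E2 = Mb * Db := by
      rw [Matrix.fromBlocks_multiply]
      ext t j
      rcases t with t | t <;> rcases j with j | j
      · simp [rowEquiv, E2, ptM, Matrix.mul_diagonal]; ring
      · have : (j : ι) ∉ s := j.2
        simp [rowEquiv, E2, ptM, this]
      · simp [rowEquiv, E2, ptM, Matrix.mul_diagonal]; ring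
      · have : (j : ι) ∉ s := j.2
        simp [rowEquiv, E2, ptM, this]
    have hDb : ‖Db.det‖ = ∏ i, ‖lam (es i)‖ := by
      rw [Matrix.det_fromBlocks_zero₂₁, det_one, mul_one, det_diagonal, norm_prod]
    rw [hmat, adet_mul, hDb]
    have h1 : ∏ i, ‖lam (es i)‖ = ∏ i ∈ s, ‖lam i‖ := by
      rw [es.prod_comp (fun i : {i // i ∈ s} => ‖lam i‖)]
      exact Finset.prod_coe_sort s (fun i => ‖lam i‖)
    have h2 : ∑ i, w (a (es i)) = ∑ i ∈ s, w (a i) := by
      rw [es.sum_comp (fun i : {i // i ∈ s} => w (a i))]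
      exact Finset.sum_coe_sort s (fun i => w (a i))
    have h3 : ∏ j : {i // i ∉ s}, N' (a j) (r j) = ∏ i ∈ sᶜ, N' (a i) (r i) := by
      exact (Finset.prod_subtype (sᶜ) (fun x => by simp) (fun i => N' (a i) (r i))).symm
    rw [h1]
    rw [h2, h3] at hmain
    have hCM : (1 : ℝ) ≤ C * M := by nlinarith
    have h4 : 0 ≤ ∏ i ∈ sᶜ, N' (a i) (r i) := Finset.prod_nonneg fun j _ => hN' _ _
    calc _ ≤ (B' * Real.exp (∑ i ∈ s, w (a i) - E) * (C * M) ^ p * ∏ i ∈ sᶜ, N' (a i) (r i)) *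
          ∏ i ∈ s, ‖lam i‖ := mul_le_mul_of_nonneg_right hmain
            (Finset.prod_nonneg fun _ _ => norm_nonneg _)
      _ ≤ (B' * Real.exp (∑ i ∈ s, w (a i) - E) * (C * M) ^ s.card *
          ∏ i ∈ sᶜ, N' (a i) (r i)) * ∏ i ∈ s, ‖lam i‖ := by
          refine mul_le_mul_of_nonneg_right ?_ (Finset.prod_nonneg fun _ _ => norm_nonneg _)
          refine mul_le_mul_of_nonneg_right ?_ h4
          refine mul_le_mul_of_nonneg_left ?_ (by positivity)
          exact pow_le_pow_right₀ hCM (by omega)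
      _ = _ := by
          rw [Finset.prod_mul_distrib, ← Real.exp_sum, sub_eq_add_neg, Real.exp_add]
          ring

/-- one elimination step -/
theorem step {N : ℂ → (Fin (m + 1) → ℂ) → ℝ} {N' : ℂ → (Fin m → ℂ) → ℝ} {w : ℂ → ℝ}
    {C M δ E B' : ℝ} {K : ℕ}
    (hδ : 0 < δ) (hC : 1 ≤ C) (hM : 1 ≤ M) (hB' : 0 ≤ B') (hN' : ∀ z v, 0 ≤ N' z v)
    (hN : ∀ z v, 0 ≤ N z v)
    {D : Fin (m + 1) → ℕ} (hD : ∀ b : Fin m, D b.succ ≤ D 0) (hE : Energy w (D 0) E K δ)
    (hlead : ∀ z v, ‖v 0‖ * Real.exp (w z) ≤ N z v)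
    (hrep : ∀ A : Finset ℂ, A.card ≤ K → ∃ R, IsRep N N' w C M δ A R)
    (IH : ∀ (ι : Type) [Fintype ι] [DecidableEq ι],
      Fintype.card ι = Fintype.card (Σ b : Fin m, Fin (D b.succ)) → Fintype.card ι ≤ K →
      ∀ (a : ι → ℂ) (v : ι → Fin m → ℂ),
      adet (ptM (fun b => D b.succ) a v) ≤ B' * ∏ i, N' (a i) (v i))
    {ι : Type} [Fintype ι] [DecidableEq ι]
    (hcard : Fintype.card ι = Fintype.card (Σ b, Fin (D b))) (hK : Fintype.card ι ≤ K)
    (a : ι → ℂ) (v : ι → Fin (m + 1) → ℂ) :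
    adet (ptM D a v) ≤ (2 * C ^ 2 * M) ^ K * Real.exp (-E) * B' * ∏ i, N (a i) (v i) := by
  classical
  obtain ⟨R, hR⟩ := hrep (univ.image a) (Finset.card_image_le.trans (by simpa using hK))
  have haA : ∀ i, a i ∈ univ.image a := fun i => Finset.mem_image_of_mem _ (Finset.mem_univ i)
  set r : ι → Fin m → ℂ := fun i => Fin.tail (v i) - v i 0 • R.F (a i) with hr
  obtain ⟨e⟩ : Nonempty (ι ≃ (Σ b, Fin (D b))) := ⟨Fintype.equivOfCardEq hcard⟩
  set U : ι → Fin (m + 1) → ℂ := fun i => Fin.cons (v i 0) (v i 0 • R.F (a i)) with hU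
  set Q : ι → Fin (m + 1) → ℂ := fun i => Fin.cons 0 (r i) with hQ
  have hvUQ : ∀ i, v i = U i + Q i := by
    intro i
    ext b
    induction b using Fin.cases with
    | zero => simp [hU, hQ]
    | succ b => simp [hU, hQ, hr, Fin.tail]
  -- columns as rows of the transpose
  let col : (Fin (m + 1) → ℂ) → ι → (ι → ℂ) := fun g i t => g (e t).1 * a i ^ ((e t).2 : ℕ)
  have hdet : ∀ g : ι → Fin (m + 1) → ℂ, adet (ptM D a g) =
      ‖Matrix.detRowAlternating (fun i => col (g i) i)‖ := by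
    intro g
    rw [adet_eq _ e (Equiv.refl _), ← Matrix.det_transpose]
    rfl
  have hadd : (fun i => col (v i) i) = (fun i => col (U i) i) + (fun i => col (Q i) i) := by
    ext i t
    simp only [col, Pi.add_apply]
    rw [hvUQ i]
    simp only [Pi.add_apply]
    ring
  have hsum := (Matrix.detRowAlternating (R := ℂ) (n := ι)).toMultilinearMap.map_add_univ
    (fun i => col (U i) i) (fun i => col (Q i) i)
  have hone : ∀ s : Finset ι,
      ‖Matrix.detRowAlternating (s.piecewise (fun i => col (U i) i) (fun i => col (Q i) i))‖ ≤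
      Real.exp (-E) * B' * (C ^ 2 * M) ^ K * ∏ i, N (a i) (v i) := by
    intro s
    have h1 : s.piecewise (fun i => col (U i) i) (fun i => col (Q i) i) =
        fun i => col (if i ∈ s then U i else Q i) i := by
      ext i t
      by_cases hi : i ∈ s <;> simp [hi]
    rw [h1, ← hdet]
    refine (subset_bound hR hδ hC hM hB' hN' hD hE IH hcard hK a haA (fun i => v i 0) r s).trans ?_
    have h2 : ∏ i ∈ s, (‖v i 0‖ * Real.exp (w (a i))) ≤ ∏ i ∈ s, N (a i) (v i) :=
      Finset.prod_le_prod (fun _ _ => by positivity) fun i _ => hlead _ _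
    have h3 : ∏ i ∈ sᶜ, N' (a i) (r i) ≤ ∏ i ∈ sᶜ, (C * N (a i) (v i)) :=
      Finset.prod_le_prod (fun _ _ => hN' _ _) fun i _ => hR.frame _ (haA i) _
    have hs0 : 0 ≤ ∏ i ∈ s, N (a i) (v i) := Finset.prod_nonneg fun _ _ => hN _ _
    have hs1 : 0 ≤ ∏ i ∈ sᶜ, N (a i) (v i) := Finset.prod_nonneg fun _ _ => hN _ _
    have hCM : (1 : ℝ) ≤ C * M := by nlinarith
    have hsK : s.card ≤ K := (Finset.card_le_univ s).trans hK
    have hscK : sᶜ.card ≤ K := (Finset.card_le_univ _).trans hK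
    calc (∏ i ∈ s, (‖v i 0‖ * Real.exp (w (a i)))) * Real.exp (-E) * B' * (C * M) ^ s.card *
          ∏ i ∈ sᶜ, N' (a i) (r i)
        ≤ (∏ i ∈ s, N (a i) (v i)) * Real.exp (-E) * B' * (C * M) ^ s.card *
          ∏ i ∈ sᶜ, (C * N (a i) (v i)) := by
          refine mul_le_mul ?_ h3 (Finset.prod_nonneg fun _ _ => hN' _ _) (by positivity)
          refine mul_le_mul_of_nonneg_right ?_ (by positivity)
          refine mul_le_mul_of_nonneg_right ?_ hB'
          exact mul_le_mul_of_nonneg_right h2 (Real.exp_nonneg _)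
      _ = Real.exp (-E) * B' * ((C * M) ^ s.card * C ^ sᶜ.card) *
          ((∏ i ∈ s, N (a i) (v i)) * ∏ i ∈ sᶜ, N (a i) (v i)) := by
          rw [Finset.prod_mul_distrib, Finset.prod_const]; ring
      _ ≤ Real.exp (-E) * B' * (C ^ 2 * M) ^ K * ∏ i, N (a i) (v i) := by
          rw [Finset.prod_mul_prod_compl]
          refine mul_le_mul_of_nonneg_right ?_ (Finset.prod_nonneg fun _ _ => hN _ _)
          refine mul_le_mul_of_nonneg_left ?_ (by positivity)
          calc (C * M) ^ s.card * C ^ sᶜ.card ≤ (C * M) ^ K * C ^ K :=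
                mul_le_mul (pow_le_pow_right₀ hCM hsK) (pow_le_pow_right₀ hC hscK)
                  (by positivity) (by positivity)
            _ = (C ^ 2 * M) ^ K := by rw [← mul_pow]; ring
  rw [hdet, hadd]
  calc ‖Matrix.detRowAlternating ((fun i => col (U i) i) + (fun i => col (Q i) i))‖
      = ‖∑ s : Finset ι, Matrix.detRowAlternating
          (s.piecewise (fun i => col (U i) i) (fun i => col (Q i) i))‖ := congrArg norm hsum
    _ ≤ ∑ s : Finset ι, Real.exp (-E) * B' * (C ^ 2 * M) ^ K * ∏ i, N (a i) (v i) :=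
        (norm_sum_le _ _).trans (Finset.sum_le_sum fun s _ => hone s)
    _ = 2 ^ Fintype.card ι * (Real.exp (-E) * B' * (C ^ 2 * M) ^ K * ∏ i, N (a i) (v i)) := by
        rw [Finset.sum_const, Finset.card_univ, Fintype.card_finset, nsmul_eq_mul]
        push_cast; ring
    _ ≤ 2 ^ K * (Real.exp (-E) * B' * (C ^ 2 * M) ^ K * ∏ i, N (a i) (v i)) := by
        refine mul_le_mul_of_nonneg_right (pow_le_pow_right₀ (by norm_num) hK) ?_
        have : 0 ≤ ∏ i, N (a i) (v i) := Finset.prod_nonneg fun _ _ => hN _ _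
        positivity
    _ = _ := by rw [mul_assoc 2, mul_pow 2]; ring

/-- a flagged metric with Cauchy representations: the data of Theorem N -/
inductive Flag (K : ℕ) (C M δ : ℝ) : (m : ℕ) → (Fin m → ℕ) → (ℂ → (Fin m → ℂ) → ℝ) → ℝ → Prop
  | nil (D : Fin 0 → ℕ) (N : ℂ → (Fin 0 → ℂ) → ℝ) (hN : ∀ z v, 0 ≤ N z v) : Flag K C M δ 0 D N 0
  | cons {m : ℕ} {D : Fin (m + 1) → ℕ} {N : ℂ → (Fin (m + 1) → ℂ) → ℝ}
      {N' : ℂ → (Fin m → ℂ) → ℝ} {w : ℂ → ℝ} {E E' : ℝ} (hN : ∀ z v, 0 ≤ N z v)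
      (h' : Flag K C M δ m (fun b => D b.succ) N' E')
      (hD : ∀ b : Fin m, D b.succ ≤ D 0) (hE : Energy w (D 0) E K δ)
      (hlead : ∀ z v, ‖v 0‖ * Real.exp (w z) ≤ N z v)
      (hrep : ∀ A : Finset ℂ, A.card ≤ K → ∃ R, IsRep N N' w C M δ A R) :
      Flag K C M δ (m + 1) D N (E + E')

theorem Flag.nonneg {K : ℕ} {C M δ : ℝ} {m : ℕ} {D : Fin m → ℕ} {N : ℂ → (Fin m → ℂ) → ℝ}
    {E : ℝ} (h : Flag K C M δ m D N E) : ∀ z v, 0 ≤ N z v := by
  cases h <;> assumption

/-- **Theorem N.** -/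
theorem theoremN {K : ℕ} {C M δ : ℝ} (hδ : 0 < δ) (hC : 1 ≤ C) (hM : 1 ≤ M) {m : ℕ}
    {D : Fin m → ℕ} {N : ℂ → (Fin m → ℂ) → ℝ} {E : ℝ} (h : Flag K C M δ m D N E) :
    ∀ (ι : Type) [Fintype ι] [DecidableEq ι],
      Fintype.card ι = Fintype.card (Σ b, Fin (D b)) → Fintype.card ι ≤ K →
      ∀ (a : ι → ℂ) (v : ι → Fin m → ℂ),
      adet (ptM D a v) ≤ ((2 * C ^ 2 * M) ^ K) ^ m * Real.exp (-E) * ∏ i, N (a i) (v i) := by
  induction h with
  | nil D N hN =>
    intro ι _ _ hcard _ a v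
    have : IsEmpty ι := by
      rw [← Fintype.card_eq_zero_iff, hcard]; simp
    rw [adet_eq (ptM D a v) (Fintype.equivOfCardEq hcard) (Equiv.refl _)]
    simp
  | cons hN h' hD hE hlead hrep IH =>
    intro ι _ _ hcard hK a v
    have := step hδ hC hM (by positivity) h'.nonneg hN hD hE hlead hrep
      (fun ι _ _ h1 h2 a v => IH ι h1 h2 a v) hcard hK a v
    refine this.trans (le_of_eq ?_)
    rw [pow_succ, neg_add, Real.exp_add]
    ring

end Vale.Agent.P030.H352
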